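import Vale.Agent.P125.Dich.ApiA

set_option linter.unusedSectionVars false
set_option linter.unusedVariables false

/-! # Stationarity: windows -/

namespace Vale.Agent.P125.Dich

open scoped BigOperators

variable {S M : Type} [Fintype S] [Fintype M] (C : MChain S M)

/-- `μ` is stationary: use `rev`, `Q_sum` and the bijection `inv` -/
lemma stationary (g : S → ℝ) :
    ∑ x, C.μ x * ∑ m, ∑ y, C.Q x m y * g y = ∑ y, C.μ y * g y := by
  have h1 : ∀ x, C.μ x * ∑ m, ∑ y, C.Q x m y * g y
      = ∑ m, ∑ y, C.μ y * C.Q y (C.inv m) x * g y := by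
    intro x
    rw [Finset.mul_sum]
    refine Finset.sum_congr rfl fun m _ => ?_
    rw [Finset.mul_sum]
    refine Finset.sum_congr rfl fun y _ => ?_
    rw [← mul_assoc, C.rev x m y]
  simp only [h1]
  have h2 : ∑ x, ∑ m, ∑ y, C.μ y * C.Q y (C.inv m) x * g y
      = ∑ y, ∑ m, ∑ x, C.μ y * C.Q y (C.inv m) x * g y := by
    calc ∑ x, ∑ m, ∑ y, C.μ y * C.Q y (C.inv m) x * g y
        = ∑ m, ∑ x, ∑ y, C.μ y * C.Q y (C.inv m) x * g y := Finset.sum_comm
      _ = ∑ m, ∑ y, ∑ x, C.μ y * C.Q y (C.inv m) x * g y :=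
          Finset.sum_congr rfl fun m _ => Finset.sum_comm
      _ = ∑ y, ∑ m, ∑ x, C.μ y * C.Q y (C.inv m) x * g y := Finset.sum_comm
  rw [h2]
  refine Finset.sum_congr rfl fun y _ => ?_
  have h3 : ∑ m, ∑ x, C.Q y (C.inv m) x = 1 := by
    have h4 := Equiv.sum_comp (Function.Involutive.toPerm C.inv C.inv_inv)
      (fun m => ∑ x, C.Q y m x)
    have h6 : ∑ m, ∑ x, C.Q y (C.inv m) x = ∑ m, ∑ x, C.Q y m x := h4
    rw [h6, C.Q_sum y]
  have h5 : ∑ m, ∑ x, C.μ y * C.Q y (C.inv m) x * g y
      = C.μ y * g y * ∑ m, ∑ x, C.Q y (C.inv m) x := by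
    rw [Finset.mul_sum]
    refine Finset.sum_congr rfl fun m _ => ?_
    rw [Finset.mul_sum]
    refine Finset.sum_congr rfl fun x _ => ?_
    ring
  rw [h5, h3, mul_one]

/-- iterated stationarity for functions of the final state -/
lemma stationary_iter (a : ℕ) (g : S → ℝ) :
    ∑ x, C.μ x * C.valT a (fun _ z => g z) x = ∑ x, C.μ x * g x := by
  induction a with
  | zero => rfl
  | succ a ih =>
    simp only [valT_succ]
    rw [stationary C (fun y => C.valT a (fun _ z => g z) y), ih]

/-- stationarity: forgetting the first `a` marks -/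
lemma E_drop (a b : ℕ) (Φ : List M → ℝ) :
    C.E (a + b) (fun l => Φ (l.drop a)) = C.E b Φ := by
  unfold MChain.E
  have h1 : ∀ x, C.valT (a + b) (fun l _ => Φ (l.drop a)) x
      = C.valT a (fun _ z => C.valT b (fun l _ => Φ l) z) x := by
    intro x
    rw [valT_append]
    apply valT_congr
    intro l z hl
    apply valT_congr
    intro l2 w _
    rw [← hl, List.drop_left]
  simp only [h1]
  exact stationary_iter C a (fun z => C.valT b (fun l _ => Φ l) z)

/-- forgetting the last `b` marks -/
lemma E_take (a b : ℕ) (Φ : List M → ℝ) :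
    C.E (a + b) (fun l => Φ (l.take a)) = C.E a Φ := by
  unfold MChain.E
  refine Finset.sum_congr rfl fun x _ => ?_
  congr 1
  rw [valT_append]
  apply valT_congr
  intro l z hl
  have h2 : C.valT b (fun l2 _ => Φ ((l ++ l2).take a)) z = C.valT b (fun _ _ => Φ l) z := by
    apply valT_congr
    intro l2 w _
    rw [← hl, List.take_left]
  rw [h2, valT_const]

/-- a window of length `b` inside a longer window -/
lemma E_window (a b c : ℕ) (Φ : List M → ℝ) :
    C.E (a + b + c) (fun l => Φ ((l.drop a).take b)) = C.E b Φ := by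
  have h1 : (fun l : List M => Φ ((l.drop a).take b))
      = fun l => (fun l' : List M => Φ (l'.drop a)) (l.take (a + b)) := by
    funext l
    simp only
    rw [List.drop_take, Nat.add_sub_cancel_left]
  rw [h1, E_take C (a + b) c (fun l' => Φ (l'.drop a)), E_drop]

end Vale.Agent.P125.Dich
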