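import Vale.Agent.P125.Dich.ApiA

set_option linter.unusedSectionVars false
set_option linter.unusedVariables false

/-! # Time reversal -/

namespace Vale.Agent.P125.Dich

open scoped BigOperators

variable {S M : Type} [Fintype S] [Fintype M] (C : MChain S M)

lemma sm_nil {X : Type*} [AddCommMonoid X] (ω : M → X) : sm ω [] = 0 := rfl

lemma sm_cons {X : Type*} [AddCommMonoid X] (ω : M → X) (m : M) (l : List M) :
    sm ω (m :: l) = ω m + sm ω l := by
  simp [sm]

lemma sm_append {X : Type*} [AddCommMonoid X] (ω : M → X) (l l' : List M) :
    sm ω (l ++ l') = sm ω l + sm ω l' := by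
  simp [sm]

/-- reversal changes the sign of the sum of an antisymmetric mark function -/
lemma sm_rev {X : Type*} [AddCommGroup X] (ω : M → X) (inv : M → M)
    (h : ∀ m, ω (inv m) = - ω m) (l : List M) :
    sm ω ((l.map inv).reverse) = - sm ω l := by
  induction l with
  | nil => simp [sm]
  | cons m l ih =>
    rw [List.map_cons, List.reverse_cons, sm_append, ih, sm_cons, sm_cons, sm_nil, h]
    abel

/-- the involution of the marks as a permutation -/
def MChain.invEquiv : M ≃ M := ⟨C.inv, C.inv, C.inv_inv, C.inv_inv⟩

/-- two sided reversal identity (induction on `b`, using `valT_succ_last` on one side) -/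
lemma rev_identity (b : ℕ) (Φ : List M → ℝ) (g k : S → ℝ) :
    ∑ x, C.μ x * g x * C.valT b (fun l z => Φ l * k z) x =
      ∑ z, C.μ z * k z * C.valT b (fun l x => Φ ((l.map C.inv).reverse) * g x) z := by
  induction b generalizing Φ g k with
  | zero =>
    refine Finset.sum_congr rfl fun x _ => ?_
    rw [valT_zero, valT_zero]
    simp only [List.map_nil, List.reverse_nil]
    ring
  | succ b ih =>
    -- the left side
    have hL : ∑ x, C.μ x * g x * C.valT (b + 1) (fun l z => Φ l * k z) x =
        ∑ m, ∑ y, C.μ y * (∑ x, C.Q y (C.inv m) x * g x) *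
          C.valT b (fun l z => Φ (m :: l) * k z) y := by
      have h1 : ∀ x, C.μ x * g x * C.valT (b + 1) (fun l z => Φ l * k z) x =
          ∑ m, ∑ y, C.μ y * (C.Q y (C.inv m) x * g x) *
            C.valT b (fun l z => Φ (m :: l) * k z) y := by
        intro x
        rw [valT_succ, Finset.mul_sum]
        refine Finset.sum_congr rfl fun m _ => ?_
        rw [Finset.mul_sum]
        refine Finset.sum_congr rfl fun y _ => ?_
        have := C.rev x m y
        calc C.μ x * g x * (C.Q x m y * C.valT b (fun l z => Φ (m :: l) * k z) y)
            = (C.μ x * C.Q x m y) * g x * C.valT b (fun l z => Φ (m :: l) * k z) y := by ring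
          _ = (C.μ y * C.Q y (C.inv m) x) * g x *
                C.valT b (fun l z => Φ (m :: l) * k z) y := by rw [this]
          _ = _ := by ring
      simp only [h1]
      rw [Finset.sum_comm]
      refine Finset.sum_congr rfl fun m _ => ?_
      rw [Finset.sum_comm]
      refine Finset.sum_congr rfl fun y _ => ?_
      rw [Finset.mul_sum, Finset.sum_mul]
    -- the right side
    have hR : ∀ z, C.valT (b + 1) (fun l x => Φ ((l.map C.inv).reverse) * g x) z =
        ∑ m, C.valT b (fun l w => Φ (m :: (l.map C.inv).reverse) *
          (∑ x, C.Q w (C.inv m) x * g x)) z := by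
      intro z
      rw [valT_succ_last, ← valT_finset_sum]
      refine valT_congr C b _ _ (fun l w _ => ?_) z
      rw [← (C.invEquiv).sum_comp]
      refine Finset.sum_congr rfl fun m _ => ?_
      have e1 : C.invEquiv m = C.inv m := rfl
      rw [e1, Finset.mul_sum]
      refine Finset.sum_congr rfl fun y _ => ?_
      rw [List.map_append, List.reverse_append]
      simp only [List.map_cons, List.map_nil, List.reverse_cons, List.reverse_nil, List.nil_append,
        List.cons_append, C.inv_inv]
      ring
    rw [hL]
    simp only [hR]
    have h2 : ∀ m, ∑ y, C.μ y * (∑ x, C.Q y (C.inv m) x * g x) *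
          C.valT b (fun l z => Φ (m :: l) * k z) y =
        ∑ z, C.μ z * k z * C.valT b (fun l w => Φ (m :: (l.map C.inv).reverse) *
          (∑ x, C.Q w (C.inv m) x * g x)) z := by
      intro m
      exact ih (fun l => Φ (m :: l)) (fun y => ∑ x, C.Q y (C.inv m) x * g x) k
    simp only [h2]
    rw [Finset.sum_comm]
    refine Finset.sum_congr rfl fun z _ => ?_
    rw [Finset.mul_sum]

/-- the stationary law of the marks is invariant under time reversal -/
lemma E_rev (b : ℕ) (Φ : List M → ℝ) :
    C.E b (fun l => Φ ((l.map C.inv).reverse)) = C.E b Φ := by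
  have h := rev_identity C b Φ (fun _ => 1) (fun _ => 1)
  simp only [mul_one] at h
  unfold MChain.E
  exact h.symm

end Vale.Agent.P125.Dich
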