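import Vale.Agent.P125.Dich.Core

set_option linter.unusedSectionVars false
set_option linter.unusedVariables false

/-! # Iterating the hypothesis: from time `t0` to the times `t0 ^ k` -/

namespace Vale.Agent.P125.Dich

open scoped BigOperators

/-- powers of a reversible stochastic matrix are reversible stochastic matrices (induction) -/
lemma isChain_pow {S : Type} [Fintype S] [DecidableEq S] {μ : S → ℝ} {P : Matrix S S ℝ}
    (h : IsChain μ P) (q : ℕ) : IsChain μ (P ^ q) := by
  obtain ⟨h1, h2, h3, h4, h5⟩ := h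
  induction q with
  | zero =>
    refine ⟨h1, h2, ?_, ?_, ?_⟩
    · intro i j
      rw [pow_zero, Matrix.one_apply]
      split_ifs <;> norm_num
    · intro i
      rw [pow_zero]
      simp [Matrix.one_apply]
    · intro i j
      rw [pow_zero, Matrix.one_apply, Matrix.one_apply]
      by_cases hij : i = j
      · subst hij
        rfl
      · rw [if_neg hij, if_neg (fun hh => hij hh.symm)]
        ring
  | succ q ih =>
    obtain ⟨_, _, i3, i4, i5⟩ := ih
    refine ⟨h1, h2, ?_, ?_, ?_⟩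
    · intro i j
      rw [pow_succ, Matrix.mul_apply]
      exact Finset.sum_nonneg fun k _ => mul_nonneg (i3 i k) (h3 k j)
    · intro i
      rw [pow_succ]
      simp only [Matrix.mul_apply]
      rw [Finset.sum_comm]
      calc ∑ k, ∑ j, (P ^ q) i k * P k j = ∑ k, (P ^ q) i k := by
            refine Finset.sum_congr rfl fun k _ => ?_
            rw [← Finset.mul_sum, h4 k, mul_one]
        _ = 1 := i4 i
    · intro i j
      have e1 : (P ^ (q + 1)) i j = ∑ k, (P ^ q) i k * P k j := by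
        rw [pow_succ, Matrix.mul_apply]
      have e2 : (P ^ (q + 1)) j i = ∑ k, P j k * (P ^ q) k i := by
        rw [pow_succ', Matrix.mul_apply]
      rw [e1, e2, Finset.mul_sum, Finset.mul_sum]
      refine Finset.sum_congr rfl fun k _ => ?_
      calc μ i * ((P ^ q) i k * P k j) = (μ i * (P ^ q) i k) * P k j := by ring
        _ = (μ k * (P ^ q) k i) * P k j := by rw [i5 i k]
        _ = (μ k * P k j) * (P ^ q) k i := by ring
        _ = (μ j * P j k) * (P ^ q) k i := by rw [h5 k j]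
        _ = μ j * (P j k * (P ^ q) k i) := by ring

/-- apply the hypothesis to the chain `(μ, P ^ (t0 ^ k))`; `P ^ (t0 ^ (k+1)) = (P ^ (t0 ^ k)) ^ t0` -/
theorem hFun_pow (X : Type*) [NormedAddCommGroup X] (t0 : ℕ) (A : ℝ) (h : HFun X t0 A) :
    ∀ k, HFun X (t0 ^ k) (A ^ k) := by
  intro k
  induction k with
  | zero =>
    intro S _ _ μ P hP f
    simp
  | succ k ih =>
    intro S _ _ μ P hP f
    have a1 := h S μ (P ^ (t0 ^ k)) (isChain_pow hP _) f
    have a2 := ih S μ P hP f
    have e : (P ^ (t0 ^ k)) ^ t0 = P ^ (t0 ^ (k + 1)) := by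
      rw [← pow_mul, pow_succ]
    rw [e] at a1
    calc ∑ i, ∑ j, μ i * (P ^ (t0 ^ (k + 1))) i j * ‖f j - f i‖ ^ 2
        ≤ A ^ 2 * ∑ i, ∑ j, μ i * (P ^ (t0 ^ k)) i j * ‖f j - f i‖ ^ 2 := a1
      _ ≤ A ^ 2 * ((A ^ k) ^ 2 * ∑ i, ∑ j, μ i * P i j * ‖f j - f i‖ ^ 2) :=
          mul_le_mul_of_nonneg_left a2 (sq_nonneg A)
      _ = (A ^ (k + 1)) ^ 2 * ∑ i, ∑ j, μ i * P i j * ‖f j - f i‖ ^ 2 := by ring

end Vale.Agent.P125.Dich
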