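import Vale.Agent.P125.Dich.Core

set_option linter.unusedSectionVars false
set_option linter.unusedVariables false

/-! # Algebra of `valT` (all by induction on the number of steps, generalising `Φ` and `x`) -/

namespace Vale.Agent.P125.Dich

open scoped BigOperators

variable {S M : Type} [Fintype S] [Fintype M] (C : MChain S M)

lemma valT_zero (Φ : List M → S → ℝ) (x : S) : C.valT 0 Φ x = Φ [] x := rfl

lemma valT_succ (b : ℕ) (Φ : List M → S → ℝ) (x : S) :
    C.valT (b + 1) Φ x = ∑ m, ∑ y, C.Q x m y * C.valT b (fun l z => Φ (m :: l) z) y := rfl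

/-- only lists of length `b` matter -/
lemma valT_congr (b : ℕ) (Φ Ψ : List M → S → ℝ) (h : ∀ l z, l.length = b → Φ l z = Ψ l z) (x : S) :
    C.valT b Φ x = C.valT b Ψ x := by
  induction b generalizing Φ Ψ x with
  | zero => exact h [] x rfl
  | succ b ih =>
    rw [valT_succ, valT_succ]
    refine Finset.sum_congr rfl fun m _ => Finset.sum_congr rfl fun y _ => ?_
    rw [ih (fun l z => Φ (m :: l) z) (fun l z => Ψ (m :: l) z)
      (fun l z hl => h (m :: l) z (by rw [List.length_cons, hl])) y]

lemma valT_mono (b : ℕ) (Φ Ψ : List M → S → ℝ) (h : ∀ l z, l.length = b → Φ l z ≤ Ψ l z) (x : S) :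
    C.valT b Φ x ≤ C.valT b Ψ x := by
  induction b generalizing Φ Ψ x with
  | zero => exact h [] x rfl
  | succ b ih =>
    rw [valT_succ, valT_succ]
    refine Finset.sum_le_sum fun m _ => Finset.sum_le_sum fun y _ => ?_
    exact mul_le_mul_of_nonneg_left
      (ih (fun l z => Φ (m :: l) z) (fun l z => Ψ (m :: l) z)
        (fun l z hl => h (m :: l) z (by rw [List.length_cons, hl])) y) (C.Q_nonneg x m y)

lemma valT_const (b : ℕ) (a : ℝ) (x : S) : C.valT b (fun _ _ => a) x = a := by
  induction b generalizing x with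
  | zero => rfl
  | succ b ih =>
    rw [valT_succ]
    have h1 : ∀ m y, C.Q x m y * C.valT b (fun _ _ => a) y = C.Q x m y * a := by
      intro m y
      rw [ih y]
    simp only [h1]
    simp only [← Finset.sum_mul]
    rw [C.Q_sum x, one_mul]

lemma valT_nonneg (b : ℕ) (Φ : List M → S → ℝ) (h : ∀ l z, l.length = b → 0 ≤ Φ l z) (x : S) :
    0 ≤ C.valT b Φ x := by
  have h1 := valT_mono C b (fun _ _ => 0) Φ h x
  rwa [valT_const] at h1

lemma valT_add (b : ℕ) (Φ Ψ : List M → S → ℝ) (x : S) :
    C.valT b (fun l z => Φ l z + Ψ l z) x = C.valT b Φ x + C.valT b Ψ x := by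
  induction b generalizing Φ Ψ x with
  | zero => rfl
  | succ b ih =>
    rw [valT_succ, valT_succ, valT_succ, ← Finset.sum_add_distrib]
    refine Finset.sum_congr rfl fun m _ => ?_
    rw [← Finset.sum_add_distrib]
    refine Finset.sum_congr rfl fun y _ => ?_
    rw [ih (fun l z => Φ (m :: l) z) (fun l z => Ψ (m :: l) z) y, mul_add]

lemma valT_const_mul (b : ℕ) (a : ℝ) (Φ : List M → S → ℝ) (x : S) :
    C.valT b (fun l z => a * Φ l z) x = a * C.valT b Φ x := by
  induction b generalizing Φ x with
  | zero => rfl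
  | succ b ih =>
    rw [valT_succ, valT_succ, Finset.mul_sum]
    refine Finset.sum_congr rfl fun m _ => ?_
    rw [Finset.mul_sum]
    refine Finset.sum_congr rfl fun y _ => ?_
    rw [ih (fun l z => Φ (m :: l) z) y]
    ring

lemma valT_finset_sum {ι : Type*} (s : Finset ι) (b : ℕ) (Φ : ι → List M → S → ℝ) (x : S) :
    C.valT b (fun l z => ∑ i ∈ s, Φ i l z) x = ∑ i ∈ s, C.valT b (Φ i) x := by
  classical
  induction s using Finset.induction_on with
  | empty =>
    simp only [Finset.sum_empty]
    exact valT_const C b 0 x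
  | insert i s hi ih =>
    simp only [Finset.sum_insert hi]
    rw [valT_add C b (Φ i) (fun l z => ∑ j ∈ s, Φ j l z) x, ih]

/-- Markov property -/
lemma valT_append (a b : ℕ) (Φ : List M → S → ℝ) (x : S) :
    C.valT (a + b) Φ x =
      C.valT a (fun l1 z => C.valT b (fun l2 w => Φ (l1 ++ l2) w) z) x := by
  induction a generalizing Φ x with
  | zero =>
    rw [Nat.zero_add, valT_zero]
    rfl
  | succ a ih =>
    have h1 : a + 1 + b = (a + b) + 1 := by ring
    rw [h1, valT_succ, valT_succ]
    refine Finset.sum_congr rfl fun m _ => Finset.sum_congr rfl fun y _ => ?_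
    rw [ih (fun l z => Φ (m :: l) z) y]
    rfl

/-- peeling off the last step -/
lemma valT_succ_last (b : ℕ) (Φ : List M → S → ℝ) (x : S) :
    C.valT (b + 1) Φ x =
      C.valT b (fun l z => ∑ m, ∑ y, C.Q z m y * Φ (l ++ [m]) y) x := by
  rw [valT_append C b 1 Φ x]
  rfl

end Vale.Agent.P125.Dich
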