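import Vale.Agent.P125.Dich.ApiA

set_option linter.unusedSectionVars false
set_option linter.unusedVariables false

/-! # Stationary expectations `E`: algebra, Chebyshev, union bound -/

namespace Vale.Agent.P125.Dich

open scoped BigOperators

variable {S M : Type} [Fintype S] [Fintype M] (C : MChain S M)

lemma E_congr (b : ℕ) (Φ Ψ : List M → ℝ) (h : ∀ l, l.length = b → Φ l = Ψ l) :
    C.E b Φ = C.E b Ψ := by
  unfold MChain.E
  refine Finset.sum_congr rfl fun x _ => ?_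
  rw [valT_congr C b (fun l _ => Φ l) (fun l _ => Ψ l) (fun l _ hl => h l hl) x]

lemma E_mono (b : ℕ) (Φ Ψ : List M → ℝ) (h : ∀ l, l.length = b → Φ l ≤ Ψ l) :
    C.E b Φ ≤ C.E b Ψ := by
  unfold MChain.E
  refine Finset.sum_le_sum fun x _ => ?_
  exact mul_le_mul_of_nonneg_left
    (valT_mono C b (fun l _ => Φ l) (fun l _ => Ψ l) (fun l _ hl => h l hl) x) (C.μ_nonneg x)

lemma E_const (b : ℕ) (a : ℝ) : C.E b (fun _ => a) = a := by
  unfold MChain.E
  simp only [valT_const]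
  rw [← Finset.sum_mul, C.μ_sum, one_mul]

lemma E_nonneg (b : ℕ) (Φ : List M → ℝ) (h : ∀ l, l.length = b → 0 ≤ Φ l) : 0 ≤ C.E b Φ := by
  have h1 := E_mono C b (fun _ => 0) Φ h
  rwa [E_const] at h1

lemma E_add (b : ℕ) (Φ Ψ : List M → ℝ) :
    C.E b (fun l => Φ l + Ψ l) = C.E b Φ + C.E b Ψ := by
  unfold MChain.E
  rw [← Finset.sum_add_distrib]
  refine Finset.sum_congr rfl fun x _ => ?_
  rw [valT_add C b (fun l _ => Φ l) (fun l _ => Ψ l) x, mul_add]

lemma E_const_mul (b : ℕ) (a : ℝ) (Φ : List M → ℝ) :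
    C.E b (fun l => a * Φ l) = a * C.E b Φ := by
  unfold MChain.E
  rw [Finset.mul_sum]
  refine Finset.sum_congr rfl fun x _ => ?_
  rw [valT_const_mul C b a (fun l _ => Φ l) x]
  ring

lemma E_finset_sum {ι : Type*} (s : Finset ι) (b : ℕ) (Φ : ι → List M → ℝ) :
    C.E b (fun l => ∑ i ∈ s, Φ i l) = ∑ i ∈ s, C.E b (Φ i) := by
  unfold MChain.E
  rw [Finset.sum_comm]
  refine Finset.sum_congr rfl fun x _ => ?_
  rw [valT_finset_sum C s b (fun i l _ => Φ i l) x, Finset.mul_sum]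

lemma E_one (Φ : List M → ℝ) :
    C.E 1 Φ = ∑ x, ∑ m, ∑ y, C.μ x * C.Q x m y * Φ [m] := by
  unfold MChain.E
  refine Finset.sum_congr rfl fun x _ => ?_
  rw [valT_succ, Finset.mul_sum]
  refine Finset.sum_congr rfl fun m _ => ?_
  rw [Finset.mul_sum]
  refine Finset.sum_congr rfl fun y _ => ?_
  rw [valT_zero]
  ring

open Classical in
/-- Chebyshev -/
lemma E_cheb (b : ℕ) (Ψ : List M → ℝ) (hΨ : ∀ l, 0 ≤ Ψ l) (ρ : ℝ) (hρ : 0 < ρ) :
    C.E b (fun l => if ρ ≤ Ψ l then 1 else 0) ≤ C.E b (fun l => Ψ l ^ 2) / ρ ^ 2 := by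
  have hρ2 : 0 < ρ ^ 2 := by positivity
  rw [le_div_iff₀ hρ2, mul_comm, ← E_const_mul]
  refine E_mono C b _ _ fun l _ => ?_
  split_ifs with h
  · rw [mul_one]
    exact pow_le_pow_left₀ hρ.le h 2
  · rw [mul_zero]
    positivity

open Classical in
/-- an indicator has expectation at most one -/
lemma E_ind_le_one (b : ℕ) (p : List M → Prop) :
    C.E b (fun l => if p l then 1 else 0) ≤ 1 := by
  have h1 := E_mono C b (fun l => if p l then 1 else 0) (fun _ => 1) (fun l _ => by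
    split_ifs <;> norm_num)
  rwa [E_const] at h1

open Classical in
/-- union bound -/
lemma E_union {ι : Type*} (s : Finset ι) (b : ℕ) (p : List M → Prop) (q : ι → List M → Prop)
    (h : ∀ l, l.length = b → p l → ∃ i ∈ s, q i l) :
    C.E b (fun l => if p l then 1 else 0) ≤ ∑ i ∈ s, C.E b (fun l => if q i l then 1 else 0) := by
  rw [← E_finset_sum]
  refine E_mono C b _ _ fun l hl => ?_
  have hnn : ∀ i ∈ s, (0 : ℝ) ≤ (if q i l then (1 : ℝ) else 0) := by
    intro i _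
    split_ifs <;> norm_num
  split_ifs with hp
  · obtain ⟨i, hi, hq⟩ := h l hl hp
    have h1 := Finset.single_le_sum hnn hi
    rw [if_pos hq] at h1
    exact h1
  · exact Finset.sum_nonneg hnn

end Vale.Agent.P125.Dich
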