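import Vale.Agent.P125.Dich.ApiB
import Vale.Agent.P125.Basic

set_option linter.unusedSectionVars false
set_option linter.unusedVariables false

/-! # Back from marked chains to ordinary chains and functions -/

namespace Vale.Agent.P125.Dich

open scoped BigOperators

section BackAux

variable {S : Type} [Fintype S] [DecidableEq S]

/-- collapse of the sum over the marks `S × S` -/
private lemma sum_mark_collapse (P : Matrix S S ℝ) (x : S) (H : S × S → S → ℝ) :
    ∑ m : S × S, ∑ y, (if m = (x, y) then P x y else 0) * H m y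
      = ∑ y, P x y * H (x, y) y := by
  rw [Finset.sum_comm]
  refine Finset.sum_congr rfl fun y _ => ?_
  rw [Finset.sum_eq_single (x, y)]
  · simp
  · intro m _ hm
    simp [hm]
  · intro hm
    exact absurd (Finset.mem_univ _) hm

/-- the marked chain with marks `S × S` attached to an ordinary reversible chain -/
private def backChain (μ : S → ℝ) (P : Matrix S S ℝ)
    (h0 : ∀ i, 0 ≤ μ i) (h1 : ∑ i, μ i = 1) (h2 : ∀ i j, 0 ≤ P i j) (h3 : ∀ i, ∑ j, P i j = 1)
    (h4 : ∀ i j, μ i * P i j = μ j * P j i) : MChain S (S × S) where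
  μ := μ
  Q := fun x m y => if m = (x, y) then P x y else 0
  inv := Prod.swap
  μ_nonneg := h0
  μ_sum := h1
  Q_nonneg := by
    intro x m y
    split_ifs
    · exact h2 x y
    · exact le_rfl
  Q_sum := by
    intro x
    have h := sum_mark_collapse P x (fun _ _ => (1 : ℝ))
    simp only [mul_one] at h
    rw [h, h3]
  inv_inv := Prod.swap_swap
  rev := by
    intro x m y
    by_cases hm : m = (x, y)
    · subst hm
      simp [h4 x y]
    · have hm' : ¬ (Prod.swap m = (y, x)) := by
        intro hs
        apply hm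
        have := congrArg Prod.swap hs
        simpa using this
      simp [hm, hm']

private lemma back_valT {X : Type*} [NormedAddCommGroup X] (μ : S → ℝ) (P : Matrix S S ℝ)
    (h0 : ∀ i, 0 ≤ μ i) (h1 : ∑ i, μ i = 1) (h2 : ∀ i j, 0 ≤ P i j) (h3 : ∀ i, ∑ j, P i j = 1)
    (h4 : ∀ i j, μ i * P i j = μ j * P j i) (f : S → X) (b : ℕ) :
    ∀ (G : X → S → ℝ) (x : S),
      (backChain μ P h0 h1 h2 h3 h4).valT b
          (fun l z => G (sm (fun m : S × S => f m.2 - f m.1) l) z) x
        = ∑ z, (P ^ b) x z * G (f z - f x) z := by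
  induction b with
  | zero =>
    intro G x
    simp only [MChain.valT, sm, List.map_nil, List.sum_nil, pow_zero, Matrix.one_apply]
    simp
  | succ b ih =>
    intro G x
    have hstep : ∀ (m : S × S) (y : S),
        (backChain μ P h0 h1 h2 h3 h4).valT b
          (fun l z => G (sm (fun m : S × S => f m.2 - f m.1) (m :: l)) z) y
          = ∑ z, (P ^ b) y z * G ((f m.2 - f m.1) + (f z - f y)) z := by
      intro m y
      have := ih (fun u z => G ((f m.2 - f m.1) + u) z) y
      simpa [sm] using this
    simp only [MChain.valT]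
    simp_rw [hstep]
    have hQ : ∀ (m : S × S) (y : S), (backChain μ P h0 h1 h2 h3 h4).Q x m y
        = if m = (x, y) then P x y else 0 := fun _ _ => rfl
    simp_rw [hQ]
    rw [sum_mark_collapse P x
      (fun m y => ∑ z, (P ^ b) y z * G ((f m.2 - f m.1) + (f z - f y)) z)]
    have hcancel : ∀ y z : S, f y - f x + (f z - f y) = f z - f x := by
      intro y z; abel
    simp_rw [hcancel]
    simp_rw [pow_succ', Matrix.mul_apply, Finset.sum_mul, Finset.mul_sum]
    rw [Finset.sum_comm]
    refine Finset.sum_congr rfl fun z _ => Finset.sum_congr rfl fun y _ => ?_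
    ring

private lemma back_E {X : Type*} [NormedAddCommGroup X] (μ : S → ℝ) (P : Matrix S S ℝ)
    (h0 : ∀ i, 0 ≤ μ i) (h1 : ∑ i, μ i = 1) (h2 : ∀ i j, 0 ≤ P i j) (h3 : ∀ i, ∑ j, P i j = 1)
    (h4 : ∀ i j, μ i * P i j = μ j * P j i) (f : S → X) (b : ℕ) (p : ℝ) :
    (backChain μ P h0 h1 h2 h3 h4).E b
        (fun l => ‖sm (fun m : S × S => f m.2 - f m.1) l‖ ^ p)
      = ∑ i, ∑ j, μ i * (P ^ b) i j * ‖f j - f i‖ ^ p := by
  unfold MChain.E
  refine Finset.sum_congr rfl fun i _ => ?_
  have := back_valT μ P h0 h1 h2 h3 h4 f b (fun u _ => ‖u‖ ^ p) i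
  rw [this, Finset.mul_sum]
  refine Finset.sum_congr rfl fun j _ => ?_
  have hμ : (backChain μ P h0 h1 h2 h3 h4).μ i = μ i := rfl
  rw [hμ]
  ring

end BackAux

/-- See PROOF.md, section BACK: marks `S × S`, `Q x (a,b) y = P x y` if `a = x` and `b = y`,
`inv = Prod.swap`, `ω (a,b) = f b - f a`; the sum of `ω` along a path telescopes. -/
theorem hasMarkovType_of_markType (X : Type*) [NormedAddCommGroup X] (p K : ℝ)
    (h : MarkType X p K) : Vale.Agent.P125.HasMarkovTypeWith X p K := by
  intro S _ _ μ P h0 h1 h2 h3 h4 f t ht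
  have key := h S (S × S) (backChain μ P h0 h1 h2 h3 h4) (fun m : S × S => f m.2 - f m.1)
    (by
      intro m
      have : (backChain μ P h0 h1 h2 h3 h4).inv m = Prod.swap m := rfl
      rw [this]
      simp) t ht
  rw [back_E, back_E, pow_one] at key
  exact key

end Vale.Agent.P125.Dich
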