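import Mathlib

set_option linter.unusedSectionVars false
set_option linter.unusedVariables false

/-!
# P125 dichotomy project: marked reversible chains (definitions)

A *marked reversible chain* has a finite state space `S`, a finite set of marks `M` with an
involution `inv`, a stationary law `μ` and a kernel `Q x m y` (probability to go from `x` to `y`
using the mark `m`), reversible in the sense `μ x * Q x m y = μ y * Q y (inv m) x`.
`valT b Φ x` is the expectation, for the chain started at `x` and run for `b` steps, of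
`Φ (list of the b marks used) (final state)`; `E b Φ` is the stationary expectation of a function
of the list of the `b` marks.
-/

namespace Vale.Agent.P125.Dich

open scoped BigOperators

structure MChain (S M : Type) [Fintype S] [Fintype M] where
  μ : S → ℝ
  Q : S → M → S → ℝ
  inv : M → M
  μ_nonneg : ∀ x, 0 ≤ μ x
  μ_sum : ∑ x, μ x = 1
  Q_nonneg : ∀ x m y, 0 ≤ Q x m y
  Q_sum : ∀ x, ∑ m, ∑ y, Q x m y = 1
  inv_inv : ∀ m, inv (inv m) = m
  rev : ∀ x m y, μ x * Q x m y = μ y * Q y (inv m) x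

variable {S M : Type} [Fintype S] [Fintype M]

/-- expectation of `Φ (marks) (final state)` for the chain started at `x`, run `b` steps -/
def MChain.valT (C : MChain S M) : ℕ → (List M → S → ℝ) → S → ℝ
  | 0, Φ, x => Φ [] x
  | b + 1, Φ, x => ∑ m, ∑ y, C.Q x m y * MChain.valT C b (fun l z => Φ (m :: l) z) y

/-- stationary expectation of a function of the list of the first `b` marks -/
def MChain.E (C : MChain S M) (b : ℕ) (Φ : List M → ℝ) : ℝ :=
  ∑ x, C.μ x * C.valT b (fun l _ => Φ l) x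

/-- the sum of the values of `ω` along a list of marks -/
def sm {X : Type*} [AddCommMonoid X] (ω : M → X) (l : List M) : X := (l.map ω).sum

/-- `(μ, P)` is a stationary reversible Markov chain -/
def IsChain {S : Type} [Fintype S] (μ : S → ℝ) (P : Matrix S S ℝ) : Prop :=
  (∀ i, 0 ≤ μ i) ∧ ∑ i, μ i = 1 ∧ (∀ i j, 0 ≤ P i j) ∧ (∀ i, ∑ j, P i j = 1) ∧
    (∀ i j, μ i * P i j = μ j * P j i)

/-- the `L_2` inequality at time `b` with constant `A`, for functions on ordinary chains -/
def HFun (X : Type*) [NormedAddCommGroup X] (b : ℕ) (A : ℝ) : Prop :=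
  ∀ (S : Type) [Fintype S] [DecidableEq S] (μ : S → ℝ) (P : Matrix S S ℝ), IsChain μ P →
    ∀ f : S → X,
      ∑ i, ∑ j, μ i * (P ^ b) i j * ‖f j - f i‖ ^ 2 ≤
        A ^ 2 * ∑ i, ∑ j, μ i * P i j * ‖f j - f i‖ ^ 2

/-- the `L_2` inequality at time `b` with constant `A`, for antisymmetric mark functions on
marked chains -/
def HMark (X : Type*) [NormedAddCommGroup X] (b : ℕ) (A : ℝ) : Prop :=
  ∀ (S M : Type) [Fintype S] [Fintype M] (C : MChain S M) (ω : M → X),
    (∀ m, ω (C.inv m) = - ω m) →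
      C.E b (fun l => ‖sm ω l‖ ^ 2) ≤ A ^ 2 * C.E 1 (fun l => ‖sm ω l‖ ^ 2)

open Classical in
/-- weak type maximal inequality at the times `t0 ^ J` -/
def MaxBound (X : Type*) [NormedAddCommGroup X] (t0 : ℕ) (lam C2 : ℝ) : Prop :=
  ∀ (S M : Type) [Fintype S] [Fintype M] (C : MChain S M) (ω : M → X),
    (∀ m, ω (C.inv m) = - ω m) → ∀ (J : ℕ) (ρ : ℝ), 0 < ρ →
      C.E (t0 ^ J) (fun l => if ∃ b, ρ ≤ ‖sm ω (l.take b)‖ then 1 else 0) ≤
        C2 * lam ^ (2 * J) / ρ ^ 2 * C.E 1 (fun l => ‖sm ω l‖ ^ 2)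

open Classical in
/-- weak type estimate for mark functions of size at most one supported on the `act`ive marks -/
def WeakSS (X : Type*) [NormedAddCommGroup X] (t0 : ℕ) (lam C3 : ℝ) : Prop :=
  ∀ (S M : Type) [Fintype S] [Fintype M] (C : MChain S M) (ω : M → X) (act : M → Prop),
    (∀ m, ω (C.inv m) = - ω m) → (∀ m, act (C.inv m) ↔ act m) → (∀ m, ¬ act m → ω m = 0) →
    (∀ m, ‖ω m‖ ≤ 1) → ∀ t i : ℕ,
      C.E t (fun l => if C3 * lam ^ i < ‖sm ω l‖ then 1 else 0) ≤
        64 * t * C.E 1 (fun l => if ∃ m ∈ l, act m then 1 else 0) / (t0 : ℝ) ^ i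

/-- Markov type `p` with constant `K` for antisymmetric mark functions on marked chains -/
def MarkType (X : Type*) [NormedAddCommGroup X] (p K : ℝ) : Prop :=
  ∀ (S M : Type) [Fintype S] [Fintype M] (C : MChain S M) (ω : M → X),
    (∀ m, ω (C.inv m) = - ω m) → ∀ t : ℕ, 1 ≤ t →
      C.E t (fun l => ‖sm ω l‖ ^ p) ≤ K ^ p * t * C.E 1 (fun l => ‖sm ω l‖ ^ p)

end Vale.Agent.P125.Dich
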