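import Vale.Agent.P125.Dich.FL_Steps

set_option linter.unusedSectionVars false
set_option linter.unusedVariables false

/-! # The forms lemma, part 3: the two energies of the cover -/

namespace Vale.Agent.P125.Dich

open scoped BigOperators

variable {S M : Type} [Fintype S] [Fintype M] [DecidableEq S] [DecidableEq M] (C : MChain S M)
variable {X : Type*} [NormedAddCommGroup X] [NormedSpace ℝ X]

lemma valT_one_sm (ω : M → X) (x : S) :
    C.valT 1 (fun l _ => ‖sm ω l‖ ^ 2) x = ∑ m, ∑ y, C.Q x m y * ‖ω m‖ ^ 2 := by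
  rw [valT_succ]
  refine Finset.sum_congr rfl fun m _ => Finset.sum_congr rfl fun y _ => ?_
  rw [valT_zero, sm_cons, sm_nil, add_zero]

/-- one step of the cover costs at most one step of the marked chain -/
lemma energy_one (L : ℕ) (ω : M → X) (hω : ∀ m, ω (C.inv m) = - ω m) :
    ∑ i, ∑ j, muT C L i * Pt C L i j * ‖Fh ω j.2.1 - Fh ω i.2.1‖ ^ 2
      ≤ C.E 1 (fun l => ‖sm ω l‖ ^ 2) := by
  have h1 : ∀ i : S × ↥(box M L),
      ∑ j, muT C L i * Pt C L i j * ‖Fh ω j.2.1 - Fh ω i.2.1‖ ^ 2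
        ≤ muT C L i * C.valT 1 (fun l _ => ‖sm ω l‖ ^ 2) i.1 := by
    intro i
    have h2 : ∑ j, muT C L i * Pt C L i j * ‖Fh ω j.2.1 - Fh ω i.2.1‖ ^ 2
        = muT C L i * ∑ j, Pt C L i j * ‖Fh ω j.2.1 - Fh ω i.2.1‖ ^ 2 := by
      rw [Finset.mul_sum]
      refine Finset.sum_congr rfl fun j _ => ?_
      ring
    rw [h2]
    refine mul_le_mul_of_nonneg_left ?_ (muT_nonneg C L i)
    rw [Pt_act C L i (fun j => ‖Fh ω j.2.1 - Fh ω i.2.1‖ ^ 2), valT_one_sm]
    have h3 : cens C L i * ‖Fh ω i.2.1 - Fh ω i.2.1‖ ^ 2 = 0 := by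
      rw [sub_self, norm_zero]
      ring
    rw [h3, add_zero]
    refine Finset.sum_le_sum fun m _ => Finset.sum_le_sum fun y _ => ?_
    refine mul_le_mul_of_nonneg_left ?_ (C.Q_nonneg _ _ _)
    rw [box_sel L (i.2.1 + dsp C m)
      (fun g => ‖Fh ω g.1 - Fh ω i.2.1‖ ^ 2) (‖ω m‖ ^ 2)]
    · split_ifs
      · exact le_refl _
      · positivity
    · intro g hg
      show ‖Fh ω g.1 - Fh ω i.2.1‖ ^ 2 = ‖ω m‖ ^ 2
      rw [hg, Fh_add, add_sub_cancel_left, Fh_dsp C ω hω]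
  refine le_trans (Finset.sum_le_sum fun i _ => h1 i) ?_
  rw [muT_sum_fst C L (fun x => C.valT 1 (fun l _ => ‖sm ω l‖ ^ 2) x)]
  exact le_refl _

lemma box_mono {n L : ℕ} (h : n ≤ L) : box M n ⊆ box M L := by
  intro v hv
  rw [mem_box] at hv ⊢
  intro k
  have h1 := hv k
  have h2 : (n : ℤ) ≤ L := by exact_mod_cast h
  constructor <;> linarith

lemma box_inner_sum {n L : ℕ} (h : n ≤ L) (c : ℝ) :
    ∑ g : ↥(box M L), (if g.1 ∈ box M n then c else 0) = (box M n).card * c := by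
  rw [Finset.sum_coe_sort (box M L) (fun w : M → ℤ => if w ∈ box M n then c else 0),
    Finset.sum_ite_mem, Finset.inter_eq_right.mpr (box_mono h), Finset.sum_const, nsmul_eq_mul]

/-- `b` steps of the cover see `b` steps of the marked chain on the inner box -/
lemma energy_b (n b : ℕ) (ω : M → X) (hω : ∀ m, ω (C.inv m) = - ω m) :
    ((box M n).card : ℝ) / (box M (n + b)).card * C.E b (fun l => ‖sm ω l‖ ^ 2)
      ≤ ∑ i, ∑ j, muT C (n + b) i * (Pt C (n + b) ^ b) i j * ‖Fh ω j.2.1 - Fh ω i.2.1‖ ^ 2 := by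
  have h1 : ∀ i : S × ↥(box M (n + b)),
      muT C (n + b) i *
        (if i.2.1 ∈ box M n then C.valT b (fun l _ => ‖sm ω l‖ ^ 2) i.1 else 0)
      ≤ ∑ j, muT C (n + b) i * (Pt C (n + b) ^ b) i j * ‖Fh ω j.2.1 - Fh ω i.2.1‖ ^ 2 := by
    intro i
    have h2 : ∑ j, muT C (n + b) i * (Pt C (n + b) ^ b) i j * ‖Fh ω j.2.1 - Fh ω i.2.1‖ ^ 2
        = muT C (n + b) i * ∑ j, (Pt C (n + b) ^ b) i j * ‖Fh ω j.2.1 - Fh ω i.2.1‖ ^ 2 := by
      rw [Finset.mul_sum]
      refine Finset.sum_congr rfl fun j _ => ?_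
      ring
    rw [h2]
    refine mul_le_mul_of_nonneg_left ?_ (muT_nonneg C (n + b) i)
    split_ifs with hi
    · have h3 : ∀ k, -((n + b : ℕ) : ℤ) + b ≤ i.2.1 k ∧ i.2.1 k ≤ ((n + b : ℕ) : ℤ) - b := by
        intro k
        have h4 := (mem_box n i.2.1).1 hi k
        push_cast
        constructor <;> linarith
      rw [Pt_pow_act C (n + b) b (fun v => ‖Fh ω v - Fh ω i.2.1‖ ^ 2) i h3]
      refine le_of_eq (valT_congr C b _ _ (fun l z _ => ?_) i.1)
      rw [Fh_add, add_sub_cancel_left, Fh_sm C ω hω]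
    · exact Finset.sum_nonneg fun j _ =>
        mul_nonneg (Pt_pow_nonneg C (n + b) b i j) (by positivity)
  refine le_trans (le_of_eq ?_) (Finset.sum_le_sum fun i _ => h1 i)
  rw [Fintype.sum_prod_type]
  unfold MChain.E muT
  rw [Finset.mul_sum]
  refine Finset.sum_congr rfl fun x _ => ?_
  have h5 : ∑ y : ↥(box M (n + b)), C.μ x / ((box M (n + b)).card : ℝ) *
      (if y.1 ∈ box M n then C.valT b (fun l _ => ‖sm ω l‖ ^ 2) x else 0)
      = C.μ x / ((box M (n + b)).card : ℝ) *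
        (((box M n).card : ℝ) * C.valT b (fun l _ => ‖sm ω l‖ ^ 2) x) := by
    rw [← Finset.mul_sum, box_inner_sum (Nat.le_add_right n b)]
  refine Eq.trans ?_ h5.symm
  ring

end Vale.Agent.P125.Dich
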