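import Vale.Agent.P125.Dich.ApiB
import Vale.Agent.P125.Dich.FL_Energy

set_option linter.unusedSectionVars false
set_option linter.unusedVariables false

/-! # The forms lemma: from functions on ordinary chains to mark functions on marked chains -/

namespace Vale.Agent.P125.Dich

open scoped BigOperators

/-- the proportion of the inner box tends to one -/
lemma box_ratio_tendsto (b c : ℕ) :
    Filter.Tendsto (fun n : ℕ => (((2 * n + 1) ^ c : ℕ) : ℝ) / (((2 * (n + b) + 1) ^ c : ℕ) : ℝ))
      Filter.atTop (nhds 1) := by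
  have h1 : Filter.Tendsto (fun n : ℕ => 2 * n + 1) Filter.atTop Filter.atTop := by
    refine Filter.tendsto_atTop_mono (fun n => ?_) Filter.tendsto_id
    show n ≤ 2 * n + 1
    omega
  have h2 := (tendsto_natCast_div_add_atTop (2 * (b : ℝ))).comp h1
  have h3 := h2.pow c
  rw [one_pow] at h3
  refine h3.congr (fun n => ?_)
  simp only [Function.comp]
  rw [div_pow]
  push_cast
  congr 2
  ring

/-- FORMS LEMMA.  See PROOF.md, section FL (abelian cover `S × [-L,L]^M` with censoring, `L → ∞`). -/
theorem hMark_of_hFun (X : Type*) [NormedAddCommGroup X] [NormedSpace ℝ X] (b : ℕ) (A : ℝ)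
    (h : HFun X b A) : HMark X b A := by
  classical
  intro S M _ _ C ω hω
  have key : ∀ n : ℕ,
      (((2 * n + 1) ^ Fintype.card M : ℕ) : ℝ) / (((2 * (n + b) + 1) ^ Fintype.card M : ℕ) : ℝ)
        * C.E b (fun l => ‖sm ω l‖ ^ 2) ≤ A ^ 2 * C.E 1 (fun l => ‖sm ω l‖ ^ 2) := by
    intro n
    have h1 := energy_b C n b ω hω
    have h2 := h (S × ↥(box M (n + b))) (muT C (n + b)) (Pt C (n + b)) (isChain_cover C (n + b))
      (fun s => Fh ω s.2.1)
    have h3 := energy_one C (n + b) ω hω
    rw [card_box, card_box] at h1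
    exact le_trans h1 (le_trans h2 (mul_le_mul_of_nonneg_left h3 (sq_nonneg A)))
  have hlim := (box_ratio_tendsto b (Fintype.card M)).mul_const (C.E b (fun l => ‖sm ω l‖ ^ 2))
  rw [one_mul] at hlim
  exact le_of_tendsto' hlim key

end Vale.Agent.P125.Dich
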