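import Vale.Agent.P125.Dich.ApiA

set_option linter.unusedSectionVars false
set_option linter.unusedVariables false

/-! # The forms lemma, part 1: the abelian cover `S × [-L,L]^M` with censoring is a chain -/

namespace Vale.Agent.P125.Dich

open scoped BigOperators

variable {S M : Type} [Fintype S] [Fintype M] [DecidableEq S] [DecidableEq M] (C : MChain S M)

/-- the displacement of the mark `m` -/
def dsp (m : M) : M → ℤ := fun k => (if k = m then 1 else 0) - (if k = C.inv m then 1 else 0)

lemma dsp_inv (m : M) : dsp C (C.inv m) = - dsp C m := by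
  funext k
  simp only [dsp, C.inv_inv, Pi.neg_apply]
  ring

lemma dsp_le (m k : M) : dsp C m k ≤ 1 := by
  unfold dsp
  split_ifs <;> norm_num

lemma dsp_ge (m k : M) : -1 ≤ dsp C m k := by
  unfold dsp
  split_ifs <;> norm_num

/-- the box `[-L,L]^M` -/
noncomputable def box (M : Type) [Fintype M] [DecidableEq M] (L : ℕ) : Finset (M → ℤ) :=
  Fintype.piFinset (fun _ => Finset.Icc (-(L : ℤ)) L)

lemma mem_box (L : ℕ) (v : M → ℤ) : v ∈ box M L ↔ ∀ k, -(L : ℤ) ≤ v k ∧ v k ≤ L := by
  simp [box, Fintype.mem_piFinset]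

lemma card_box (L : ℕ) : (box M L).card = (2 * L + 1) ^ Fintype.card M := by
  unfold box
  rw [Fintype.card_piFinset]
  have h : (Finset.Icc (-(L : ℤ)) L).card = 2 * L + 1 := by
    rw [Int.card_Icc]
    have : ((L : ℤ) + 1 - -(L : ℤ)) = ((2 * L + 1 : ℕ) : ℤ) := by
      push_cast
      ring
    rw [this, Int.toNat_natCast]
  simp only [h, Finset.prod_const, Finset.card_univ]

lemma card_box_pos (L : ℕ) : 0 < ((box M L).card : ℝ) := by
  rw [card_box]
  positivity

/-- selection of the unique point of the box with given coordinates -/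
lemma box_sel (L : ℕ) (v : M → ℤ) (R : ↥(box M L) → ℝ) (r : ℝ)
    (h : ∀ g : ↥(box M L), g.1 = v → R g = r) :
    ∑ g : ↥(box M L), (if g.1 = v then R g else 0) = if v ∈ box M L then r else 0 := by
  have h1 : ∀ g : ↥(box M L), (if g.1 = v then R g else 0)
      = (fun w : M → ℤ => if w = v then r else 0) g.1 := by
    intro g
    by_cases hg : g.1 = v
    · simp only [hg, if_true]
      exact h g hg
    · simp only [hg, if_false]
  rw [Finset.sum_congr rfl (fun g _ => h1 g),
    Finset.sum_coe_sort (box M L) (fun w : M → ℤ => if w = v then r else 0),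
    Finset.sum_ite_eq']

/-- probability of a censored move -/
noncomputable def cens (L : ℕ) (s : S × ↥(box M L)) : ℝ :=
  ∑ m, ∑ z, C.Q s.1 m z * (if s.2.1 + dsp C m ∈ box M L then 0 else 1)

/-- the kernel of the cover -/
noncomputable def Pt (L : ℕ) : Matrix (S × ↥(box M L)) (S × ↥(box M L)) ℝ := fun s s' =>
  (∑ m, C.Q s.1 m s'.1 * (if s'.2.1 = s.2.1 + dsp C m then 1 else 0))
    + (if s' = s then cens C L s else 0)

/-- the stationary law of the cover -/
noncomputable def muT (L : ℕ) (s : S × ↥(box M L)) : ℝ := C.μ s.1 / (box M L).card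

lemma cens_nonneg (L : ℕ) (s : S × ↥(box M L)) : 0 ≤ cens C L s := by
  unfold cens
  refine Finset.sum_nonneg fun m _ => Finset.sum_nonneg fun z _ => ?_
  refine mul_nonneg (C.Q_nonneg _ _ _) ?_
  split_ifs <;> norm_num

lemma Pt_nonneg (L : ℕ) (s s' : S × ↥(box M L)) : 0 ≤ Pt C L s s' := by
  unfold Pt
  refine add_nonneg (Finset.sum_nonneg fun m _ => mul_nonneg (C.Q_nonneg _ _ _) ?_) ?_
  · split_ifs <;> norm_num
  · split_ifs
    · exact cens_nonneg C L s
    · exact le_refl 0

/-- the action of the kernel on a function -/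
lemma Pt_act (L : ℕ) (s : S × ↥(box M L)) (R : S × ↥(box M L) → ℝ) :
    ∑ s', Pt C L s s' * R s' =
      (∑ m, ∑ y, C.Q s.1 m y *
        ∑ g : ↥(box M L), (if g.1 = s.2.1 + dsp C m then R (y, g) else 0))
      + cens C L s * R s := by
  unfold Pt
  simp only [add_mul, Finset.sum_add_distrib]
  congr 1
  · rw [Fintype.sum_prod_type]
    simp only [Finset.sum_mul, Finset.mul_sum]
    have h1 : ∀ y : S, ∑ g : ↥(box M L), ∑ m,
        C.Q s.1 m y * (if g.1 = s.2.1 + dsp C m then 1 else 0) * R (y, g)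
        = ∑ m, ∑ g : ↥(box M L),
          C.Q s.1 m y * (if g.1 = s.2.1 + dsp C m then R (y, g) else 0) := by
      intro y
      rw [Finset.sum_comm]
      refine Finset.sum_congr rfl fun m _ => Finset.sum_congr rfl fun g _ => ?_
      split_ifs <;> ring
    rw [Finset.sum_congr rfl (fun y _ => h1 y), Finset.sum_comm]
  · simp only [ite_mul, zero_mul]
    rw [Finset.sum_ite_eq']
    simp

lemma box_count (L : ℕ) (v : M → ℤ) :
    ∑ g : ↥(box M L), (if g.1 = v then (1 : ℝ) else 0) = if v ∈ box M L then 1 else 0 :=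
  box_sel L v (fun _ => 1) 1 (fun _ _ => rfl)

lemma Pt_row (L : ℕ) (s : S × ↥(box M L)) : ∑ s', Pt C L s s' = 1 := by
  have h := Pt_act C L s (fun _ => 1)
  simp only [mul_one] at h
  rw [h]
  simp only [box_count]
  unfold cens
  rw [← Finset.sum_add_distrib]
  refine Eq.trans ?_ (C.Q_sum s.1)
  refine Finset.sum_congr rfl fun m _ => ?_
  rw [← Finset.sum_add_distrib]
  refine Finset.sum_congr rfl fun y _ => ?_
  split_ifs <;> ring

lemma muT_nonneg (L : ℕ) (s : S × ↥(box M L)) : 0 ≤ muT C L s :=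
  div_nonneg (C.μ_nonneg _) (card_box_pos L).le

/-- summing a function of the first coordinate against the law of the cover -/
lemma muT_sum_fst (L : ℕ) (W : S → ℝ) : ∑ s, muT C L s * W s.1 = ∑ x, C.μ x * W x := by
  unfold muT
  rw [Fintype.sum_prod_type]
  simp only [Finset.sum_const, Finset.card_univ, Fintype.card_coe, nsmul_eq_mul]
  have hc := card_box_pos (M := M) L
  refine Finset.sum_congr rfl fun x _ => ?_
  field_simp

lemma muT_sum (L : ℕ) : ∑ s, muT C L s = 1 := by
  have h := muT_sum_fst C L (fun _ => 1)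
  simp only [mul_one] at h
  rw [h]
  exact C.μ_sum

lemma Pt_rev (L : ℕ) (s s' : S × ↥(box M L)) :
    muT C L s * Pt C L s s' = muT C L s' * Pt C L s' s := by
  have key : C.μ s.1 * ∑ m, C.Q s.1 m s'.1 * (if s'.2.1 = s.2.1 + dsp C m then (1 : ℝ) else 0)
      = C.μ s'.1 * ∑ m, C.Q s'.1 m s.1 * (if s.2.1 = s'.2.1 + dsp C m then (1 : ℝ) else 0) := by
    rw [Finset.mul_sum, Finset.mul_sum]
    rw [← Equiv.sum_comp (Function.Involutive.toPerm C.inv C.inv_inv)
      (fun m => C.μ s'.1 * (C.Q s'.1 m s.1 * (if s.2.1 = s'.2.1 + dsp C m then (1 : ℝ) else 0)))]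
    refine Finset.sum_congr rfl fun m _ => ?_
    have e1 : (Function.Involutive.toPerm C.inv C.inv_inv) m = C.inv m := rfl
    rw [e1, ← mul_assoc, ← mul_assoc, C.rev s.1 m s'.1, dsp_inv]
    congr 1
    have h1 : (s'.2.1 = s.2.1 + dsp C m) ↔ (s.2.1 = s'.2.1 + - dsp C m) := by
      constructor
      · intro h
        rw [h]
        abel
      · intro h
        rw [h]
        abel
    simp only [h1]
  have key2 : C.μ s.1 * (if s' = s then cens C L s else 0)
      = C.μ s'.1 * (if s = s' then cens C L s' else 0) := by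
    by_cases h : s' = s
    · subst h
      rfl
    · have h' : ¬ s = s' := fun e => h e.symm
      simp [h, h']
  unfold muT Pt
  rw [div_mul_eq_mul_div, div_mul_eq_mul_div, mul_add, mul_add, key, key2]

theorem isChain_cover (L : ℕ) : IsChain (muT C L) (Pt C L) :=
  ⟨muT_nonneg C L, muT_sum C L, Pt_nonneg C L, Pt_row C L, Pt_rev C L⟩

lemma Pt_pow_nonneg (L b : ℕ) (s s' : S × ↥(box M L)) : 0 ≤ (Pt C L ^ b) s s' := by
  induction b generalizing s s' with
  | zero =>
    rw [pow_zero, Matrix.one_apply]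
    split_ifs <;> norm_num
  | succ b ih =>
    rw [pow_succ', Matrix.mul_apply]
    exact Finset.sum_nonneg fun u _ => mul_nonneg (Pt_nonneg C L s u) (ih u s')

end Vale.Agent.P125.Dich
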