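import Vale.Agent.P125.Dich.FL_Cover
import Vale.Agent.P125.Dich.ApiB3

set_option linter.unusedSectionVars false
set_option linter.unusedVariables false

/-! # The forms lemma, part 2: one step and `b` steps of the cover -/

namespace Vale.Agent.P125.Dich

open scoped BigOperators

variable {S M : Type} [Fintype S] [Fintype M] [DecidableEq S] [DecidableEq M] (C : MChain S M)
variable {X : Type*} [NormedAddCommGroup X] [NormedSpace ℝ X]

/-- the linear function `g ↦ (1/2) ∑ g m • ω m` -/
noncomputable def Fh (ω : M → X) (v : M → ℤ) : X := (1 / 2 : ℝ) • ∑ k, (v k : ℝ) • ω k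

lemma Fh_add (ω : M → X) (v w : M → ℤ) : Fh ω (v + w) = Fh ω v + Fh ω w := by
  unfold Fh
  rw [← smul_add, ← Finset.sum_add_distrib]
  congr 1
  refine Finset.sum_congr rfl fun k _ => ?_
  rw [Pi.add_apply, Int.cast_add, add_smul]

lemma Fh_zero (ω : M → X) : Fh ω 0 = 0 := by
  unfold Fh
  simp

lemma Fh_dsp (ω : M → X) (hω : ∀ m, ω (C.inv m) = - ω m) (m : M) : Fh ω (dsp C m) = ω m := by
  unfold Fh dsp
  have h1 : ∀ k, ((((if k = m then 1 else 0) - (if k = C.inv m then 1 else 0) : ℤ)) : ℝ) • ω k
      = (if k = m then ω k else 0) - (if k = C.inv m then ω k else 0) := by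
    intro k
    push_cast
    rw [sub_smul]
    congr 1 <;> split_ifs <;> simp
  rw [Finset.sum_congr rfl (fun k _ => h1 k), Finset.sum_sub_distrib, Finset.sum_ite_eq',
    Finset.sum_ite_eq']
  simp only [Finset.mem_univ, if_true, hω m, sub_neg_eq_add]
  rw [← two_smul ℝ (ω m), smul_smul]
  norm_num

lemma Fh_sm (ω : M → X) (hω : ∀ m, ω (C.inv m) = - ω m) (l : List M) :
    Fh ω (sm (dsp C) l) = sm ω l := by
  induction l with
  | nil => exact Fh_zero ω
  | cons m l ih => rw [sm_cons, sm_cons, Fh_add, ih, Fh_dsp C ω hω]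

/-- far from the boundary nothing is censored -/
lemma cens_eq_zero (L : ℕ) (s : S × ↥(box M L))
    (h : ∀ m, s.2.1 + dsp C m ∈ box M L) : cens C L s = 0 := by
  unfold cens
  refine Finset.sum_eq_zero fun m _ => Finset.sum_eq_zero fun z _ => ?_
  rw [if_pos (h m), mul_zero]

/-- `b` steps of the cover started at distance at least `b` from the boundary -/
lemma Pt_pow_act (L b : ℕ) (H : (M → ℤ) → ℝ) (s : S × ↥(box M L))
    (hs : ∀ k, -(L : ℤ) + b ≤ s.2.1 k ∧ s.2.1 k ≤ (L : ℤ) - b) :
    ∑ s', (Pt C L ^ b) s s' * H s'.2.1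
      = C.valT b (fun l _ => H (s.2.1 + sm (dsp C) l)) s.1 := by
  induction b generalizing s with
  | zero =>
    rw [pow_zero, valT_zero, sm_nil, add_zero]
    simp only [Matrix.one_apply, ite_mul, one_mul, zero_mul]
    rw [Finset.sum_ite_eq]
    simp
  | succ b ih =>
    have h1 : ∑ s', (Pt C L ^ (b + 1)) s s' * H s'.2.1
        = ∑ u, Pt C L s u * ∑ s', (Pt C L ^ b) u s' * H s'.2.1 := by
      rw [pow_succ']
      simp only [Matrix.mul_apply, Finset.sum_mul, Finset.mul_sum]
      rw [Finset.sum_comm]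
      refine Finset.sum_congr rfl fun u _ => Finset.sum_congr rfl fun s' _ => ?_
      ring
    have hin : ∀ m, s.2.1 + dsp C m ∈ box M L := by
      intro m
      rw [mem_box]
      intro k
      have h2 := hs k
      have h3 := dsp_le C m k
      have h4 := dsp_ge C m k
      push_cast at h2
      rw [Pi.add_apply]
      constructor <;> linarith
    rw [h1, Pt_act, cens_eq_zero C L s hin, zero_mul, add_zero, valT_succ]
    refine Finset.sum_congr rfl fun m _ => Finset.sum_congr rfl fun y _ => ?_
    congr 1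
    rw [box_sel L (s.2.1 + dsp C m)
      (fun g => ∑ s', (Pt C L ^ b) (y, g) s' * H s'.2.1)
      (C.valT b (fun l _ => H (s.2.1 + sm (dsp C) (m :: l))) y), if_pos (hin m)]
    intro g hg
    have h5 : ∀ k, -(L : ℤ) + b ≤ g.1 k ∧ g.1 k ≤ (L : ℤ) - b := by
      intro k
      have h2 := hs k
      have h3 := dsp_le C m k
      have h4 := dsp_ge C m k
      push_cast at h2
      rw [hg, Pi.add_apply]
      constructor <;> linarith
    rw [ih (y, g) h5]
    refine valT_congr C b _ _ (fun l z _ => ?_) y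
    show H (g.1 + sm (dsp C) l) = H (s.2.1 + sm (dsp C) (m :: l))
    rw [hg, sm_cons, add_assoc]

end Vale.Agent.P125.Dich
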