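import Vale.Agent.P125.Dich.ApiB

set_option linter.unusedSectionVars false
set_option linter.unusedVariables false

/-! # Weak type maximal inequality by `t0`-adic chaining -/

namespace Vale.Agent.P125.Dich

open scoped BigOperators

section Det

variable {M : Type}

/-- all aligned `t0`-adic blocks of `l` (a list of length `t0 ^ J`) are small -/
def Good (N : List M → ℝ) (θ : ℕ → ℝ) (t0 : ℕ) : ℕ → List M → Prop
  | 0 => fun l => N l ≤ θ 0
  | J + 1 => fun l => N l ≤ θ (J + 1) ∧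
      ∀ a, a < t0 → Good N θ t0 J ((l.drop (a * t0 ^ J)).take (t0 ^ J))

lemma good_zero (N : List M → ℝ) (θ : ℕ → ℝ) (t0 : ℕ) (l : List M) :
    Good N θ t0 0 l ↔ N l ≤ θ 0 := Iff.rfl

lemma good_succ (N : List M → ℝ) (θ : ℕ → ℝ) (t0 J : ℕ) (l : List M) :
    Good N θ t0 (J + 1) l ↔ (N l ≤ θ (J + 1) ∧
      ∀ a, a < t0 → Good N θ t0 J ((l.drop (a * t0 ^ J)).take (t0 ^ J))) := Iff.rfl

lemma good_top (N : List M → ℝ) (θ : ℕ → ℝ) (t0 J : ℕ) (l : List M) (h : Good N θ t0 J l) :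
    N l ≤ θ J := by
  cases J with
  | zero => exact h
  | succ J => exact h.1

/-- an initial segment made of `a` blocks of length `L` -/
lemma take_mul_bound (N : List M → ℝ) (hN0 : N [] = 0)
    (hNa : ∀ l l', N (l ++ l') ≤ N l + N l') (L : ℕ) (c : ℝ) (l : List M) (t0 : ℕ)
    (h : ∀ a, a < t0 → N ((l.drop (a * L)).take L) ≤ c) (a : ℕ) (ha : a ≤ t0) :
    N (l.take (a * L)) ≤ a * c := by
  induction a with
  | zero => simp [hN0]
  | succ a ih =>
    have e : (a + 1) * L = a * L + L := by ring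
    rw [e, List.take_add]
    have h1 := hNa (l.take (a * L)) ((l.drop (a * L)).take L)
    have h2 := ih (Nat.le_of_succ_le ha)
    have h3 := h a ha
    push_cast
    linarith

/-- deterministic chaining -/
lemma good_take (N : List M → ℝ) (hN0 : N [] = 0)
    (hNa : ∀ l l', N (l ++ l') ≤ N l + N l') (θ : ℕ → ℝ) (hθ : ∀ i, 0 ≤ θ i) (t0 : ℕ)
    (ht0 : 1 ≤ t0) (J : ℕ) :
    ∀ l : List M, Good N θ t0 J l → ∀ b, b < t0 ^ J →
      N (l.take b) ≤ t0 * ∑ i ∈ Finset.range J, θ i := by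
  induction J with
  | zero =>
    intro l _ b hb
    have hb0 : b = 0 := by simpa using hb
    subst hb0
    simp [hN0]
  | succ J ih =>
    intro l hl b hb
    have hL : 0 < t0 ^ J := Nat.pow_pos ht0
    have ha : b / t0 ^ J < t0 := by
      apply Nat.div_lt_of_lt_mul
      rwa [pow_succ] at hb
    have hr : b % t0 ^ J < t0 ^ J := Nat.mod_lt _ hL
    have hb' : b = (b / t0 ^ J) * t0 ^ J + b % t0 ^ J := by
      rw [mul_comm]
      exact (Nat.div_add_mod b (t0 ^ J)).symm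
    have hw := hl.2
    have h1 : N (l.take ((b / t0 ^ J) * t0 ^ J)) ≤ ((b / t0 ^ J : ℕ) : ℝ) * θ J :=
      take_mul_bound N hN0 hNa (t0 ^ J) (θ J) l t0
        (fun a ha' => good_top N θ t0 J _ (hw a ha')) _ ha.le
    have h2 : N ((l.drop ((b / t0 ^ J) * t0 ^ J)).take (b % t0 ^ J)) ≤
        t0 * ∑ i ∈ Finset.range J, θ i := by
      have h3 := ih _ (hw _ ha) (b % t0 ^ J) hr
      rwa [List.take_take, min_eq_left hr.le] at h3
    have h4 : N (l.take b) ≤ N (l.take ((b / t0 ^ J) * t0 ^ J)) +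
        N ((l.drop ((b / t0 ^ J) * t0 ^ J)).take (b % t0 ^ J)) := by
      have h5 := hNa (l.take ((b / t0 ^ J) * t0 ^ J))
        ((l.drop ((b / t0 ^ J) * t0 ^ J)).take (b % t0 ^ J))
      rw [← List.take_add, ← hb'] at h5
      exact h5
    have h6 : ((b / t0 ^ J : ℕ) : ℝ) * θ J ≤ t0 * θ J := by
      apply mul_le_mul_of_nonneg_right _ (hθ J)
      exact_mod_cast ha.le
    rw [Finset.sum_range_succ, mul_add]
    linarith

end Det

section Prob

variable {S M : Type} [Fintype S] [Fintype M] (C : MChain S M)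

open Classical in
/-- one step of the union bound -/
lemma E_notGood_succ (N : List M → ℝ) (θ : ℕ → ℝ) (t0 J : ℕ) :
    C.E (t0 ^ (J + 1)) (fun l => if ¬ Good N θ t0 (J + 1) l then 1 else 0) ≤
      C.E (t0 ^ (J + 1)) (fun l => if θ (J + 1) ≤ N l then 1 else 0) +
        t0 * C.E (t0 ^ J) (fun l => if ¬ Good N θ t0 J l then 1 else 0) := by
  have h1 : C.E (t0 ^ (J + 1)) (fun l => if ¬ Good N θ t0 (J + 1) l then 1 else 0) ≤
      C.E (t0 ^ (J + 1)) (fun l => (if θ (J + 1) ≤ N l then (1 : ℝ) else 0) +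
        ∑ a ∈ Finset.range t0,
          (if ¬ Good N θ t0 J ((l.drop (a * t0 ^ J)).take (t0 ^ J)) then (1 : ℝ) else 0)) := by
    refine E_mono C _ _ _ (fun l _ => ?_)
    have hs : ∀ a ∈ Finset.range t0, (0 : ℝ) ≤
        (if ¬ Good N θ t0 J ((l.drop (a * t0 ^ J)).take (t0 ^ J)) then (1 : ℝ) else 0) := by
      intro a _
      split_ifs <;> norm_num
    have hs0 := Finset.sum_nonneg hs
    have ht : (0 : ℝ) ≤ (if θ (J + 1) ≤ N l then (1 : ℝ) else 0) := by
      split_ifs <;> norm_num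
    by_cases hg : Good N θ t0 (J + 1) l
    · rw [if_neg (not_not.mpr hg)]
      linarith
    · rw [if_pos hg]
      rw [good_succ, not_and_or] at hg
      rcases hg with hg | hg
      · rw [if_pos (le_of_lt (not_le.mp hg))]
        linarith
      · have hg' : ∃ a, a < t0 ∧ ¬ Good N θ t0 J ((l.drop (a * t0 ^ J)).take (t0 ^ J)) := by
          by_contra hcon
          apply hg
          intro a ha
          by_contra hna
          exact hcon ⟨a, ha, hna⟩
        obtain ⟨a, ha, hna⟩ := hg'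
        have h2 := Finset.single_le_sum hs (Finset.mem_range.mpr ha)
        rw [if_pos hna] at h2
        linarith
  refine le_trans h1 ?_
  rw [E_add, E_finset_sum]
  have h3 : ∀ a ∈ Finset.range t0, C.E (t0 ^ (J + 1)) (fun l =>
      if ¬ Good N θ t0 J ((l.drop (a * t0 ^ J)).take (t0 ^ J)) then (1 : ℝ) else 0) =
      C.E (t0 ^ J) (fun l => if ¬ Good N θ t0 J l then 1 else 0) := by
    intro a ha
    obtain ⟨k, hk⟩ := Nat.exists_eq_add_of_lt (Finset.mem_range.mp ha)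
    have e : t0 ^ (J + 1) = a * t0 ^ J + t0 ^ J + k * t0 ^ J := by
      calc t0 ^ (J + 1) = t0 ^ J * t0 := pow_succ _ _
        _ = t0 ^ J * (a + k + 1) := by rw [← hk]
        _ = a * t0 ^ J + t0 ^ J + k * t0 ^ J := by ring
    rw [e]
    exact E_window C (a * t0 ^ J) (t0 ^ J) (k * t0 ^ J)
      (fun l => if ¬ Good N θ t0 J l then 1 else 0)
  rw [Finset.sum_congr rfl h3, Finset.sum_const, Finset.card_range, nsmul_eq_mul]

open Classical in
/-- the probability that some aligned block is large -/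
lemma E_notGood_le (N : List M → ℝ) (θ : ℕ → ℝ) (t0 : ℕ) (y D : ℝ) (hy : 0 ≤ y) (hD : 0 ≤ D)
    (hty : 29 * (t0 : ℝ) ≤ 28 * y)
    (hq : ∀ i, C.E (t0 ^ i) (fun l => if θ i ≤ N l then 1 else 0) ≤ y ^ i * D) (J : ℕ) :
    C.E (t0 ^ J) (fun l => if ¬ Good N θ t0 J l then 1 else 0) ≤ 29 * y ^ J * D := by
  induction J with
  | zero =>
    have h1 : C.E (t0 ^ 0) (fun l => if ¬ Good N θ t0 0 l then 1 else 0) ≤
        C.E (t0 ^ 0) (fun l => if θ 0 ≤ N l then 1 else 0) := by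
      refine E_mono C _ _ _ (fun l _ => ?_)
      by_cases hg : Good N θ t0 0 l
      · rw [if_neg (not_not.mpr hg)]
        split_ifs <;> norm_num
      · rw [if_pos hg]
        rw [good_zero] at hg
        rw [if_pos (le_of_lt (not_le.mp hg))]
    have h2 := hq 0
    simp only [pow_zero, one_mul, mul_one] at h1 h2 ⊢
    linarith
  | succ J ih =>
    have h1 := E_notGood_succ C N θ t0 J
    have h2 := hq (J + 1)
    have h3 : (t0 : ℝ) * C.E (t0 ^ J) (fun l => if ¬ Good N θ t0 J l then 1 else 0) ≤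
        t0 * (29 * y ^ J * D) := mul_le_mul_of_nonneg_left ih (Nat.cast_nonneg _)
    have h4 : 0 ≤ y ^ J * D := mul_nonneg (pow_nonneg hy J) hD
    have h5 : y ^ (J + 1) * D + t0 * (29 * y ^ J * D) ≤ 29 * y ^ (J + 1) * D := by
      have h6 : y ^ (J + 1) * D + t0 * (29 * y ^ J * D) = (y + 29 * t0) * (y ^ J * D) := by
        rw [pow_succ]
        ring
      have h7 : 29 * y ^ (J + 1) * D = (29 * y) * (y ^ J * D) := by
        rw [pow_succ]
        ring
      rw [h6, h7]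
      exact mul_le_mul_of_nonneg_right (by linarith) h4
    linarith

end Prob

lemma geom_aux (J : ℕ) : ∑ i ∈ Finset.range J, (5 / 4 : ℝ) ^ i ≤ 4 * (5 / 4 : ℝ) ^ J := by
  induction J with
  | zero => simp
  | succ J ih =>
    rw [Finset.sum_range_succ, pow_succ]
    have : (0 : ℝ) ≤ (5 / 4 : ℝ) ^ J := by positivity
    linarith

/-- See PROOF.md, section MAX. -/
theorem maxBound_of_hMark (X : Type*) [NormedAddCommGroup X] (t0 : ℕ) (ht0 : 2 ≤ t0) (lam : ℝ)
    (hl0 : 0 < lam) (hlam : 1.62 * (t0 : ℝ) ≤ lam ^ 2) (h : ∀ k, HMark X (t0 ^ k) (lam ^ k)) :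
    MaxBound X t0 lam (725 * (t0 : ℝ) ^ 2) := by
  classical
  intro S M _ _ C ω hω J ρ hρ
  have ht1 : 1 ≤ t0 := by omega
  have htpos : (0 : ℝ) < t0 := by exact_mod_cast ht1
  set E1 : ℝ := C.E 1 (fun l => ‖sm ω l‖ ^ 2) with hE1
  have hE1nn : 0 ≤ E1 := E_nonneg C 1 _ (fun l _ => by positivity)
  obtain ⟨κ, hκ⟩ : ∃ κ : ℝ, κ = ρ * (4 / 5 : ℝ) ^ J / (5 * t0) := ⟨_, rfl⟩
  have hκpos : 0 < κ := by rw [hκ]; positivity
  obtain ⟨θ, hθdef⟩ : ∃ θ : ℕ → ℝ, θ = fun i => κ * (5 / 4 : ℝ) ^ i := ⟨_, rfl⟩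
  have hθ : ∀ i, θ i = κ * (5 / 4 : ℝ) ^ i := fun i => by rw [hθdef]
  have hθpos : ∀ i, 0 < θ i := fun i => by rw [hθ]; positivity
  obtain ⟨N, hNdef⟩ : ∃ N : List M → ℝ, N = fun l => ‖sm ω l‖ := ⟨_, rfl⟩
  have hN : ∀ l, N l = ‖sm ω l‖ := fun l => by rw [hNdef]
  have hN0 : N [] = 0 := by rw [hN, sm_nil, norm_zero]
  have hNa : ∀ l l', N (l ++ l') ≤ N l + N l' := by
    intro l l'
    rw [hN, hN, hN, sm_append]
    exact norm_add_le _ _
  have hNnn : ∀ l, 0 ≤ N l := fun l => by rw [hN]; exact norm_nonneg _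
  have h45 : (4 / 5 : ℝ) ^ J * (5 / 4 : ℝ) ^ J = 1 := by
    rw [← mul_pow]
    norm_num
  -- the event is contained in the bad event
  have hsub : ∀ l : List M, l.length = t0 ^ J → (∃ b, ρ ≤ ‖sm ω (l.take b)‖) →
      ¬ Good N θ t0 J l := by
    intro l hl hb hg
    obtain ⟨b, hb⟩ := hb
    rw [← hN] at hb
    have hκJ : t0 * (κ * (5 / 4 : ℝ) ^ J) = ρ / 5 := by
      rw [hκ]
      have : t0 * (ρ * (4 / 5 : ℝ) ^ J / (5 * t0) * (5 / 4 : ℝ) ^ J) =
          ρ * ((4 / 5 : ℝ) ^ J * (5 / 4 : ℝ) ^ J) / 5 := by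
        field_simp
      rw [this, h45, mul_one]
    by_cases hbJ : b < t0 ^ J
    · have h1 := good_take N hN0 hNa θ (fun i => (hθpos i).le) t0 ht1 J l hg b hbJ
      have h2 : ∑ i ∈ Finset.range J, θ i = κ * ∑ i ∈ Finset.range J, (5 / 4 : ℝ) ^ i := by
        rw [Finset.mul_sum]
        exact Finset.sum_congr rfl fun i _ => hθ i
      have h3 : t0 * ∑ i ∈ Finset.range J, θ i ≤ 4 * (t0 * (κ * (5 / 4 : ℝ) ^ J)) := by
        rw [h2]
        have h4 := geom_aux J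
        have h5 : (t0 : ℝ) * (κ * ∑ i ∈ Finset.range J, (5 / 4 : ℝ) ^ i) ≤
            t0 * (κ * (4 * (5 / 4 : ℝ) ^ J)) :=
          mul_le_mul_of_nonneg_left (mul_le_mul_of_nonneg_left h4 hκpos.le) htpos.le
        linarith
      rw [hκJ] at h3
      linarith
    · have h1 : l.take b = l := List.take_of_length_le (by omega)
      rw [h1] at hb
      have h2 := good_top N θ t0 J l hg
      rw [hθ] at h2
      have h3 : κ * (5 / 4 : ℝ) ^ J ≤ t0 * (κ * (5 / 4 : ℝ) ^ J) := by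
        have h4 : (1 : ℝ) ≤ t0 := by exact_mod_cast ht1
        have h5 : 0 ≤ κ * (5 / 4 : ℝ) ^ J := by positivity
        nlinarith
      rw [hκJ] at h3
      linarith
  have hstep1 : C.E (t0 ^ J) (fun l => if ∃ b, ρ ≤ ‖sm ω (l.take b)‖ then 1 else 0) ≤
      C.E (t0 ^ J) (fun l => if ¬ Good N θ t0 J l then 1 else 0) := by
    refine E_mono C _ _ _ (fun l hl => ?_)
    by_cases hb : ∃ b, ρ ≤ ‖sm ω (l.take b)‖
    · rw [if_pos hb, if_pos (hsub l hl hb)]
    · rw [if_neg hb]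
      split_ifs <;> norm_num
  -- Chebyshev at every level
  have hq : ∀ i, C.E (t0 ^ i) (fun l => if θ i ≤ N l then 1 else 0) ≤
      (16 * lam ^ 2 / 25) ^ i * (E1 / κ ^ 2) := by
    intro i
    have h1 := E_cheb C (t0 ^ i) N hNnn (θ i) (hθpos i)
    have h2 : C.E (t0 ^ i) (fun l => N l ^ 2) ≤ (lam ^ i) ^ 2 * E1 := by
      have h3 := h i S M C ω hω
      rw [hNdef]
      exact h3
    have h4 : C.E (t0 ^ i) (fun l => N l ^ 2) / θ i ^ 2 ≤ (lam ^ i) ^ 2 * E1 / θ i ^ 2 :=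
      div_le_div_of_nonneg_right h2 (by positivity)
    have h5 : (lam ^ i) ^ 2 * E1 / θ i ^ 2 = (16 * lam ^ 2 / 25) ^ i * (E1 / κ ^ 2) := by
      rw [hθ]
      have e1 : (16 * lam ^ 2 / 25) ^ i * ((5 / 4 : ℝ) ^ i) ^ 2 = (lam ^ i) ^ 2 := by
        rw [← pow_mul, ← pow_mul, mul_comm i 2, pow_mul, pow_mul, ← mul_pow]
        congr 1
        ring
      have e2 : (0 : ℝ) < (5 / 4 : ℝ) ^ i := by positivity
      rw [← e1]
      field_simp
    linarith
  have hty : 29 * (t0 : ℝ) ≤ 28 * (16 * lam ^ 2 / 25) := by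
    nlinarith
  have hstep2 := E_notGood_le C N θ t0 (16 * lam ^ 2 / 25) (E1 / κ ^ 2) (by positivity)
    (by positivity) hty hq J
  have hfin : 29 * (16 * lam ^ 2 / 25) ^ J * (E1 / κ ^ 2) =
      725 * (t0 : ℝ) ^ 2 * lam ^ (2 * J) / ρ ^ 2 * E1 := by
    have e1 : (16 * lam ^ 2 / 25) ^ J = ((4 / 5 : ℝ) ^ J) ^ 2 * lam ^ (2 * J) := by
      rw [← pow_mul, mul_comm J 2, pow_mul, pow_mul, ← mul_pow]
      congr 1
      ring
    have e2 : (0 : ℝ) < (4 / 5 : ℝ) ^ J := by positivity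
    rw [e1, hκ]
    field_simp
    ring
  rw [← hfin]
  exact le_trans hstep1 hstep2

end Vale.Agent.P125.Dich
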