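import Vale.Agent.P125.Dich.Core

set_option linter.unusedSectionVars false
set_option linter.unusedVariables false

/-! # Sizes: the deterministic inequality -/

namespace Vale.Agent.P125.Dich

open scoped BigOperators
open Classical

noncomputable section

private theorem sizesB_geo_sum_le (r : ℝ) (hr0 : 0 < r) (hr1 : r < 1) (s : Finset ℤ) (K : ℤ)
    (hK : ∀ k ∈ s, k ≤ K) :
    ∑ k ∈ s, r ^ ((K - k).toNat) ≤ 1 / (1 - r) := by
  have hinj : Set.InjOn (fun k : ℤ => (K - k).toNat) (s : Set ℤ) := by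
    intro a ha b hb hab
    have h1 := hK a ha
    have h2 := hK b hb
    simp only at hab
    omega
  rw [← Finset.sum_image (f := fun n : ℕ => r ^ n) hinj]
  have hs : Summable (fun n : ℕ => r ^ n) := summable_geometric_of_lt_one hr0.le hr1
  calc _ ≤ ∑' n : ℕ, r ^ n := hs.sum_le_tsum _ (fun n _ => by positivity)
    _ = 1 / (1 - r) := by rw [tsum_geometric_of_lt_one hr0.le hr1, one_div]

/-- PROOF.md SIZES (c).  Pure real analysis, no chains. -/
theorem det_ineq (p q : ℝ) (hp : 1 < p) (hpq : p < q) :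
    ∃ Cd : ℝ, 0 < Cd ∧ ∀ (s : Finset ℤ) (x : ℤ → ℝ), (∀ k, 0 ≤ x k) →
      (∑ k ∈ s, x k) ^ p ≤
        Cd * ∑ k ∈ s, ((2 : ℝ) ^ ((k : ℝ) * p) * (if 0 < x k then 1 else 0) +
          (2 : ℝ) ^ ((k : ℝ) * (p - q)) * x k ^ q) := by
  have hp0 : 0 < p := by linarith
  have hq0 : 0 < q := by linarith
  set g : ℝ := (q - p) / q with hg
  have hg0 : 0 < g := div_pos (by linarith) hq0
  set r : ℝ := (2 : ℝ) ^ (-g) with hr
  have hr0 : 0 < r := Real.rpow_pos_of_pos (by norm_num) _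
  have hr1 : r < 1 := Real.rpow_lt_one_of_one_lt_of_neg (by norm_num) (by linarith)
  have h1r : 0 < 1 / (1 - r) := by
    apply div_pos one_pos; linarith
  refine ⟨(1 / (1 - r)) ^ p, Real.rpow_pos_of_pos h1r _, ?_⟩
  intro s x hx
  set term : ℤ → ℝ := fun k => (2 : ℝ) ^ ((k : ℝ) * p) * (if 0 < x k then 1 else 0) +
          (2 : ℝ) ^ ((k : ℝ) * (p - q)) * x k ^ q with hterm
  have hterm0 : ∀ k, 0 ≤ term k := by
    intro k
    have h1 : 0 ≤ (2 : ℝ) ^ ((k : ℝ) * p) := (Real.rpow_pos_of_pos (by norm_num) _).le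
    have h2 : 0 ≤ (2 : ℝ) ^ ((k : ℝ) * (p - q)) := (Real.rpow_pos_of_pos (by norm_num) _).le
    have h3 : 0 ≤ x k ^ q := Real.rpow_nonneg (hx k) _
    have h4 : (0 : ℝ) ≤ (if 0 < x k then 1 else 0) := by split_ifs <;> norm_num
    simp only [hterm]
    positivity
  set R : ℝ := ∑ k ∈ s, term k with hR
  have hR0 : 0 ≤ R := Finset.sum_nonneg (fun k _ => hterm0 k)
  have hle : ∀ k ∈ s, term k ≤ R := fun k hk =>
    Finset.single_le_sum (fun i _ => hterm0 i) hk
  set s' : Finset ℤ := s.filter (fun k => 0 < x k) with hs'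
  have hsum : ∑ k ∈ s, x k = ∑ k ∈ s', x k := by
    rw [hs', Finset.sum_filter]
    apply Finset.sum_congr rfl
    intro k _
    split_ifs with h
    · rfl
    · exact le_antisymm (not_lt.mp h) (hx k)
  by_cases hne : s'.Nonempty
  swap
  · rw [Finset.not_nonempty_iff_eq_empty] at hne
    rw [hsum, hne, Finset.sum_empty, Real.zero_rpow hp0.ne']
    exact mul_nonneg (Real.rpow_pos_of_pos h1r _).le hR0
  set K : ℤ := s'.max' hne with hKdef
  have hKmem : K ∈ s' := Finset.max'_mem _ _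
  have hKle : ∀ k ∈ s', k ≤ K := fun k hk => Finset.le_max' _ _ hk
  -- bound one
  have hb1 : ∀ k ∈ s', x k ≤ R ^ (1 / q) * (2 : ℝ) ^ ((k : ℝ) * g) := by
    intro k hk
    have hks : k ∈ s := (Finset.mem_filter.mp hk).1
    have h2 : 0 < (2 : ℝ) ^ ((k : ℝ) * (p - q)) := Real.rpow_pos_of_pos (by norm_num) _
    have h1 : (2 : ℝ) ^ ((k : ℝ) * (p - q)) * x k ^ q ≤ R := by
      refine le_trans ?_ (hle k hks)
      have h1 : 0 ≤ (2 : ℝ) ^ ((k : ℝ) * p) := (Real.rpow_pos_of_pos (by norm_num) _).le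
      have h4 : (0 : ℝ) ≤ (if 0 < x k then 1 else 0) := by split_ifs <;> norm_num
      simp only [hterm]
      nlinarith [mul_nonneg h1 h4]
    have h3 : x k ^ q ≤ R * (2 : ℝ) ^ ((k : ℝ) * (q - p)) := by
      have h5 : (2 : ℝ) ^ ((k : ℝ) * (q - p)) * (2 : ℝ) ^ ((k : ℝ) * (p - q)) = 1 := by
        rw [← Real.rpow_add (by norm_num)]
        have : (k : ℝ) * (q - p) + (k : ℝ) * (p - q) = 0 := by ring
        rw [this, Real.rpow_zero]
      have h6 : 0 < (2 : ℝ) ^ ((k : ℝ) * (q - p)) := Real.rpow_pos_of_pos (by norm_num) _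
      calc x k ^ q = ((2 : ℝ) ^ ((k : ℝ) * (q - p)) * (2 : ℝ) ^ ((k : ℝ) * (p - q))) * x k ^ q := by
            rw [h5, one_mul]
        _ = ((2 : ℝ) ^ ((k : ℝ) * (p - q)) * x k ^ q) * (2 : ℝ) ^ ((k : ℝ) * (q - p)) := by ring
        _ ≤ R * (2 : ℝ) ^ ((k : ℝ) * (q - p)) := mul_le_mul_of_nonneg_right h1 h6.le
    calc x k = (x k ^ q) ^ (1 / q) := by
          rw [← Real.rpow_mul (hx k), mul_one_div_cancel hq0.ne', Real.rpow_one]
      _ ≤ (R * (2 : ℝ) ^ ((k : ℝ) * (q - p))) ^ (1 / q) :=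
          Real.rpow_le_rpow (Real.rpow_nonneg (hx k) _) h3 (by positivity)
      _ = R ^ (1 / q) * (2 : ℝ) ^ ((k : ℝ) * g) := by
          rw [Real.mul_rpow hR0 (Real.rpow_pos_of_pos (by norm_num) _).le,
            ← Real.rpow_mul (by norm_num)]
          congr 2
          rw [hg]; ring
  -- bound two
  have hb2 : (2 : ℝ) ^ ((K : ℝ) * g) ≤ R ^ (g / p) := by
    have hKs : K ∈ s := (Finset.mem_filter.mp hKmem).1
    have hKx : 0 < x K := (Finset.mem_filter.mp hKmem).2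
    have h1 : (2 : ℝ) ^ ((K : ℝ) * p) ≤ R := by
      refine le_trans ?_ (hle K hKs)
      have h2 : 0 ≤ (2 : ℝ) ^ ((K : ℝ) * (p - q)) := (Real.rpow_pos_of_pos (by norm_num) _).le
      have h3 : 0 ≤ x K ^ q := Real.rpow_nonneg (hx K) _
      simp only [hterm, if_pos hKx, mul_one]
      nlinarith [mul_nonneg h2 h3]
    calc (2 : ℝ) ^ ((K : ℝ) * g) = ((2 : ℝ) ^ ((K : ℝ) * p)) ^ (g / p) := by
          rw [← Real.rpow_mul (by norm_num)]
          congr 1
          field_simp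
      _ ≤ R ^ (g / p) :=
          Real.rpow_le_rpow (Real.rpow_pos_of_pos (by norm_num) _).le h1 (by positivity)
  -- geometric sum
  have hb3 : ∑ k ∈ s', (2 : ℝ) ^ ((k : ℝ) * g) ≤ (2 : ℝ) ^ ((K : ℝ) * g) * (1 / (1 - r)) := by
    have h1 : ∀ k ∈ s', (2 : ℝ) ^ ((k : ℝ) * g) = (2 : ℝ) ^ ((K : ℝ) * g) * r ^ ((K - k).toNat) := by
      intro k hk
      have hk' := hKle k hk
      have hc : (((K - k).toNat : ℕ) : ℝ) = (K : ℝ) - (k : ℝ) := by
        have : (((K - k).toNat : ℕ) : ℤ) = K - k := Int.toNat_of_nonneg (by omega)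
        have h2 : ((((K - k).toNat : ℕ) : ℤ) : ℝ) = ((K - k : ℤ) : ℝ) := by rw [this]
        push_cast at h2
        exact h2
      rw [hr, ← Real.rpow_natCast, ← Real.rpow_mul (by norm_num), ← Real.rpow_add (by norm_num), hc]
      congr 1
      ring
    rw [Finset.sum_congr rfl h1, ← Finset.mul_sum]
    exact mul_le_mul_of_nonneg_left (sizesB_geo_sum_le r hr0 hr1 s' K hKle)
      (Real.rpow_pos_of_pos (by norm_num) _).le
  have hRq : 0 ≤ R ^ (1 / q) := Real.rpow_nonneg hR0 _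
  have hfin : ∑ k ∈ s, x k ≤ R ^ (1 / p) * (1 / (1 - r)) := by
    rw [hsum]
    calc ∑ k ∈ s', x k ≤ ∑ k ∈ s', R ^ (1 / q) * (2 : ℝ) ^ ((k : ℝ) * g) := Finset.sum_le_sum hb1
      _ = R ^ (1 / q) * ∑ k ∈ s', (2 : ℝ) ^ ((k : ℝ) * g) := by rw [Finset.mul_sum]
      _ ≤ R ^ (1 / q) * ((2 : ℝ) ^ ((K : ℝ) * g) * (1 / (1 - r))) :=
          mul_le_mul_of_nonneg_left hb3 hRq
      _ ≤ R ^ (1 / q) * (R ^ (g / p) * (1 / (1 - r))) := by
          apply mul_le_mul_of_nonneg_left _ hRq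
          exact mul_le_mul_of_nonneg_right hb2 h1r.le
      _ = R ^ (1 / p) * (1 / (1 - r)) := by
          rw [← mul_assoc]
          congr 1
          have hRpos : 0 < R := by
            have hKs : K ∈ s := (Finset.mem_filter.mp hKmem).1
            have hKx : 0 < x K := (Finset.mem_filter.mp hKmem).2
            have h0 : 0 < (2 : ℝ) ^ ((K : ℝ) * g) := Real.rpow_pos_of_pos (by norm_num) _
            by_contra hcon
            have hR00 : R = 0 := le_antisymm (not_lt.mp hcon) hR0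
            rw [hR00, Real.zero_rpow (by positivity)] at hb2
            linarith
          rw [← Real.rpow_add hRpos]
          congr 1
          rw [hg]
          field_simp
          ring
  have hsx : 0 ≤ ∑ k ∈ s, x k := Finset.sum_nonneg (fun k _ => hx k)
  calc (∑ k ∈ s, x k) ^ p ≤ (R ^ (1 / p) * (1 / (1 - r))) ^ p :=
        Real.rpow_le_rpow hsx hfin hp0.le
    _ = (1 / (1 - r)) ^ p * R := by
        rw [Real.mul_rpow (Real.rpow_nonneg hR0 _) h1r.le, ← Real.rpow_mul hR0,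
          one_div_mul_cancel hp0.ne', Real.rpow_one, mul_comm]

end

end Vale.Agent.P125.Dich
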