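import Vale.Agent.P125.Dich.Sizes_A
import Vale.Agent.P125.Dich.Sizes_B

set_option linter.unusedSectionVars false
set_option linter.unusedVariables false

/-! # Decomposition into dyadic sizes: from the weak type estimate to Markov type -/

namespace Vale.Agent.P125.Dich

open scoped BigOperators
open Classical

noncomputable section

/-- the dyadic size class of a mark: the least integer `k` with `|ω m| <= 2^k` -/
def kk {X : Type*} [NormedAddCommGroup X] {M : Type} (ω : M → X) (m : M) : ℤ := Int.clog 2 ‖ω m‖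

/-- the part of `ω` of size class `k` -/
def cls {X : Type*} [NormedAddCommGroup X] {M : Type} (ω : M → X) (k : ℤ) (m : M) : X :=
  if kk ω m = k then ω m else 0

/-- the marks of size class `k` -/
def actk {X : Type*} [NormedAddCommGroup X] {M : Type} (ω : M → X) (k : ℤ) (m : M) : Prop :=
  kk ω m = k ∧ ω m ≠ 0

lemma norm_le_two_rpow {X : Type*} [NormedAddCommGroup X] {M : Type} (ω : M → X) (m : M) :
    ‖ω m‖ ≤ (2 : ℝ) ^ ((kk ω m : ℤ) : ℝ) := by
  have h := Int.self_le_zpow_clog (R := ℝ) (b := 2) (by norm_num) ‖ω m‖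
  rw [Real.rpow_intCast]
  simpa [kk] using h

lemma two_rpow_lt_norm {X : Type*} [NormedAddCommGroup X] {M : Type} (ω : M → X) (m : M)
    (hm : ω m ≠ 0) : (2 : ℝ) ^ (((kk ω m : ℤ) : ℝ) - 1) < ‖ω m‖ := by
  have h := Int.zpow_pred_clog_lt_self (R := ℝ) (b := 2) (by norm_num) (norm_pos_iff.mpr hm)
  have e : (((kk ω m : ℤ) : ℝ) - 1) = ((kk ω m - 1 : ℤ) : ℝ) := by push_cast; ring
  rw [e, Real.rpow_intCast]
  simpa [kk] using h

lemma sm_cls_sum {X : Type*} [NormedAddCommGroup X] {M : Type} [Fintype M] (ω : M → X)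
    (s : Finset ℤ) (hs : ∀ m, kk ω m ∈ s) (l : List M) :
    sm ω l = ∑ k ∈ s, sm (cls ω k) l := by
  induction l with
  | nil => simp [sm]
  | cons a l ih =>
    simp only [sm_cons]
    rw [Finset.sum_add_distrib, ← ih]
    congr 1
    unfold cls
    rw [Finset.sum_ite_eq, if_pos (hs a)]

lemma sm_smul {X : Type*} [NormedAddCommGroup X] [NormedSpace ℝ X] {M : Type} [Fintype M]
    (ω : M → X) (c : ℝ) (l : List M) : sm (fun m => c • ω m) l = c • sm ω l := by
  induction l with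
  | nil => simp [sm]
  | cons a l ih => rw [sm_cons, sm_cons, ih, smul_add]

lemma kk_inv {X : Type*} [NormedAddCommGroup X] {M : Type} (ω : M → X) (inv : M → M)
    (hanti : ∀ m, ω (inv m) = - ω m) (m : M) : kk ω (inv m) = kk ω m := by
  unfold kk
  rw [hanti, norm_neg]

/-- one size class -/
theorem class_bound (X : Type*) [NormedAddCommGroup X] [NormedSpace ℝ X] (t0 : ℕ) (ht0 : 2 ≤ t0)
    (lam C3 q : ℝ) (h1 : 1 < lam) (hC3 : 0 < C3) (hq : 0 < q) (hq2 : lam ^ q < t0)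
    (h : WeakSS X t0 lam C3)
    (S M : Type) [Fintype S] [Fintype M] (C : MChain S M) (ω : M → X)
    (hanti : ∀ m, ω (C.inv m) = - ω m) (k : ℤ) (t : ℕ) :
    C.E t (fun l => ‖sm (cls ω k) l‖ ^ q) ≤
      (2 : ℝ) ^ ((k : ℝ) * q) *
        (K3 t0 lam C3 q * t * C.E 1 (fun l => if ∃ m ∈ l, actk ω k m then 1 else 0)) := by
  set c : ℝ := (2 : ℝ) ^ (k : ℝ) with hc
  have hc0 : 0 < c := Real.rpow_pos_of_pos (by norm_num) _
  have hS := strongSS_of_weakSS X t0 ht0 lam C3 q h1 hC3 hq hq2 h S M C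
    (fun m => c⁻¹ • cls ω k m) (actk ω k)
    (by
      intro m
      unfold cls
      rw [kk_inv ω C.inv hanti m, hanti]
      split_ifs <;> simp)
    (by
      intro m
      unfold actk
      rw [kk_inv ω C.inv hanti m, hanti]
      simp)
    (by
      intro m hm
      unfold actk at hm
      unfold cls
      by_cases hk : kk ω m = k
      · have : ω m = 0 := by
          by_contra h0
          exact hm ⟨hk, h0⟩
        rw [if_pos hk, this, smul_zero]
      · rw [if_neg hk, smul_zero])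
    (by
      intro m
      rw [norm_smul, norm_inv, Real.norm_of_nonneg hc0.le]
      unfold cls
      by_cases hk : kk ω m = k
      · rw [if_pos hk, inv_mul_le_iff₀ hc0, mul_one, hc, ← hk]
        exact norm_le_two_rpow ω m
      · rw [if_neg hk, norm_zero, mul_zero]
        norm_num)
    t
  have e : C.E t (fun l => ‖sm (cls ω k) l‖ ^ q) =
      (2 : ℝ) ^ ((k : ℝ) * q) * C.E t (fun l => ‖sm (fun m => c⁻¹ • cls ω k m) l‖ ^ q) := by
    rw [← E_const_mul]
    refine E_congr C t _ _ (fun l _ => ?_)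
    rw [sm_smul, norm_smul, norm_inv, Real.norm_of_nonneg hc0.le,
      Real.mul_rpow (inv_nonneg.mpr hc0.le) (norm_nonneg _), Real.rpow_mul (by norm_num), ← hc,
      Real.inv_rpow hc0.le, ← mul_assoc, mul_inv_cancel₀ (Real.rpow_pos_of_pos hc0 q).ne', one_mul]
  rw [e]
  exact mul_le_mul_of_nonneg_left hS (Real.rpow_pos_of_pos (by norm_num) _).le

/-- the size classes add up to the `p`-th moment of one step -/
theorem classes_sum (X : Type*) [NormedAddCommGroup X] (p : ℝ) (hp : 0 < p)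
    (S M : Type) [Fintype S] [Fintype M] (C : MChain S M) (ω : M → X) (s : Finset ℤ) :
    ∑ k ∈ s, (2 : ℝ) ^ ((k : ℝ) * p) * C.E 1 (fun l => if ∃ m ∈ l, actk ω k m then 1 else 0) ≤
      (2 : ℝ) ^ p * C.E 1 (fun l => ‖sm ω l‖ ^ p) := by
  have e1 : ∑ k ∈ s, (2 : ℝ) ^ ((k : ℝ) * p) *
      C.E 1 (fun l => if ∃ m ∈ l, actk ω k m then 1 else 0) =
      C.E 1 (fun l => ∑ k ∈ s, (2 : ℝ) ^ ((k : ℝ) * p) *
        (if ∃ m ∈ l, actk ω k m then 1 else 0)) := by
    rw [E_finset_sum]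
    refine Finset.sum_congr rfl (fun k _ => ?_)
    rw [E_const_mul]
  rw [e1, ← E_const_mul]
  refine E_mono C 1 _ _ (fun l hl => ?_)
  obtain ⟨m, rfl⟩ := List.length_eq_one_iff.mp hl
  have hsm : sm ω [m] = ω m := by simp [sm]
  rw [hsm]
  have hR : 0 ≤ (2 : ℝ) ^ p * ‖ω m‖ ^ p :=
    mul_nonneg (Real.rpow_pos_of_pos (by norm_num) _).le (Real.rpow_nonneg (norm_nonneg _) _)
  have hex : ∀ k : ℤ, (∃ m' ∈ [m], actk ω k m') ↔ (kk ω m = k ∧ ω m ≠ 0) := by
    intro k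
    simp [actk]
  by_cases hm : ω m = 0
  · have hz : ∀ k ∈ s, (2 : ℝ) ^ ((k : ℝ) * p) *
        (if ∃ m' ∈ [m], actk ω k m' then (1 : ℝ) else 0) = 0 := by
      intro k _
      rw [if_neg, mul_zero]
      rw [hex]
      exact fun h => h.2 hm
    rw [Finset.sum_congr rfl hz, Finset.sum_const_zero]
    exact hR
  · have hle : ∑ k ∈ s, (2 : ℝ) ^ ((k : ℝ) * p) *
        (if ∃ m' ∈ [m], actk ω k m' then (1 : ℝ) else 0) ≤ (2 : ℝ) ^ (((kk ω m : ℤ) : ℝ) * p) := by
      have hz : ∀ k ∈ s, (2 : ℝ) ^ ((k : ℝ) * p) *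
          (if ∃ m' ∈ [m], actk ω k m' then (1 : ℝ) else 0) =
          if kk ω m = k then (2 : ℝ) ^ (((kk ω m : ℤ) : ℝ) * p) else 0 := by
        intro k _
        by_cases hk : kk ω m = k
        · rw [if_pos ((hex k).mpr ⟨hk, hm⟩), if_pos hk, mul_one, hk]
        · rw [if_neg (fun h => hk ((hex k).mp h).1), if_neg hk, mul_zero]
      rw [Finset.sum_congr rfl hz, Finset.sum_ite_eq]
      split_ifs
      · exact le_refl _
      · exact (Real.rpow_pos_of_pos (by norm_num) _).le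
    refine le_trans hle ?_
    have h3 := two_rpow_lt_norm ω m hm
    have h4 : ((2 : ℝ) ^ (((kk ω m : ℤ) : ℝ) - 1)) ^ p ≤ ‖ω m‖ ^ p :=
      Real.rpow_le_rpow (Real.rpow_pos_of_pos (by norm_num) _).le h3.le hp.le
    rw [← Real.rpow_mul (by norm_num)] at h4
    have h5 : (2 : ℝ) ^ (((kk ω m : ℤ) : ℝ) * p) =
        (2 : ℝ) ^ p * (2 : ℝ) ^ ((((kk ω m : ℤ) : ℝ) - 1) * p) := by
      rw [← Real.rpow_add (by norm_num)]
      congr 1
      ring
    rw [h5]
    exact mul_le_mul_of_nonneg_left h4 (Real.rpow_pos_of_pos (by norm_num) _).le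

/-- the main estimate with explicit constant -/
theorem sizes_core (X : Type*) [NormedAddCommGroup X] [NormedSpace ℝ X] (t0 : ℕ) (ht0 : 2 ≤ t0)
    (lam C3 p q Cd : ℝ) (h1 : 1 < lam) (hC3 : 0 < C3) (hp : 1 < p) (hpq : p < q)
    (hq2 : lam ^ q < t0) (h : WeakSS X t0 lam C3) (hCd : 0 < Cd)
    (hdet : ∀ (s : Finset ℤ) (x : ℤ → ℝ), (∀ k, 0 ≤ x k) →
      (∑ k ∈ s, x k) ^ p ≤
        Cd * ∑ k ∈ s, ((2 : ℝ) ^ ((k : ℝ) * p) * (if 0 < x k then 1 else 0) +
          (2 : ℝ) ^ ((k : ℝ) * (p - q)) * x k ^ q))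
    (S M : Type) [Fintype S] [Fintype M] (C : MChain S M) (ω : M → X)
    (hanti : ∀ m, ω (C.inv m) = - ω m) (t : ℕ) :
    C.E t (fun l => ‖sm ω l‖ ^ p) ≤
      Cd * (1 + K3 t0 lam C3 q) * (2 : ℝ) ^ p * t * C.E 1 (fun l => ‖sm ω l‖ ^ p) := by
  have hp0 : 0 < p := by linarith
  have hq0 : 0 < q := by linarith
  set s : Finset ℤ := Finset.univ.image (kk ω) with hs
  have hmem : ∀ m, kk ω m ∈ s := fun m => Finset.mem_image_of_mem _ (Finset.mem_univ m)
  set mu : ℤ → ℝ := fun k => C.E 1 (fun l => if ∃ m ∈ l, actk ω k m then 1 else 0) with hmu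
  have hmu0 : ∀ k, 0 ≤ mu k := by
    intro k
    refine E_nonneg C 1 _ (fun l _ => ?_)
    split_ifs <;> norm_num
  -- pointwise
  have hpt : C.E t (fun l => ‖sm ω l‖ ^ p) ≤
      C.E t (fun l => Cd * ∑ k ∈ s, ((2 : ℝ) ^ ((k : ℝ) * p) *
        (if 0 < ‖sm (cls ω k) l‖ then 1 else 0) +
          (2 : ℝ) ^ ((k : ℝ) * (p - q)) * ‖sm (cls ω k) l‖ ^ q)) := by
    refine E_mono C t _ _ (fun l _ => ?_)
    refine le_trans ?_ (hdet s (fun k => ‖sm (cls ω k) l‖) (fun k => norm_nonneg _))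
    refine Real.rpow_le_rpow (norm_nonneg _) ?_ hp0.le
    rw [sm_cls_sum ω s hmem l]
    exact norm_sum_le _ _
  refine le_trans hpt ?_
  rw [E_const_mul, E_finset_sum]
  have hk : ∀ k ∈ s, C.E t (fun l => (2 : ℝ) ^ ((k : ℝ) * p) *
        (if 0 < ‖sm (cls ω k) l‖ then 1 else 0) +
          (2 : ℝ) ^ ((k : ℝ) * (p - q)) * ‖sm (cls ω k) l‖ ^ q) ≤
      (1 + K3 t0 lam C3 q) * t * ((2 : ℝ) ^ ((k : ℝ) * p) * mu k) := by
    intro k _
    rw [E_add, E_const_mul, E_const_mul]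
    have hA := E_ne_zero_le X S M C (cls ω k) (actk ω k) (by
      intro m hm
      unfold actk at hm
      unfold cls
      by_cases hk : kk ω m = k
      · have : ω m = 0 := by
          by_contra h0
          exact hm ⟨hk, h0⟩
        rw [if_pos hk, this]
      · rw [if_neg hk]) t
    have hB := class_bound X t0 ht0 lam C3 q h1 hC3 hq0 hq2 h S M C ω hanti k t
    have hpos1 : 0 < (2 : ℝ) ^ ((k : ℝ) * p) := Real.rpow_pos_of_pos (by norm_num) _
    have hpos2 : 0 < (2 : ℝ) ^ ((k : ℝ) * (p - q)) := Real.rpow_pos_of_pos (by norm_num) _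
    have hA' := mul_le_mul_of_nonneg_left hA hpos1.le
    have hB' := mul_le_mul_of_nonneg_left hB hpos2.le
    have e : (2 : ℝ) ^ ((k : ℝ) * (p - q)) * (2 : ℝ) ^ ((k : ℝ) * q) = (2 : ℝ) ^ ((k : ℝ) * p) := by
      rw [← Real.rpow_add (by norm_num)]
      congr 1
      ring
    refine le_trans (add_le_add hA' hB') (le_of_eq ?_)
    have e2 : ∀ z : ℝ, (2 : ℝ) ^ ((k : ℝ) * (p - q)) * ((2 : ℝ) ^ ((k : ℝ) * q) * z) =
        (2 : ℝ) ^ ((k : ℝ) * p) * z := by
      intro z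
      rw [← mul_assoc, e]
    rw [e2]
    simp only [hmu]
    ring
  have hsum := Finset.sum_le_sum hk
  rw [← Finset.mul_sum] at hsum
  have hcl := classes_sum X p hp0 S M C ω s
  have hK3 : 0 ≤ K3 t0 lam C3 q := by
    unfold K3
    have hlam : 0 < lam := by linarith
    have ht0' : (0 : ℝ) < t0 := by
      have : 0 < t0 := by omega
      exact_mod_cast this
    have hx1 : lam ^ q / t0 < 1 := by
      rw [div_lt_one ht0']
      exact hq2
    have h3 : 0 < 1 - lam ^ q / t0 := by linarith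
    have h4 : 0 < lam ^ q := Real.rpow_pos_of_pos hlam q
    have h5 : 0 < C3 ^ q := Real.rpow_pos_of_pos hC3 q
    positivity
  have hfac : 0 ≤ (1 + K3 t0 lam C3 q) * (t : ℝ) := by positivity
  calc Cd * ∑ k ∈ s, C.E t (fun l => (2 : ℝ) ^ ((k : ℝ) * p) *
        (if 0 < ‖sm (cls ω k) l‖ then 1 else 0) +
          (2 : ℝ) ^ ((k : ℝ) * (p - q)) * ‖sm (cls ω k) l‖ ^ q)
      ≤ Cd * ((1 + K3 t0 lam C3 q) * t * ∑ k ∈ s, (2 : ℝ) ^ ((k : ℝ) * p) * mu k) :=
        mul_le_mul_of_nonneg_left hsum hCd.le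
    _ ≤ Cd * ((1 + K3 t0 lam C3 q) * t * ((2 : ℝ) ^ p * C.E 1 (fun l => ‖sm ω l‖ ^ p))) :=
        mul_le_mul_of_nonneg_left (mul_le_mul_of_nonneg_left hcl hfac) hCd.le
    _ = _ := by ring

/-- See PROOF.md, section SIZES. -/
theorem markType_of_weakSS (X : Type*) [NormedAddCommGroup X] [NormedSpace ℝ X] (t0 : ℕ)
    (ht0 : 2 ≤ t0) (lam C3 : ℝ) (h1 : 1 < lam) (h2 : lam < t0) (hC3 : 0 < C3)
    (h : WeakSS X t0 lam C3) : ∃ p K : ℝ, 1 < p ∧ 0 ≤ K ∧ MarkType X p K := by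
  have hlam0 : 0 < lam := by linarith
  have ht0R : (0 : ℝ) < t0 := by linarith
  have hloglam : 0 < Real.log lam := Real.log_pos h1
  have hlogt : Real.log lam < Real.log t0 := Real.log_lt_log hlam0 h2
  obtain ⟨L, hL⟩ : ∃ L : ℝ, L = Real.log t0 / Real.log lam := ⟨_, rfl⟩
  have hL1 : 1 < L := by
    rw [hL, lt_div_iff₀ hloglam]
    linarith
  obtain ⟨q, hq⟩ : ∃ q : ℝ, q = (1 + L) / 2 := ⟨_, rfl⟩
  have hq1 : 1 < q := by
    rw [hq]
    linarith
  have hqL : q < L := by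
    rw [hq]
    linarith
  have hq2 : lam ^ q < t0 := by
    rw [Real.rpow_def_of_pos hlam0]
    have h3 : Real.log lam * q < Real.log t0 := by
      have h4 := mul_lt_mul_of_pos_left hqL hloglam
      rw [hL, mul_div_cancel₀ _ hloglam.ne'] at h4
      exact h4
    calc Real.exp (Real.log lam * q) < Real.exp (Real.log t0) := Real.exp_lt_exp.mpr h3
      _ = t0 := Real.exp_log ht0R
  obtain ⟨p, hp⟩ : ∃ p : ℝ, p = (1 + q) / 2 := ⟨_, rfl⟩
  have hp1 : 1 < p := by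
    rw [hp]
    linarith
  have hpq : p < q := by
    rw [hp]
    linarith
  have hp0 : 0 < p := by linarith
  obtain ⟨Cd, hCd, hdet⟩ := det_ineq p q hp1 hpq
  have hK3 : 0 ≤ K3 t0 lam C3 q := by
    unfold K3
    have hx1 : lam ^ q / t0 < 1 := by
      rw [div_lt_one ht0R]
      exact hq2
    have h3 : 0 < 1 - lam ^ q / t0 := by linarith
    have h4 : 0 < lam ^ q := Real.rpow_pos_of_pos hlam0 q
    have h5 : 0 < C3 ^ q := Real.rpow_pos_of_pos hC3 q
    positivity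
  have h2p : 0 < (2 : ℝ) ^ p := Real.rpow_pos_of_pos (by norm_num) _
  have hB : 0 ≤ Cd * (1 + K3 t0 lam C3 q) * (2 : ℝ) ^ p := by positivity
  refine ⟨p, (Cd * (1 + K3 t0 lam C3 q) * (2 : ℝ) ^ p) ^ (1 / p), hp1,
    Real.rpow_nonneg hB _, ?_⟩
  intro S M _ _ C ω hanti t _
  rw [← Real.rpow_mul hB, one_div_mul_cancel hp0.ne', Real.rpow_one]
  exact sizes_core X t0 ht0 lam C3 p q Cd h1 hC3 hp1 hpq hq2 h hCd hdet S M C ω hanti t

end

end Vale.Agent.P125.Dich
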