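import Vale.Agent.P125.Dich.TC_Mat2

set_option linter.unusedSectionVars false
set_option linter.unusedVariables false

/-! # Time change: splitting the marks so that every state has active probability at least eps -/

namespace Vale.Agent.P125.Dich

open scoped BigOperators
open Classical

noncomputable section

variable {S M : Type} [Fintype S] [Fintype M]

/-- the two halves of the split kernel add up to the original kernel -/
lemma split_aux_sum (C : MChain S M) (act : M → Prop) (ε : ℝ) (x : S) (m : M) (y : S) :
    (if act m then (if (true : Bool) = true then C.Q x m y else 0)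
      else (if (true : Bool) = true then ε * C.Q x m y else (1 - ε) * C.Q x m y)) +
    (if act m then (if (false : Bool) = true then C.Q x m y else 0)
      else (if (false : Bool) = true then ε * C.Q x m y else (1 - ε) * C.Q x m y)) = C.Q x m y := by
  by_cases hm : act m
  · simp [hm]
  · simp [hm]
    ring

/-- an inactive mark is declared (dummy) active with probability `ε` -/
def splitChain (C : MChain S M) (act : M → Prop) (hact : ∀ m, act (C.inv m) ↔ act m) (ε : ℝ)
    (h0 : 0 ≤ ε) (h1 : ε ≤ 1) : MChain S (M × Bool) where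
  μ := C.μ
  Q := fun x mb y =>
    if act mb.1 then (if mb.2 then C.Q x mb.1 y else 0)
    else (if mb.2 then ε * C.Q x mb.1 y else (1 - ε) * C.Q x mb.1 y)
  inv := fun mb => (C.inv mb.1, mb.2)
  μ_nonneg := C.μ_nonneg
  μ_sum := C.μ_sum
  Q_nonneg := by
    intro x mb y
    have hq := C.Q_nonneg x mb.1 y
    have h2 : 0 ≤ 1 - ε := by linarith
    split_ifs
    · exact hq
    · exact le_refl _
    · exact mul_nonneg h0 hq
    · exact mul_nonneg h2 hq
  Q_sum := by
    intro x
    rw [Fintype.sum_prod_type]
    refine Eq.trans ?_ (C.Q_sum x)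
    refine Finset.sum_congr rfl fun m _ => ?_
    rw [Fintype.sum_bool, ← Finset.sum_add_distrib]
    refine Finset.sum_congr rfl fun y _ => ?_
    exact split_aux_sum C act ε x m y
  inv_inv := by
    intro mb
    simp only [C.inv_inv]
  rev := by
    intro x mb y
    have hr := C.rev x mb.1 y
    have ha := hact mb.1
    dsimp only
    by_cases hm : act mb.1
    · have hm' : act (C.inv mb.1) := ha.2 hm
      rw [if_pos hm, if_pos hm']
      split_ifs
      · exact hr
      · simp
    · have hm' : ¬ act (C.inv mb.1) := fun h => hm (ha.1 h)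
      rw [if_neg hm, if_neg hm']
      split_ifs
      · calc C.μ x * (ε * C.Q x mb.1 y) = ε * (C.μ x * C.Q x mb.1 y) := by ring
          _ = ε * (C.μ y * C.Q y (C.inv mb.1) x) := by rw [hr]
          _ = _ := by ring
      · calc C.μ x * ((1 - ε) * C.Q x mb.1 y) = (1 - ε) * (C.μ x * C.Q x mb.1 y) := by ring
          _ = (1 - ε) * (C.μ y * C.Q y (C.inv mb.1) x) := by rw [hr]
          _ = _ := by ring

variable (C : MChain S M) (act : M → Prop) (hact : ∀ m, act (C.inv m) ↔ act m) (ε : ℝ)
  (h0 : 0 ≤ ε) (h1 : ε ≤ 1)

lemma split_Q (x : S) (mb : M × Bool) (y : S) :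
    (splitChain C act hact ε h0 h1).Q x mb y =
      if act mb.1 then (if mb.2 then C.Q x mb.1 y else 0)
      else (if mb.2 then ε * C.Q x mb.1 y else (1 - ε) * C.Q x mb.1 y) := rfl

lemma split_mu : (splitChain C act hact ε h0 h1).μ = C.μ := rfl

/-- the law of the first components is unchanged (induction on `b`); a list is admissible if no mark `(m, false)`
with `m` active occurs in it (such marks have kernel zero) -/
lemma split_valT (b : ℕ) (Φ : List M → S → ℝ) (Ψ : List (M × Bool) → S → ℝ)
    (h : ∀ l z, (∀ mb ∈ l, act mb.1 → mb.2 = true) → Ψ l z = Φ (l.map Prod.fst) z) (x : S) :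
    (splitChain C act hact ε h0 h1).valT b Ψ x = C.valT b Φ x := by
  induction b generalizing Φ Ψ x with
  | zero =>
    rw [valT_zero, valT_zero]
    exact h [] x (by simp)
  | succ b ih =>
    rw [valT_succ, valT_succ, Fintype.sum_prod_type]
    refine Finset.sum_congr rfl fun m _ => ?_
    rw [Fintype.sum_bool, ← Finset.sum_add_distrib]
    refine Finset.sum_congr rfl fun y _ => ?_
    have hT : (splitChain C act hact ε h0 h1).valT b (fun l z => Ψ ((m, true) :: l) z) y =
        C.valT b (fun l z => Φ (m :: l) z) y := by
      refine ih (fun l z => Φ (m :: l) z) (fun l z => Ψ ((m, true) :: l) z) ?_ y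
      intro l z hl
      have := h ((m, true) :: l) z (by
        intro mb hmb
        rcases List.mem_cons.1 hmb with rfl | hmb
        · intro _; rfl
        · exact hl mb hmb)
      simpa using this
    rw [hT, split_Q, split_Q]
    by_cases hm : act m
    · simp [hm]
    · have hF : (splitChain C act hact ε h0 h1).valT b (fun l z => Ψ ((m, false) :: l) z) y =
          C.valT b (fun l z => Φ (m :: l) z) y := by
        refine ih (fun l z => Φ (m :: l) z) (fun l z => Ψ ((m, false) :: l) z) ?_ y
        intro l z hl
        have := h ((m, false) :: l) z (by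
          intro mb hmb
          rcases List.mem_cons.1 hmb with rfl | hmb
          · intro h'; exact absurd h' hm
          · exact hl mb hmb)
        simpa using this
      rw [hF]
      simp [hm]
      ring

lemma split_E (b : ℕ) (Φ : List M → ℝ) (Ψ : List (M × Bool) → ℝ)
    (h : ∀ l, (∀ mb ∈ l, act mb.1 → mb.2 = true) → Ψ l = Φ (l.map Prod.fst)) :
    (splitChain C act hact ε h0 h1).E b Ψ = C.E b Φ := by
  unfold MChain.E
  refine Finset.sum_congr rfl fun x _ => ?_
  rw [split_mu, split_valT C act hact ε h0 h1 b (fun l _ => Φ l) (fun l _ => Ψ l)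
    (fun l _ hl => h l hl) x]

lemma split_alpha (x : S) :
    alpha (splitChain C act hact ε h0 h1) (fun mb => mb.2 = true) x =
      alpha C act x + ε * (1 - alpha C act x) := by
  have hs : (1 : ℝ) = ∑ m, ∑ y, C.Q x m y := (C.Q_sum x).symm
  unfold alpha
  rw [hs, Fintype.sum_prod_type, ← Finset.sum_sub_distrib, Finset.mul_sum,
    ← Finset.sum_add_distrib]
  refine Finset.sum_congr rfl fun m _ => ?_
  rw [Fintype.sum_bool, ← Finset.sum_sub_distrib, Finset.mul_sum, ← Finset.sum_add_distrib,
    ← Finset.sum_add_distrib]
  refine Finset.sum_congr rfl fun y _ => ?_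
  rw [split_Q]
  by_cases hm : act m
  · simp [hm]
  · simp [hm]

lemma alpha_le_one_aux (x : S) : alpha C act x ≤ 1 := by
  rw [← C.Q_sum x]
  unfold alpha
  refine Finset.sum_le_sum fun m _ => Finset.sum_le_sum fun y _ => ?_
  split_ifs
  · exact le_refl _
  · exact C.Q_nonneg x m y

lemma alpha_nonneg_aux (x : S) : 0 ≤ alpha C act x := by
  unfold alpha
  refine Finset.sum_nonneg fun m _ => Finset.sum_nonneg fun y _ => ?_
  split_ifs
  · exact C.Q_nonneg x m y
  · exact le_refl _

lemma split_alpha_ge (x : S) :
    ε ≤ alpha (splitChain C act hact ε h0 h1) (fun mb => mb.2 = true) x := by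
  rw [split_alpha]
  have ha := alpha_nonneg_aux C act x
  nlinarith [mul_nonneg ha (sub_nonneg.2 h1)]

lemma split_mua :
    mua (splitChain C act hact ε h0 h1) (fun mb => mb.2 = true) ≤ mua C act + ε := by
  unfold mua
  have h2 : ∑ x, C.μ x * alpha C act x + ε = ∑ x, C.μ x * (alpha C act x + ε) := by
    simp only [mul_add]
    rw [Finset.sum_add_distrib, ← Finset.sum_mul, C.μ_sum, one_mul]
  rw [h2]
  refine Finset.sum_le_sum fun x _ => ?_
  rw [split_mu, split_alpha]
  refine mul_le_mul_of_nonneg_left ?_ (C.μ_nonneg x)
  have ha := alpha_nonneg_aux C act x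
  nlinarith [mul_nonneg h0 ha]

end

end Vale.Agent.P125.Dich
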