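import Vale.Agent.P125.Dich.TC_Sum
import Vale.Agent.P125.Dich.TC_Split

set_option linter.unusedSectionVars false
set_option linter.unusedVariables false

/-! # Time change: the weak type estimate for sparse mark functions of size one -/

namespace Vale.Agent.P125.Dich

open scoped BigOperators
open Classical

noncomputable section

variable {S M : Type} [Fintype S] [Fintype M]

/-- an element of a list sits in a window of length one -/
lemma exists_window_of_mem {M : Type} (act : M → Prop) (l : List M) (h : ∃ m ∈ l, act m) :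
    ∃ u ∈ Finset.range l.length, ∃ m ∈ (l.drop u).take 1, act m := by
  obtain ⟨m, hm, ha⟩ := h
  obtain ⟨u, hu, hum⟩ := List.getElem_of_mem hm
  refine ⟨u, Finset.mem_range.mpr hu, m, ?_, ha⟩
  rw [List.drop_eq_getElem_cons hu, hum]
  simp

/-- the value of an `ite` does not depend on the decidability instance -/
lemma ite_inst' (p : Prop) (i1 i2 : Decidable p) (a b : ℝ) : @ite ℝ p i1 a b = @ite ℝ p i2 a b := by
  congr

/-- union bound over the positions: `E_union`, `E_window`, `E_one_act` -/
lemma E_exists_act_le (C : MChain S M) (act : M → Prop) (t : ℕ) :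
    C.E t (fun l => if ∃ m ∈ l, act m then 1 else 0) ≤ t * mua C act := by
  have h1 := E_union C (Finset.range t) t (fun l => ∃ m ∈ l, act m)
    (fun u l => ∃ m ∈ (l.drop u).take 1, act m)
    (fun l hl hp => by
      have := exists_window_of_mem act l hp
      rwa [hl] at this)
  have h0 : C.E t (fun l => if ∃ m ∈ l, act m then 1 else 0) =
      C.E t (fun l => @ite ℝ (∃ m ∈ l, act m) (propDecidable _) 1 0) :=
    E_congr C t _ _ (fun l _ => ite_inst' _ _ _ _ _)
  rw [h0]
  refine h1.trans ?_
  have h2 : ∀ u ∈ Finset.range t,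
      C.E t (fun l => @ite ℝ (∃ m ∈ (l.drop u).take 1, act m) (propDecidable _) 1 0)
        = mua C act := by
    intro u hu
    have hu' : u < t := Finset.mem_range.mp hu
    have ht : t = u + 1 + (t - u - 1) := by omega
    have h3 := E_window C u 1 (t - u - 1) (fun l => if ∃ m ∈ l, act m then (1 : ℝ) else 0)
    rw [← ht, E_one_act] at h3
    rw [← h3]
    exact E_congr C t _ _ (fun l _ => ite_inst' _ _ _ _ _)
  rw [Finset.sum_congr rfl h2]
  simp

/-- without active marks the sum vanishes -/
lemma sm_eq_zero_of_inactive {X : Type*} [AddCommMonoid X] (ω : M → X) (act : M → Prop)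
    (hsupp : ∀ m, ¬ act m → ω m = 0) (l : List M) (h : ∀ m ∈ l, ¬ act m) : sm ω l = 0 := by
  induction l with
  | nil => rfl
  | cons m l ih =>
    rw [sm_cons, hsupp m (h m (by simp)), ih (fun m' hm' => h m' (by simp [hm'])), add_zero]

/-- on admissible lists the split mark function has the same sums -/
lemma sm_split_eq {X : Type*} [AddCommMonoid X] (ω : M → X) (act : M → Prop)
    (hsupp : ∀ m, ¬ act m → ω m = 0) (l : List (M × Bool))
    (h : ∀ mb ∈ l, act mb.1 → mb.2 = true) :
    sm (fun mb : M × Bool => if mb.2 = true then ω mb.1 else 0) l = sm ω (l.map Prod.fst) := by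
  induction l with
  | nil => rfl
  | cons mb l ih =>
    rw [List.map_cons, sm_cons, sm_cons, ih (fun m' hm' => h m' (by simp [hm']))]
    congr 1
    by_cases hb : mb.2 = true
    · simp [hb]
    · have hna : ¬ act mb.1 := fun ha => hb (h mb (by simp) ha)
      simp [hb, hsupp mb.1 hna]

lemma mua_nonneg' (C : MChain S M) (act : M → Prop) : 0 ≤ mua C act :=
  Finset.sum_nonneg fun x _ => mul_nonneg (C.μ_nonneg x) (alpha_nonneg C act x)

lemma mua_le_one' (C : MChain S M) (act : M → Prop) : mua C act ≤ 1 := by
  have h1 : mua C act ≤ ∑ x, C.μ x * 1 :=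
    Finset.sum_le_sum fun x _ => mul_le_mul_of_nonneg_left (alpha_le_one C act x) (C.μ_nonneg x)
  simpa [C.μ_sum] using h1

/-- See PROOF.md, section TC.  If `mua C act = 0` use `E_exists_act_le` (if no mark of `l` is active then `sm ω l = 0`).
Otherwise `ε = mua C act`, pass to `splitChain` with `ω' mb = if mb.2 then ω mb.1 else 0`, `act' mb = (mb.2 = true)`
(on admissible lists `sm ω' l = sm ω (l.map Prod.fst)`, so `split_E` applies), choose `n >= t`, `n >= 1` with
`(1-ε)^n <= 1/2`, apply `weak_unif`, `split_mua`, `E_one_act`. -/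
theorem weakSS_of_maxBound (X : Type*) [NormedAddCommGroup X] (t0 : ℕ) (ht0 : 2 ≤ t0)
    (lam C2 : ℝ) (hl0 : 0 < lam) (hlam : 1.62 * (t0 : ℝ) ≤ lam ^ 2) (hC2 : 0 < C2)
    (h : MaxBound X t0 lam C2) : WeakSS X t0 lam (2 + 2 * Real.sqrt C2 * lam) := by
  intro S M _ _ C ω act hanti hact hsupp hbdd t i
  rw [E_one_act]
  have hC3 : 0 ≤ (2 + 2 * Real.sqrt C2 * lam) * lam ^ i := by
    have := Real.sqrt_nonneg C2
    positivity
  have ht0pos : (0 : ℝ) < (t0 : ℝ) ^ i := by
    have : (0 : ℝ) < (t0 : ℝ) := by
      have : 0 < t0 := by omega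
      exact_mod_cast this
    positivity
  have hm0 := mua_nonneg' C act
  have hm1 := mua_le_one' C act
  rcases hm0.eq_or_lt with hz | hpos
  · -- no active marks at all
    have h1 : C.E t (fun l => if (2 + 2 * Real.sqrt C2 * lam) * lam ^ i < ‖sm ω l‖ then 1 else 0) ≤
        C.E t (fun l => if ∃ m ∈ l, act m then 1 else 0) := by
      refine E_mono C t _ _ (fun l _ => ?_)
      by_cases hl : ∃ m ∈ l, act m
      · rw [if_pos hl]
        split_ifs <;> norm_num
      · have hl' : ∀ m ∈ l, ¬ act m := fun m hm ha => hl ⟨m, hm, ha⟩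
        rw [if_neg hl, sm_eq_zero_of_inactive ω act hsupp l hl', norm_zero,
          if_neg (not_lt.mpr hC3)]
    have h2 := E_exists_act_le C act t
    rw [← hz] at h2 ⊢
    simpa using h1.trans h2
  · set ε : ℝ := mua C act with hε
    obtain ⟨n0, hn0⟩ := exists_pow_lt_of_lt_one (show (0 : ℝ) < 1 / 2 by norm_num)
      (show 1 - ε < 1 by linarith)
    have hnbig : (1 - ε) ^ (n0 + t + 1) ≤ 1 / 2 := by
      have h1 : (1 - ε) ^ (n0 + t + 1) ≤ (1 - ε) ^ n0 :=
        pow_le_pow_of_le_one (by linarith) (by linarith) (by omega)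
      linarith
    have H : TCA (splitChain C act hact ε hpos.le hm1) (fun mb : M × Bool => mb.2 = true) ε
        (n0 + t + 1) :=
      { hact := fun mb => Iff.rfl
        ε_pos := hpos
        ε_le := hm1
        alpha_ge := fun x => split_alpha_ge C act hact ε hpos.le hm1 x
        n_pos := by omega
        n_big := hnbig }
    have W : TCW (splitChain C act hact ε hpos.le hm1)
        (fun mb : M × Bool => if mb.2 = true then ω mb.1 else 0)
        (fun mb : M × Bool => mb.2 = true) :=
      { anti := by
          intro mb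
          show (if mb.2 = true then ω (C.inv mb.1) else 0) = - (if mb.2 = true then ω mb.1 else 0)
          by_cases hb : mb.2 = true
          · simp [hb, hanti]
          · simp [hb]
        supp := by
          intro mb hb
          simp only [hb]
          rfl
        bdd := by
          intro mb
          by_cases hb : mb.2 = true
          · simp only [hb, if_true]
            exact hbdd mb.1
          · simp only [hb]
            simp }
    have h1 := weak_unif H W t0 ht0 lam C2 hl0 hlam hC2 h t i (by omega)
    have h2 := split_E C act hact ε hpos.le hm1 t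
      (fun l => if (2 + 2 * Real.sqrt C2 * lam) * lam ^ i < ‖sm ω l‖ then (1 : ℝ) else 0)
      (fun l => if (2 + 2 * Real.sqrt C2 * lam) * lam ^ i <
        ‖sm (fun mb : M × Bool => if mb.2 = true then ω mb.1 else 0) l‖ then (1 : ℝ) else 0)
      (fun l hl => by rw [sm_split_eq ω act hsupp l hl])
    rw [h2] at h1
    have h3 := split_mua C act hact ε hpos.le hm1
    refine h1.trans ?_
    rw [div_le_div_iff_of_pos_right ht0pos]
    have ht : (0 : ℝ) ≤ t := Nat.cast_nonneg t
    have h4 : mua (splitChain C act hact ε hpos.le hm1) (fun mb : M × Bool => mb.2 = true) ≤ 2 * ε := by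
      linarith
    nlinarith [mul_le_mul_of_nonneg_left h4 ht]

end

end Vale.Agent.P125.Dich
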