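import Vale.Agent.P125.Dich.Iter
import Vale.Agent.P125.Dich.FL
import Vale.Agent.P125.Dich.Max
import Vale.Agent.P125.Dich.TC
import Vale.Agent.P125.Dich.Sizes
import Vale.Agent.P125.Dich.Back

set_option linter.unusedSectionVars false
set_option linter.unusedVariables false

namespace Vale.Agent.P125.Dich

open scoped BigOperators

theorem dichotomy (X : Type*) [NormedAddCommGroup X] [NormedSpace ℝ X] (t0 : ℕ) (a : ℝ)
    (ht0 : 2 ≤ t0) (ha : a < 1)
    (h : ∀ (S : Type) [Fintype S] [DecidableEq S] (μ : S → ℝ) (P : Matrix S S ℝ),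
      (∀ i, 0 ≤ μ i) → ∑ i, μ i = 1 → (∀ i j, 0 ≤ P i j) → (∀ i, ∑ j, P i j = 1) →
      (∀ i j, μ i * P i j = μ j * P j i) → ∀ f : S → X,
        ∑ i, ∑ j, μ i * (P ^ t0) i j * ‖f j - f i‖ ^ 2 ≤
          a * (t0 : ℝ) ^ 2 * ∑ i, ∑ j, μ i * P i j * ‖f j - f i‖ ^ 2) :
    ∃ p K : ℝ, 1 < p ∧ 0 ≤ K ∧ Vale.Agent.P125.HasMarkovTypeWith X p K := by
  have ht : (2 : ℝ) ≤ t0 := by exact_mod_cast ht0
  set a' : ℝ := max a 0.81 with ha'
  have ha1 : a' < 1 := max_lt ha (by norm_num)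
  have ha2 : (0.81 : ℝ) ≤ a' := le_max_right _ _
  have ha0 : 0 < a' := by linarith
  set lam : ℝ := Real.sqrt a' * t0 with hlam
  have hs0 : 0 < Real.sqrt a' := Real.sqrt_pos.mpr ha0
  have hs1 : Real.sqrt a' < 1 := by
    rw [Real.sqrt_lt' (by norm_num)]; simpa using ha1
  have hs9 : (0.9 : ℝ) ≤ Real.sqrt a' := by
    apply Real.le_sqrt_of_sq_le; norm_num; linarith
  have hl0 : 0 < lam := by positivity
  have hl2 : lam ^ 2 = a' * (t0 : ℝ) ^ 2 := by
    rw [hlam, mul_pow, Real.sq_sqrt ha0.le]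
  have hl162 : 1.62 * (t0 : ℝ) ≤ lam ^ 2 := by
    rw [hl2]; nlinarith
  have hl1 : 1 < lam := by rw [hlam]; nlinarith
  have hlt : lam < t0 := by rw [hlam]; nlinarith
  have hF : HFun X t0 lam := by
    intro S _ _ μ P hc f
    obtain ⟨h1, h2, h3, h4, h5⟩ := hc
    refine (h S μ P h1 h2 h3 h4 h5 f).trans ?_
    have hnn : 0 ≤ ∑ i, ∑ j, μ i * P i j * ‖f j - f i‖ ^ 2 :=
      Finset.sum_nonneg fun i _ => Finset.sum_nonneg fun j _ =>
        mul_nonneg (mul_nonneg (h1 i) (h3 i j)) (by positivity)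
    refine mul_le_mul_of_nonneg_right ?_ hnn
    rw [hl2]
    exact mul_le_mul_of_nonneg_right (le_max_left _ _) (by positivity)
  have hM : ∀ k, HMark X (t0 ^ k) (lam ^ k) := fun k =>
    hMark_of_hFun X _ _ (hFun_pow X t0 lam hF k)
  have hMax := maxBound_of_hMark X t0 ht0 lam hl0 hl162 hM
  have hW := weakSS_of_maxBound X t0 ht0 lam _ hl0 hl162 (by positivity) hMax
  obtain ⟨p, K, hp, hK, hMT⟩ := markType_of_weakSS X t0 ht0 lam _ hl1 hlt (by positivity) hW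
  exact ⟨p, K, hp, hK, hasMarkovType_of_markType X p K hMT⟩

end Vale.Agent.P125.Dich
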