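import Vale.Agent.P125.Dich.ApiB

set_option linter.unusedSectionVars false
set_option linter.unusedVariables false

/-! # Sizes: the strong estimate for mark functions of size one -/

namespace Vale.Agent.P125.Dich

open scoped BigOperators
open Classical

noncomputable section

/-- the constant of the strong estimate -/
def K3 (t0 : ℕ) (lam C3 q : ℝ) : ℝ := C3 ^ q * (1 + 64 * lam ^ q / (1 - lam ^ q / t0))

/-- pointwise layer cake: if `y <= C3 * lam ^ I` then
`y^q <= C3^q ([0<y] + sum_{i<I} lam^((i+1) q) [C3 lam^i < y])` -/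
lemma layer (lam C3 q : ℝ) (h1 : 1 < lam) (hC3 : 0 < C3) (hq : 0 < q) (I : ℕ) (y : ℝ) (hy : 0 ≤ y)
    (hyI : y ≤ C3 * lam ^ I) :
    y ^ q ≤ C3 ^ q * ((if 0 < y then 1 else 0) +
      ∑ i ∈ Finset.range I, (lam ^ q) ^ (i + 1) * (if C3 * lam ^ i < y then 1 else 0)) := by
  have hlam : 0 < lam := by linarith
  have hCq : 0 < C3 ^ q := Real.rpow_pos_of_pos hC3 q
  have hlq : 0 < lam ^ q := Real.rpow_pos_of_pos hlam q
  have hterm : ∀ i : ℕ, 0 ≤ (lam ^ q) ^ (i + 1) * (if C3 * lam ^ i < y then (1 : ℝ) else 0) := by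
    intro i
    refine mul_nonneg (pow_nonneg hlq.le _) ?_
    split_ifs <;> norm_num
  have hind : (0 : ℝ) ≤ (if 0 < y then (1 : ℝ) else 0) := by
    split_ifs <;> norm_num
  induction I with
  | zero =>
    rw [Finset.sum_range_zero, add_zero]
    rw [pow_zero, mul_one] at hyI
    rcases hy.eq_or_lt with h0 | h0
    · rw [← h0, Real.zero_rpow hq.ne']
      simp
    · rw [if_pos h0, mul_one]
      exact Real.rpow_le_rpow hy hyI hq.le
  | succ I ih =>
    rw [Finset.sum_range_succ]
    by_cases hc : y ≤ C3 * lam ^ I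
    · have h2 := ih hc
      refine le_trans h2 (mul_le_mul_of_nonneg_left ?_ hCq.le)
      have := hterm I
      linarith
    · have hc' : C3 * lam ^ I < y := not_le.mp hc
      rw [if_pos hc', mul_one]
      have h3 : y ^ q ≤ (C3 * lam ^ (I + 1)) ^ q := Real.rpow_le_rpow hy hyI hq.le
      have h4a : (lam ^ (I + 1)) ^ q = (lam ^ q) ^ (I + 1) := by
        rw [← Real.rpow_natCast lam (I + 1), ← Real.rpow_mul hlam.le,
          ← Real.rpow_natCast (lam ^ q) (I + 1), ← Real.rpow_mul hlam.le, mul_comm]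
      have h4 : (C3 * lam ^ (I + 1)) ^ q = C3 ^ q * (lam ^ q) ^ (I + 1) := by
        rw [Real.mul_rpow hC3.le (pow_nonneg hlam.le _), h4a]
      rw [h4] at h3
      refine le_trans h3 (mul_le_mul_of_nonneg_left ?_ hCq.le)
      have h5 : 0 ≤ ∑ i ∈ Finset.range I,
          (lam ^ q) ^ (i + 1) * (if C3 * lam ^ i < y then (1 : ℝ) else 0) :=
        Finset.sum_nonneg (fun i _ => hterm i)
      linarith

/-- the sum vanishes if no mark of the list is active -/
lemma sm_eq_zero_of_not_act {X : Type*} [NormedAddCommGroup X] {M : Type} [Fintype M] (ω : M → X)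
    (act : M → Prop) (hsupp : ∀ m, ¬ act m → ω m = 0) (l : List M) (h : ∀ m ∈ l, ¬ act m) :
    sm ω l = 0 := by
  induction l with
  | nil => rfl
  | cons a l ih =>
    rw [sm_cons, hsupp a (h a (List.mem_cons_self)), zero_add]
    exact ih (fun m hm => h m (List.mem_cons_of_mem a hm))

/-- the norm of the sum is at most the length -/
lemma norm_sm_le_length {X : Type*} [NormedAddCommGroup X] {M : Type} [Fintype M] (ω : M → X)
    (hbdd : ∀ m, ‖ω m‖ ≤ 1) (l : List M) : ‖sm ω l‖ ≤ l.length := by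
  induction l with
  | nil => simp [sm]
  | cons a l ih =>
    rw [sm_cons, List.length_cons]
    push_cast
    have h1 := norm_add_le (ω a) (sm ω l)
    have h2 := hbdd a
    linarith

/-- the probability that the sum does not vanish -/
theorem E_ne_zero_le (X : Type*) [NormedAddCommGroup X]
    (S M : Type) [Fintype S] [Fintype M] (C : MChain S M) (ω : M → X) (act : M → Prop)
    (hsupp : ∀ m, ¬ act m → ω m = 0) (t : ℕ) :
    C.E t (fun l => if 0 < ‖sm ω l‖ then 1 else 0) ≤
      t * C.E 1 (fun l => if ∃ m ∈ l, act m then 1 else 0) := by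
  have hU := E_union C (Finset.range t) t (fun l => 0 < ‖sm ω l‖)
    (fun i l => ∃ m ∈ (l.drop i).take 1, act m) (by
      intro l hl hp
      by_contra hcon
      have hz : sm ω l = 0 := by
        refine sm_eq_zero_of_not_act ω act hsupp l (fun m hm hact => ?_)
        obtain ⟨i, hi, rfl⟩ := List.getElem_of_mem hm
        refine hcon ⟨i, Finset.mem_range.mpr (hl ▸ hi), l[i], ?_, hact⟩
        have hd : l.drop i = l[i] :: l.drop (i + 1) := List.drop_eq_getElem_cons hi
        rw [hd]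
        exact List.mem_cons_self
      rw [hz, norm_zero] at hp
      exact lt_irrefl _ hp)
  have hL : C.E t (fun l => if 0 < ‖sm ω l‖ then 1 else 0)
      = C.E t (fun l => @ite ℝ (0 < ‖sm ω l‖) (Classical.propDecidable _) 1 0) := by
    refine E_congr C t _ _ (fun l _ => ?_)
    split_ifs <;> rfl
  rw [hL]
  refine le_trans hU ?_
  have hW : ∀ i ∈ Finset.range t,
      C.E t (fun l => @ite ℝ (∃ m ∈ (l.drop i).take 1, act m) (Classical.propDecidable _) 1 0)
        = C.E 1 (fun l => if ∃ m ∈ l, act m then 1 else 0) := by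
    intro i hi
    have hi' : i < t := Finset.mem_range.mp hi
    have ht : t = i + 1 + (t - i - 1) := by omega
    have h := E_window C i 1 (t - i - 1) (fun l => if ∃ m ∈ l, act m then 1 else 0)
    rw [← ht] at h
    rw [← h]
    refine E_congr C t _ _ (fun l _ => ?_)
    split_ifs <;> rfl
  rw [Finset.sum_congr rfl hW, Finset.sum_const, Finset.card_range, nsmul_eq_mul]

/-- PROOF.md SIZES (a).  `|sm ω l| <= t` for lists of length `t`; `P(sm ω l != 0) <= t * P(first mark active)`
(union bound over the positions, `E_union`, `E_window`); geometric series. -/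
theorem strongSS_of_weakSS (X : Type*) [NormedAddCommGroup X] (t0 : ℕ) (ht0 : 2 ≤ t0)
    (lam C3 q : ℝ) (h1 : 1 < lam) (hC3 : 0 < C3) (hq : 0 < q) (hq2 : lam ^ q < t0)
    (h : WeakSS X t0 lam C3)
    (S M : Type) [Fintype S] [Fintype M] (C : MChain S M) (ω : M → X) (act : M → Prop)
    (hanti : ∀ m, ω (C.inv m) = - ω m) (hact : ∀ m, act (C.inv m) ↔ act m)
    (hsupp : ∀ m, ¬ act m → ω m = 0) (hbdd : ∀ m, ‖ω m‖ ≤ 1) (t : ℕ) :
    C.E t (fun l => ‖sm ω l‖ ^ q) ≤
      K3 t0 lam C3 q * t * C.E 1 (fun l => if ∃ m ∈ l, act m then 1 else 0) := by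
  have hlam : 0 < lam := by linarith
  have hCq : 0 < C3 ^ q := Real.rpow_pos_of_pos hC3 q
  have hlq : 0 < lam ^ q := Real.rpow_pos_of_pos hlam q
  have ht0' : (0 : ℝ) < t0 := by
    have : 0 < t0 := by omega
    exact_mod_cast this
  set mua : ℝ := C.E 1 (fun l => if ∃ m ∈ l, act m then 1 else 0) with hmua
  have hmua0 : 0 ≤ mua := by
    refine E_nonneg C 1 _ (fun l _ => ?_)
    split_ifs <;> norm_num
  -- choose `I`
  obtain ⟨I, hI⟩ : ∃ I : ℕ, (t : ℝ) / C3 < lam ^ I := pow_unbounded_of_one_lt _ h1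
  have hI' : (t : ℝ) ≤ C3 * lam ^ I := by
    rw [div_lt_iff₀ hC3] at hI
    linarith
  -- pointwise bound
  have hpt : C.E t (fun l => ‖sm ω l‖ ^ q) ≤
      C.E t (fun l => C3 ^ q * ((if 0 < ‖sm ω l‖ then 1 else 0) +
        ∑ i ∈ Finset.range I, (lam ^ q) ^ (i + 1) *
          (if C3 * lam ^ i < ‖sm ω l‖ then 1 else 0))) := by
    refine E_mono C t _ _ (fun l hl => ?_)
    refine layer lam C3 q h1 hC3 hq I _ (norm_nonneg _) ?_
    have h2 := norm_sm_le_length ω hbdd l
    rw [hl] at h2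
    linarith
  refine le_trans hpt ?_
  rw [E_const_mul, E_add, E_finset_sum]
  have hA := E_ne_zero_le X S M C ω act hsupp t
  rw [← hmua] at hA
  set x : ℝ := lam ^ q / t0 with hx
  have hx0 : 0 ≤ x := div_nonneg hlq.le ht0'.le
  have hx1 : x < 1 := by
    rw [hx, div_lt_one ht0']
    exact hq2
  have hB : ∀ i ∈ Finset.range I,
      C.E t (fun l => (lam ^ q) ^ (i + 1) * (if C3 * lam ^ i < ‖sm ω l‖ then 1 else 0))
        ≤ 64 * lam ^ q * t * mua * x ^ i := by
    intro i _
    rw [E_const_mul]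
    have hw := h S M C ω act hanti hact hsupp hbdd t i
    rw [← hmua] at hw
    have h3 : (lam ^ q) ^ (i + 1) * C.E t (fun l => if C3 * lam ^ i < ‖sm ω l‖ then 1 else 0)
        ≤ (lam ^ q) ^ (i + 1) * (64 * t * mua / (t0 : ℝ) ^ i) :=
      mul_le_mul_of_nonneg_left hw (pow_nonneg hlq.le _)
    refine le_trans h3 (le_of_eq ?_)
    rw [hx, div_pow, pow_succ]
    field_simp
  have hG : ∑ i ∈ Finset.range I, x ^ i ≤ 1 / (1 - x) := by
    rw [le_div_iff₀ (by linarith), geom_sum_mul_neg]
    have := pow_nonneg hx0 I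
    linarith
  have hsum : ∑ i ∈ Finset.range I,
      C.E t (fun l => (lam ^ q) ^ (i + 1) * (if C3 * lam ^ i < ‖sm ω l‖ then 1 else 0))
        ≤ 64 * lam ^ q * t * mua * (1 / (1 - x)) := by
    refine le_trans (Finset.sum_le_sum hB) ?_
    rw [← Finset.mul_sum]
    refine mul_le_mul_of_nonneg_left hG ?_
    positivity
  unfold K3
  rw [← hx]
  have h5 : C3 ^ q * (C.E t (fun l => if 0 < ‖sm ω l‖ then 1 else 0) + ∑ i ∈ Finset.range I,
      C.E t (fun l => (lam ^ q) ^ (i + 1) * (if C3 * lam ^ i < ‖sm ω l‖ then 1 else 0)))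
      ≤ C3 ^ q * (t * mua + 64 * lam ^ q * t * mua * (1 / (1 - x))) :=
    mul_le_mul_of_nonneg_left (add_le_add hA hsum) hCq.le
  refine le_trans h5 (le_of_eq ?_)
  ring

end

end Vale.Agent.P125.Dich
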