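import Vale.Agent.P125.Dich.TC_Mat3

set_option linter.unusedSectionVars false
set_option linter.unusedVariables false

/-! # Time change: first passage functionals and the Palm quantity -/

namespace Vale.Agent.P125.Dich

open scoped BigOperators
open Classical

noncomputable section

variable {S M : Type} [Fintype S] [Fintype M]

section det

variable {M : Type} {X : Type*} [NormedAddCommGroup X] (ω : M → X) (act : M → Prop) (ρ : ℝ)

lemma smd_nil : sm ω [] = 0 := rfl

lemma smd_cons (m : M) (l : List M) : sm ω (m :: l) = ω m + sm ω l := by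
  simp [sm]

lemma fp_nil (k : ℕ) (acc : X) : fp ω act ρ [] k acc = 0 := by
  simp [fp]

lemma fp_cons_inact {m : M} (h : ¬ act m) (l : List M) (k : ℕ) (acc : X) :
    fp ω act ρ (m :: l) k acc = fp ω act ρ l k acc := by
  simp [fp, h]

lemma fp_cons_act_zero {m : M} (h : act m) (l : List M) (acc : X) :
    fp ω act ρ (m :: l) 0 acc = 0 := by
  simp [fp, h]

lemma fp_cons_act_succ {m : M} (h : act m) (l : List M) (k : ℕ) (acc : X) :
    fp ω act ρ (m :: l) (k + 1) acc =
      if ρ ≤ ‖acc + ω m‖ then 1 else fp ω act ρ l k (acc + ω m) := by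
  simp [fp, h]

lemma fp_nonneg : ∀ (l : List M) (k : ℕ) (acc : X), 0 ≤ fp ω act ρ l k acc := by
  intro l
  induction l with
  | nil => intro k acc; rw [fp_nil]
  | cons m l ih =>
    intro k acc
    by_cases h : act m
    · cases k with
      | zero => rw [fp_cons_act_zero ω act ρ h]
      | succ k =>
        rw [fp_cons_act_succ ω act ρ h]
        split_ifs
        · exact zero_le_one
        · exact ih _ _
    · rw [fp_cons_inact ω act ρ h]
      exact ih _ _

lemma fp_le_one : ∀ (l : List M) (k : ℕ) (acc : X), fp ω act ρ l k acc ≤ 1 := by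
  intro l
  induction l with
  | nil => intro k acc; rw [fp_nil]; exact zero_le_one
  | cons m l ih =>
    intro k acc
    by_cases h : act m
    · cases k with
      | zero => rw [fp_cons_act_zero ω act ρ h]; exact zero_le_one
      | succ k =>
        rw [fp_cons_act_succ ω act ρ h]
        split_ifs
        · exact le_refl _
        · exact ih _ _
    · rw [fp_cons_inact ω act ρ h]
      exact ih _ _

lemma nact_cons_act {m : M} (h : act m) (l : List M) : nact act (m :: l) = nact act l + 1 := by
  unfold nact
  rw [List.countP_cons_of_pos (by simpa using h)]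

lemma nact_cons_inact {m : M} (h : ¬ act m) (l : List M) : nact act (m :: l) = nact act l := by
  unfold nact
  rw [List.countP_cons_of_neg (by simpa using h)]

/-- induction on `l` -/
lemma fp_eq_one (hsupp : ∀ m, ¬ act m → ω m = 0) :
    ∀ (l : List M) (k : ℕ) (acc : X), ‖acc‖ < ρ → nact act l ≤ k → ρ ≤ ‖acc + sm ω l‖ →
      fp ω act ρ l k acc = 1 := by
  intro l
  induction l with
  | nil =>
    intro k acc h1 _ h3
    rw [smd_nil, add_zero] at h3
    exact absurd h3 (not_le.2 h1)
  | cons m l ih =>
    intro k acc h1 h2 h3
    by_cases h : act m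
    · rw [nact_cons_act act h] at h2
      obtain ⟨k', rfl⟩ : ∃ k', k = k' + 1 := ⟨k - 1, by omega⟩
      rw [fp_cons_act_succ ω act ρ h]
      split_ifs with h4
      · rfl
      · refine ih k' (acc + ω m) (not_le.1 h4) (by omega) ?_
        rw [smd_cons, ← add_assoc] at h3
        exact h3
    · rw [nact_cons_inact act h] at h2
      rw [fp_cons_inact ω act ρ h]
      refine ih k acc h1 h2 ?_
      rw [smd_cons, hsupp m h, zero_add] at h3
      exact h3

lemma ite_le_ite_of_imp {P Q : Prop} (h : P → Q) :
    (if P then (1 : ℝ) else 0) ≤ if Q then 1 else 0 := by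
  by_cases hP : P
  · rw [if_pos hP, if_pos (h hP)]
  · rw [if_neg hP]
    split_ifs
    · exact zero_le_one
    · exact le_refl _

lemma zero_le_ite (Q : Prop) : (0 : ℝ) ≤ if Q then 1 else 0 := by
  split_ifs
  · exact zero_le_one
  · exact le_refl _

/-- induction on `l` -/
lemma fp_le_ind (hsupp : ∀ m, ¬ act m → ω m = 0) :
    ∀ (l : List M) (k : ℕ) (acc : X),
      fp ω act ρ l k acc ≤ if ∃ b, ρ ≤ ‖acc + sm ω (l.take b)‖ then 1 else 0 := by
  intro l
  induction l with
  | nil =>
    intro k acc
    rw [fp_nil]
    exact zero_le_ite _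
  | cons m l ih =>
    intro k acc
    by_cases h : act m
    · cases k with
      | zero =>
        rw [fp_cons_act_zero ω act ρ h]
        exact zero_le_ite _
      | succ k =>
        rw [fp_cons_act_succ ω act ρ h]
        split_ifs with h4 h5 h5
        · exact le_refl _
        · exfalso
          apply h5
          refine ⟨1, ?_⟩
          rw [List.take_succ_cons, List.take_zero, smd_cons, smd_nil, add_zero]
          exact h4
        · exact fp_le_one ω act ρ _ _ _
        · refine le_trans (ih k (acc + ω m)) ?_
          rw [if_neg]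
          rintro ⟨b, hb⟩
          apply h5
          refine ⟨b + 1, ?_⟩
          rw [List.take_succ_cons, smd_cons, ← add_assoc]
          exact hb
    · rw [fp_cons_inact ω act ρ h]
      refine le_trans (ih k acc) (ite_le_ite_of_imp ?_)
      rintro ⟨b, hb⟩
      refine ⟨b + 1, ?_⟩
      rw [List.take_succ_cons, smd_cons, hsupp m h, zero_add]
      exact hb

lemma fpa_nonneg (k : ℕ) (l : List M) : 0 ≤ fpa ω act ρ k l := by
  cases l with
  | nil => simp [fpa]
  | cons m l =>
    by_cases h : act m
    · simp only [fpa, if_pos h]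
      exact fp_nonneg ω act ρ _ _ _
    · simp [fpa, h]

end det

variable {X : Type*} [NormedAddCommGroup X] (C : MChain S M) (ω : M → X) (act : M → Prop) (ρ : ℝ)
  (n : ℕ)

lemma pl_zero (acc : X) (x : S) : pl C ω act ρ n 0 acc x = 0 := by
  simp [pl]

lemma pl_succ (k : ℕ) (acc : X) (x : S) :
    pl C ω act ρ n (k + 1) acc x =
      ∑ m, ∑ y, (if act m then C.Q x m y else 0) *
        (if ρ ≤ ‖acc + ω m‖ then 1
          else ∑ x', Gn C act n y x' * pl C ω act ρ n k (acc + ω m) x') := by
  simp [pl]

lemma pl_nonneg : ∀ (k : ℕ) (acc : X) (x : S), 0 ≤ pl C ω act ρ n k acc x := by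
  intro k
  induction k with
  | zero => intro acc x; rw [pl_zero]
  | succ k ih =>
    intro acc x
    rw [pl_succ]
    refine Finset.sum_nonneg fun m _ => Finset.sum_nonneg fun y _ => mul_nonneg ?_ ?_
    · split_ifs
      · exact C.Q_nonneg x m y
      · exact le_refl _
    · split_ifs
      · exact zero_le_one
      · exact Finset.sum_nonneg fun x' _ => mul_nonneg (Gn_nonneg C act n y x') (ih _ _)

/-- the contribution of an active first step -/
lemma act_step (s : ℕ) (hs : s ≤ n)
    (hIH : ∀ (k : ℕ) (acc : X) (x : S),
      C.valT s (fun l _ => fp ω act ρ l k acc) x ≤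
        ∑ x', Gn C act s x x' * pl C ω act ρ n k acc x')
    (k : ℕ) (acc : X) (x : S) :
    ∑ m, ∑ y, (if act m then C.Q x m y else 0) *
        C.valT s (fun l _ => fp ω act ρ (m :: l) k acc) y ≤ pl C ω act ρ n k acc x := by
  cases k with
  | zero =>
    rw [pl_zero]
    refine le_of_eq (Finset.sum_eq_zero fun m _ => Finset.sum_eq_zero fun y _ => ?_)
    by_cases h : act m
    · have : (fun (l : List M) (_ : S) => fp ω act ρ (m :: l) 0 acc) = fun _ _ => (0 : ℝ) := by
        funext l _
        exact fp_cons_act_zero ω act ρ h l acc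
      rw [this, valT_const, mul_zero]
    · rw [if_neg h, zero_mul]
  | succ k =>
    rw [pl_succ]
    refine Finset.sum_le_sum fun m _ => Finset.sum_le_sum fun y _ => ?_
    by_cases h : act m
    · rw [if_pos h]
      refine mul_le_mul_of_nonneg_left ?_ (C.Q_nonneg x m y)
      by_cases h4 : ρ ≤ ‖acc + ω m‖
      · rw [if_pos h4]
        have : (fun (l : List M) (_ : S) => fp ω act ρ (m :: l) (k + 1) acc)
            = fun _ _ => (1 : ℝ) := by
          funext l _
          rw [fp_cons_act_succ ω act ρ h, if_pos h4]
        rw [this, valT_const]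
      · rw [if_neg h4]
        have : (fun (l : List M) (_ : S) => fp ω act ρ (m :: l) (k + 1) acc)
            = fun l _ => fp ω act ρ l k (acc + ω m) := by
          funext l _
          rw [fp_cons_act_succ ω act ρ h, if_neg h4]
        rw [this]
        refine le_trans (hIH k (acc + ω m) y) ?_
        refine Finset.sum_le_sum fun x' _ => ?_
        exact mul_le_mul_of_nonneg_right (Gn_mono C act hs y x') (pl_nonneg C ω act ρ n _ _ _)
    · rw [if_neg h, zero_mul, zero_mul]

/-- Induction on `s` (PROOF.md TC 4(a)).  In the step split the sum over the first mark `m` into active and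
inactive marks.  Active marks give at most `pl k acc x` (use the induction hypothesis, `Gn_mono`, `pl_nonneg`,
`valT_const`); inactive marks give `(P0 * Gn s) pl`; conclude with `Gn_succ`. -/
lemma fp_le_pl : ∀ s, s ≤ n → ∀ (k : ℕ) (acc : X) (x : S),
    C.valT s (fun l _ => fp ω act ρ l k acc) x ≤ ∑ x', Gn C act s x x' * pl C ω act ρ n k acc x' := by
  intro s
  induction s with
  | zero =>
    intro _ k acc x
    rw [valT_zero, fp_nil, Gn_zero]
    simp
  | succ s ih =>
    intro hs k acc x
    have hs' : s ≤ n := by omega
    have hIH := ih hs'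
    have hA := act_step C ω act ρ n s hs' hIH k acc x
    -- the right side
    have hR : ∑ x', Gn C act (s + 1) x x' * pl C ω act ρ n k acc x' =
        pl C ω act ρ n k acc x +
          ∑ y, P0 C act x y * ∑ x', Gn C act s y x' * pl C ω act ρ n k acc x' := by
      rw [Gn_succ]
      have h1 : ∀ x', (1 + P0 C act * Gn C act s) x x' * pl C ω act ρ n k acc x' =
          (1 : Matrix S S ℝ) x x' * pl C ω act ρ n k acc x' +
            ∑ y, P0 C act x y * (Gn C act s y x' * pl C ω act ρ n k acc x') := by
        intro x'
        rw [Matrix.add_apply, Matrix.mul_apply, add_mul, Finset.sum_mul]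
        congr 1
        refine Finset.sum_congr rfl fun y _ => ?_
        ring
      simp only [h1]
      rw [Finset.sum_add_distrib, Finset.sum_comm]
      congr 1
      · simp [Matrix.one_apply]
      · refine Finset.sum_congr rfl fun y _ => ?_
        rw [Finset.mul_sum]
    -- the inactive part
    have hB : ∑ m, ∑ y, (if act m then 0 else C.Q x m y) *
        C.valT s (fun l _ => fp ω act ρ (m :: l) k acc) y ≤
          ∑ y, P0 C act x y * ∑ x', Gn C act s y x' * pl C ω act ρ n k acc x' := by
      have h2 : ∀ y, P0 C act x y * ∑ x', Gn C act s y x' * pl C ω act ρ n k acc x' =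
          ∑ m, (if act m then 0 else C.Q x m y) *
            ∑ x', Gn C act s y x' * pl C ω act ρ n k acc x' := by
        intro y
        unfold P0
        rw [Finset.sum_mul]
      simp only [h2]
      rw [Finset.sum_comm]
      refine Finset.sum_le_sum fun y _ => Finset.sum_le_sum fun m _ => ?_
      by_cases h : act m
      · rw [if_pos h, zero_mul, zero_mul]
      · rw [if_neg h]
        refine mul_le_mul_of_nonneg_left ?_ (C.Q_nonneg x m y)
        have : (fun (l : List M) (_ : S) => fp ω act ρ (m :: l) k acc)
            = fun l _ => fp ω act ρ l k acc := by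
          funext l _
          exact fp_cons_inact ω act ρ h l k acc
        rw [this]
        exact hIH k acc y
    rw [hR, valT_succ]
    refine le_trans (le_of_eq ?_) (add_le_add hA hB)
    rw [← Finset.sum_add_distrib]
    refine Finset.sum_congr rfl fun m _ => ?_
    rw [← Finset.sum_add_distrib]
    refine Finset.sum_congr rfl fun y _ => ?_
    by_cases h : act m
    · rw [if_pos h, if_pos h, zero_mul, add_zero]
    · rw [if_neg h, if_neg h, zero_mul, zero_add]

/-- unfold one step and use `fp_le_pl` -/
lemma E_fpa_le (k s : ℕ) (hs : s ≤ n + 1) : C.E s (fpa ω act ρ k) ≤ Pal C ω act ρ n k := by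
  unfold MChain.E Pal
  refine Finset.sum_le_sum fun x _ => mul_le_mul_of_nonneg_left ?_ (C.μ_nonneg x)
  cases s with
  | zero =>
    rw [valT_zero]
    simp only [fpa]
    exact pl_nonneg C ω act ρ n k 0 x
  | succ s =>
    have hs' : s ≤ n := by omega
    have hA := act_step C ω act ρ n s hs' (fp_le_pl C ω act ρ n s hs') k 0 x
    refine le_trans (le_of_eq ?_) hA
    rw [valT_succ]
    refine Finset.sum_congr rfl fun m _ => Finset.sum_congr rfl fun y _ => ?_
    by_cases h : act m
    · rw [if_pos h]
      congr 1
      have : (fun (l : List M) (_ : S) => fpa ω act ρ k (m :: l))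
          = fun l _ => fp ω act ρ (m :: l) k 0 := by
        funext l _
        simp only [fpa, if_pos h]
      rw [this]
    · rw [if_neg h, zero_mul]
      have : (fun (l : List M) (_ : S) => fpa ω act ρ k (m :: l)) = fun _ _ => (0 : ℝ) := by
        funext l _
        simp only [fpa, if_neg h]
      rw [this, valT_const, mul_zero]

end

end Vale.Agent.P125.Dich
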