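import Vale.Agent.P125.Dich.TC_Mid
import Vale.Agent.P125.Dich.TC_FP

set_option linter.unusedSectionVars false
set_option linter.unusedVariables false

/-! # Time change: comparison of the Palm quantity with the midpoint chain -/

namespace Vale.Agent.P125.Dich

open scoped BigOperators
open Classical

noncomputable section

variable {S M : Type} [Fintype S] [Fintype M]

variable {X : Type*} [NormedAddCommGroup X] {C : MChain S M} {ω : M → X} {act : M → Prop} {ε : ℝ}
  {n : ℕ}

/-- `U k acc y = sum_w R y w * h w * (value of the first passage functional for the midpoint chain from w)` -/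
def UU (H : TCA C act ε n) (ω : M → X) (ρ : ℝ) (k : ℕ) (acc : X) (y : S) : ℝ :=
  ∑ w, Rn C act n y w * hh C act n w *
    (midChain H).valT k (fun l _ => fp (midW ω) midAct ρ l k acc) w

/-- the value after a non holding first step -/
private lemma cmp_val_some (H : TCA C act ε n) (ρ : ℝ) (k : ℕ) (acc : X) (e : S × M × S) (w' : S) :
    (midChain H).valT k (fun l _ => fp (midW ω) midAct ρ (some e :: l) (k + 1) acc) w' =
      if ρ ≤ ‖acc + ω e.2.1‖ then 1
      else (midChain H).valT k (fun l _ => fp (midW ω) midAct ρ l k (acc + ω e.2.1)) w' := by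
  have hact : (midAct (S := S) (M := M)) (some e) := by
    unfold midAct
    simp
  have hW : midW ω (some e) = ω e.2.1 := rfl
  by_cases h4 : ρ ≤ ‖acc + ω e.2.1‖
  · rw [if_pos h4]
    have : (fun (l : List (Option (S × M × S))) (_ : S) =>
        fp (midW ω) midAct ρ (some e :: l) (k + 1) acc) = fun _ _ => (1 : ℝ) := by
      funext l _
      rw [fp_cons_act_succ (midW ω) midAct ρ hact, hW, if_pos h4]
    rw [this, valT_const]
  · rw [if_neg h4]
    have : (fun (l : List (Option (S × M × S))) (_ : S) =>
        fp (midW ω) midAct ρ (some e :: l) (k + 1) acc) =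
        fun l _ => fp (midW ω) midAct ρ l k (acc + ω e.2.1) := by
      funext l _
      rw [fp_cons_act_succ (midW ω) midAct ρ hact, hW, if_neg h4]
    rw [this]

/-- the contribution of one non holding mark -/
private lemma cmp_one_mark (H : TCA C act ε n) (ρ : ℝ) (k : ℕ) (acc : X) (w : S) (e : S × M × S) :
    hh C act n w * ∑ w', midK C act n w e w' *
        (midChain H).valT k (fun l _ => fp (midW ω) midAct ρ (some e :: l) (k + 1) acc) w' =
      Rn C act n w e.1 * (if act e.2.1 then C.Q e.1 e.2.1 e.2.2 else 0) *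
        (if ρ ≤ ‖acc + ω e.2.1‖ then ∑ w', Rn C act n e.2.2 w' * hh C act n w'
          else UU H ω ρ k (acc + ω e.2.1) e.2.2) := by
  have hw := (hh_pos H w).ne'
  simp only [cmp_val_some]
  unfold midK
  by_cases ha : act e.2.1
  · simp only [if_pos ha]
    by_cases h4 : ρ ≤ ‖acc + ω e.2.1‖
    · simp only [if_pos h4]
      rw [Finset.mul_sum, Finset.mul_sum]
      refine Finset.sum_congr rfl fun w' _ => ?_
      field_simp
    · simp only [if_neg h4]
      unfold UU
      rw [Finset.mul_sum, Finset.mul_sum]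
      refine Finset.sum_congr rfl fun w' _ => ?_
      field_simp
  · simp only [if_neg ha]
    simp

/-- one step of the midpoint chain (drop the holding step, which contributes a nonnegative term) -/
lemma mid_step (H : TCA C act ε n) (ρ : ℝ) (k : ℕ) (acc : X) (w : S) :
    ∑ x, ∑ m, ∑ y, Rn C act n w x * (if act m then C.Q x m y else 0) *
        (if ρ ≤ ‖acc + ω m‖ then ∑ w', Rn C act n y w' * hh C act n w' else UU H ω ρ k (acc + ω m) y) ≤
      hh C act n w * (midChain H).valT (k + 1) (fun l _ => fp (midW ω) midAct ρ l (k + 1) acc) w := by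
  have hw := hh_pos H w
  have hL : ∑ x, ∑ m, ∑ y, Rn C act n w x * (if act m then C.Q x m y else 0) *
        (if ρ ≤ ‖acc + ω m‖ then ∑ w', Rn C act n y w' * hh C act n w'
          else UU H ω ρ k (acc + ω m) y) =
      hh C act n w * ∑ e : S × M × S, ∑ w', midK C act n w e w' *
        (midChain H).valT k (fun l _ => fp (midW ω) midAct ρ (some e :: l) (k + 1) acc) w' := by
    rw [Finset.mul_sum]
    simp only [cmp_one_mark]
    rw [Fintype.sum_prod_type]
    refine Finset.sum_congr rfl fun x _ => ?_
    rw [Fintype.sum_prod_type]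
  rw [hL]
  refine mul_le_mul_of_nonneg_left ?_ hw.le
  rw [valT_succ, Fintype.sum_option]
  have h0 : 0 ≤ ∑ y, (midChain H).Q w none y *
      (midChain H).valT k (fun l _ => fp (midW ω) midAct ρ (none :: l) (k + 1) acc) y := by
    refine Finset.sum_nonneg fun y _ => mul_nonneg ((midChain H).Q_nonneg _ _ _) ?_
    exact valT_nonneg _ _ _ (fun l _ _ => fp_nonneg _ _ _ _ _ _) _
  have h1 : ∑ e : S × M × S, ∑ y, (midChain H).Q w (some e) y *
      (midChain H).valT k (fun l _ => fp (midW ω) midAct ρ (some e :: l) (k + 1) acc) y =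
      ∑ e : S × M × S, ∑ w', midK C act n w e w' *
        (midChain H).valT k (fun l _ => fp (midW ω) midAct ρ (some e :: l) (k + 1) acc) w' := rfl
  rw [h1]
  linarith

/-- PROOF.md TC 4(b): induction on `k`, using `mid_step`, `R_hh_ge`, `RR_ge_G` -/
lemma UU_ge (H : TCA C act ε n) (ρ : ℝ) : ∀ (k : ℕ) (acc : X) (y : S),
    1 / 2 * ∑ x', Gn C act n y x' * pl C ω act ρ n k acc x' ≤ UU H ω ρ k acc y := by
  intro k
  induction k with
  | zero =>
    intro acc y
    simp only [pl_zero, mul_zero, Finset.sum_const_zero]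
    unfold UU
    refine Finset.sum_nonneg fun w _ => mul_nonneg
      (mul_nonneg (Rn_nonneg C act n _ _) (hh_pos H w).le) ?_
    exact valT_nonneg _ _ _ (fun l _ _ => fp_nonneg _ _ _ _ _ _) _
  | succ k ih =>
    intro acc y
    -- lower bound for one midpoint
    have hmid : ∀ w, 1 / 2 * ∑ x, Rn C act n w x * pl C ω act ρ n (k + 1) acc x ≤
        hh C act n w *
          (midChain H).valT (k + 1) (fun l _ => fp (midW ω) midAct ρ l (k + 1) acc) w := by
      intro w
      refine le_trans ?_ (mid_step H ρ k acc w)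
      rw [Finset.mul_sum]
      refine Finset.sum_le_sum fun x _ => ?_
      rw [pl_succ, Finset.mul_sum, Finset.mul_sum]
      refine Finset.sum_le_sum fun m _ => ?_
      rw [Finset.mul_sum, Finset.mul_sum]
      refine Finset.sum_le_sum fun y' _ => ?_
      have hA : 0 ≤ Rn C act n w x * (if act m then C.Q x m y' else 0) := by
        refine mul_nonneg (Rn_nonneg C act n _ _) ?_
        split_ifs
        · exact C.Q_nonneg _ _ _
        · exact le_rfl
      have hB : 1 / 2 * (if ρ ≤ ‖acc + ω m‖ then (1 : ℝ)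
            else ∑ x', Gn C act n y' x' * pl C ω act ρ n k (acc + ω m) x') ≤
          (if ρ ≤ ‖acc + ω m‖ then ∑ w', Rn C act n y' w' * hh C act n w'
            else UU H ω ρ k (acc + ω m) y') := by
        split_ifs
        · have := R_hh_ge H y'
          linarith
        · exact ih _ _
      calc 1 / 2 * (Rn C act n w x * ((if act m then C.Q x m y' else 0) *
            (if ρ ≤ ‖acc + ω m‖ then (1 : ℝ)
              else ∑ x', Gn C act n y' x' * pl C ω act ρ n k (acc + ω m) x')))
          = Rn C act n w x * (if act m then C.Q x m y' else 0) *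
            (1 / 2 * (if ρ ≤ ‖acc + ω m‖ then (1 : ℝ)
              else ∑ x', Gn C act n y' x' * pl C ω act ρ n k (acc + ω m) x')) := by ring
        _ ≤ _ := mul_le_mul_of_nonneg_left hB hA
    have h1 : 1 / 2 * ∑ x, (Rn C act n * Rn C act n) y x * pl C ω act ρ n (k + 1) acc x ≤
        UU H ω ρ (k + 1) acc y := by
      unfold UU
      have e1 : 1 / 2 * ∑ x, (Rn C act n * Rn C act n) y x * pl C ω act ρ n (k + 1) acc x =
          ∑ w, Rn C act n y w * (1 / 2 * ∑ x, Rn C act n w x * pl C ω act ρ n (k + 1) acc x) := by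
        simp only [Matrix.mul_apply, Finset.sum_mul, Finset.mul_sum]
        rw [Finset.sum_comm]
        refine Finset.sum_congr rfl fun w _ => Finset.sum_congr rfl fun x _ => ?_
        ring
      rw [e1]
      refine Finset.sum_le_sum fun w _ => ?_
      rw [mul_assoc]
      exact mul_le_mul_of_nonneg_left (hmid w) (Rn_nonneg C act n _ _)
    refine le_trans ?_ h1
    refine mul_le_mul_of_nonneg_left ?_ (by norm_num)
    refine Finset.sum_le_sum fun x _ => ?_
    exact mul_le_mul_of_nonneg_right (RR_ge_G C act n y x) (pl_nonneg C ω act ρ n _ _ _)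

/-- `Ct.E k (fp) = (1/Z) sum_x mu x alpha x U k 0 x >= (1/(2Z)) sum_x' mu x' (G alpha) x' pl k 0 x'` -/
theorem Pal_le (H : TCA C act ε n) (ρ : ℝ) (k : ℕ) :
    Pal C ω act ρ n k ≤
      4 * ZZ C act n * (midChain H).E k (fun l => fp (midW ω) midAct ρ l k 0) := by
  have hZ := ZZ_pos H
  -- the expectation in terms of `UU`
  have e1 : ZZ C act n * (midChain H).E k (fun l => fp (midW ω) midAct ρ l k 0) =
      ∑ x, C.μ x * alpha C act x * UU H ω ρ k 0 x := by
    unfold MChain.E UU
    have hμ : ∀ w, (midChain H).μ w = C.μ w * hh C act n w ^ 2 / ZZ C act n := fun _ => rfl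
    simp only [hμ]
    rw [Finset.mul_sum]
    have e2 : ∀ w, ZZ C act n * (C.μ w * hh C act n w ^ 2 / ZZ C act n *
        (midChain H).valT k (fun l _ => fp (midW ω) midAct ρ l k 0) w) =
        ∑ x, C.μ x * alpha C act x * (Rn C act n x w * hh C act n w *
          (midChain H).valT k (fun l _ => fp (midW ω) midAct ρ l k 0) w) := by
      intro w
      have e3 : C.μ w * hh C act n w = ∑ x, C.μ x * alpha C act x * Rn C act n x w := by
        unfold hh
        rw [Finset.mul_sum]
        refine Finset.sum_congr rfl fun x _ => ?_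
        have := Rn_symm C act H.hact n w x
        calc C.μ w * (Rn C act n w x * alpha C act x)
            = (C.μ w * Rn C act n w x) * alpha C act x := by ring
          _ = (C.μ x * Rn C act n x w) * alpha C act x := by rw [this]
          _ = C.μ x * alpha C act x * Rn C act n x w := by ring
      calc ZZ C act n * (C.μ w * hh C act n w ^ 2 / ZZ C act n *
            (midChain H).valT k (fun l _ => fp (midW ω) midAct ρ l k 0) w)
          = (C.μ w * hh C act n w) * (hh C act n w *
            (midChain H).valT k (fun l _ => fp (midW ω) midAct ρ l k 0) w) := by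
            field_simp
        _ = _ := by
            rw [e3, Finset.sum_mul]
            refine Finset.sum_congr rfl fun x _ => ?_
            ring
    simp only [e2]
    rw [Finset.sum_comm]
    refine Finset.sum_congr rfl fun x _ => ?_
    rw [Finset.mul_sum]
  have e4 : 1 / 4 * Pal C ω act ρ n k ≤ ∑ x, C.μ x * alpha C act x * UU H ω ρ k 0 x := by
    have s1 : ∑ x, C.μ x * alpha C act x *
        (1 / 2 * ∑ x', Gn C act n x x' * pl C ω act ρ n k 0 x') ≤
        ∑ x, C.μ x * alpha C act x * UU H ω ρ k 0 x := by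
      refine Finset.sum_le_sum fun x _ => ?_
      exact mul_le_mul_of_nonneg_left (UU_ge H ρ k 0 x)
        (mul_nonneg (C.μ_nonneg x) (alpha_nonneg C act x))
    refine le_trans ?_ s1
    have s2 : ∑ x, C.μ x * alpha C act x *
        (1 / 2 * ∑ x', Gn C act n x x' * pl C ω act ρ n k 0 x') =
        ∑ x', 1 / 2 * (C.μ x' * pl C ω act ρ n k 0 x') *
          ∑ x, Gn C act n x' x * alpha C act x := by
      simp only [Finset.mul_sum]
      rw [Finset.sum_comm]
      refine Finset.sum_congr rfl fun x' _ => Finset.sum_congr rfl fun x _ => ?_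
      have := Gn_symm C act H.hact n x x'
      calc C.μ x * alpha C act x * (1 / 2 * (Gn C act n x x' * pl C ω act ρ n k 0 x'))
          = 1 / 2 * (C.μ x * Gn C act n x x') * alpha C act x * pl C ω act ρ n k 0 x' := by ring
        _ = 1 / 2 * (C.μ x' * Gn C act n x' x) * alpha C act x * pl C ω act ρ n k 0 x' := by
            rw [this]
        _ = _ := by ring
    rw [s2]
    unfold Pal
    rw [Finset.mul_sum]
    refine Finset.sum_le_sum fun x' _ => ?_
    have g := G_alpha_ge H x'
    have p0 : 0 ≤ C.μ x' * pl C ω act ρ n k 0 x' :=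
      mul_nonneg (C.μ_nonneg x') (pl_nonneg C ω act ρ n _ _ _)
    nlinarith
  rw [← e1] at e4
  linarith

/-- combine `Pal_le`, `fp_le_ind`, `ZZ_le`, `E_ind_le_one`, `mid_E_one_le` and the maximal inequality -/
theorem Pal_le_max (H : TCA C act ε n) (W : TCW C ω act) (t0 : ℕ) (lam C2 : ℝ) (hC2 : 0 < C2)
    (hMax : MaxBound X t0 lam C2) (J : ℕ) (ρ : ℝ) (hρ : 0 < ρ) :
    Pal C ω act ρ n (t0 ^ J) ≤ 4 * mua C act * min 1 (C2 * lam ^ (2 * J) / ρ ^ 2) := by
  have hZ := ZZ_pos H
  have hZle := ZZ_le H
  have h1 := Pal_le (ω := ω) H ρ (t0 ^ J)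
  set Efp := (midChain H).E (t0 ^ J) (fun l => fp (midW ω) midAct ρ l (t0 ^ J) 0) with hEfp
  set Eind := (midChain H).E (t0 ^ J)
    (fun l => if ∃ b, ρ ≤ ‖sm (midW ω) (l.take b)‖ then 1 else 0) with hEind
  have hsupp : ∀ e : Option (S × M × S), ¬ midAct e → midW ω e = 0 := by
    intro e he
    cases e with
    | none => rfl
    | some e =>
      exfalso
      apply he
      unfold midAct
      simp
  have h2 : Efp ≤ Eind := by
    refine E_mono _ _ _ _ fun l _ => ?_
    have := fp_le_ind (midW ω) midAct ρ hsupp l (t0 ^ J) 0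
    simpa only [zero_add] using this
  have h3 : Eind ≤ 1 := E_ind_le_one _ _ _
  have hc : 0 ≤ C2 * lam ^ (2 * J) / ρ ^ 2 := by
    have : 0 ≤ lam ^ (2 * J) := by
      rw [pow_mul]
      positivity
    positivity
  have h4 : Eind ≤ C2 * lam ^ (2 * J) / ρ ^ 2 := by
    have := hMax S (Option (S × M × S)) (midChain H) (midW ω) (midW_anti W) J ρ hρ
    refine le_trans this ?_
    calc C2 * lam ^ (2 * J) / ρ ^ 2 * (midChain H).E 1 (fun l => ‖sm (midW ω) l‖ ^ 2)
        ≤ C2 * lam ^ (2 * J) / ρ ^ 2 * 1 := mul_le_mul_of_nonneg_left (mid_E_one_le H W) hc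
      _ = _ := by ring
  have h5 : Efp ≤ min 1 (C2 * lam ^ (2 * J) / ρ ^ 2) :=
    le_min (le_trans h2 h3) (le_trans h2 h4)
  have h6 : 0 ≤ Efp := E_nonneg _ _ _ fun l _ => fp_nonneg _ _ _ _ _ _
  have h7 : ZZ C act n * Efp ≤ mua C act * min 1 (C2 * lam ^ (2 * J) / ρ ^ 2) :=
    mul_le_mul hZle h5 h6 (le_trans hZ.le hZle)
  calc Pal C ω act ρ n (t0 ^ J) ≤ 4 * ZZ C act n * Efp := h1
    _ = 4 * (ZZ C act n * Efp) := by ring
    _ ≤ 4 * (mua C act * min 1 (C2 * lam ^ (2 * J) / ρ ^ 2)) := by linarith
    _ = _ := by ring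

end

end Vale.Agent.P125.Dich
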