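import Vale.Agent.P125.Dich.TC_FP

set_option linter.unusedSectionVars false
set_option linter.unusedVariables false

/-! # Time change: the counting argument -/

namespace Vale.Agent.P125.Dich

open scoped BigOperators
open Classical

noncomputable section

variable {S M : Type} [Fintype S] [Fintype M]

variable {X : Type*} [NormedAddCommGroup X] {C : MChain S M} {ω : M → X} {act : M → Prop}

/-- the number of active marks as a sum of indicators over the positions -/
private lemma nact_eq_sum (act : M → Prop) : ∀ l : List M,
    (nact act l : ℝ) = ∑ u ∈ Finset.range l.length,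
      (if ∃ m, l[u]? = some m ∧ act m then (1 : ℝ) else 0) := by
  intro l
  induction l with
  | nil => simp [nact]
  | cons m l ih =>
    rw [List.length_cons, Finset.sum_range_succ']
    simp only [List.getElem?_cons_succ]
    rw [← ih]
    have h2 : (∃ m', (m :: l)[0]? = some m' ∧ act m') ↔ act m := by
      simp
    unfold nact
    rw [List.countP_cons]
    by_cases hm : act m
    · rw [if_pos (h2.2 hm)]
      simp [hm]
    · rw [if_neg (fun h => hm (h2.1 h))]
      simp [hm]

private lemma nact_append (act : M → Prop) (l l' : List M) :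
    nact act (l ++ l') = nact act l + nact act l' := by
  unfold nact
  exact List.countP_append

private lemma nact_rev (hact : ∀ m, act (C.inv m) ↔ act m) (l : List M) :
    nact act ((l.map C.inv).reverse) = nact act l := by
  unfold nact
  rw [List.countP_reverse, List.countP_map]
  apply List.countP_congr
  intro m _
  simp [hact m]

/-- deterministic part (PROOF.md TC 5).  `nact act l = sum over u < l.length of [l[u] active]`; for each such `u`
split `l = l.take u ++ l.drop u`; then use `fp_eq_one` for `l.drop u` or for the reversal of `l.take (u+1)`. -/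
lemma count_det (hact : ∀ m, act (C.inv m) ↔ act m) (W : TCW C ω act) (a k : ℕ) (r : ℝ) (hr : 2 < r)
    (l : List M) (h1 : r < ‖sm ω l‖) (h2 : a ≤ nact act l) (h3 : nact act l < k) :
    (a : ℝ) ≤ ∑ u ∈ Finset.range l.length,
      (fpa ω act (r / 2 - 1) k (l.drop u) +
        fpa ω act (r / 2 - 1) k (((l.take (u + 1)).map C.inv).reverse)) := by
  have hρ : 0 < r / 2 - 1 := by linarith
  have ha : (a : ℝ) ≤ (nact act l : ℝ) := by exact_mod_cast h2
  refine ha.trans ?_
  rw [nact_eq_sum act l]
  apply Finset.sum_le_sum
  intro u hu
  have hul : u < l.length := Finset.mem_range.1 hu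
  have hnn : 0 ≤ fpa ω act (r / 2 - 1) k (l.drop u) +
        fpa ω act (r / 2 - 1) k (((l.take (u + 1)).map C.inv).reverse) :=
    add_nonneg (fpa_nonneg ω act _ k _) (fpa_nonneg ω act _ k _)
  by_cases hex : ∃ m, l[u]? = some m ∧ act m
  · rw [if_pos hex]
    obtain ⟨m, hm, hma⟩ := hex
    have hget : l[u] = m := by
      have := List.getElem?_eq_getElem hul
      rw [this] at hm
      exact Option.some.inj hm
    have hdrop : l.drop u = m :: l.drop (u + 1) := by
      rw [List.drop_eq_getElem_cons hul, hget]
    have htake : l.take (u + 1) = l.take u ++ [m] := by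
      rw [List.take_succ_eq_append_getElem hul, hget]
    have hsplit : sm ω l = sm ω (l.take u) + sm ω (l.drop u) := by
      rw [← sm_append, List.take_append_drop]
    have hnsplit : nact act l = nact act (l.take u) + nact act (l.drop u) := by
      rw [← nact_append, List.take_append_drop]
    have hnsplit' : nact act l = nact act (l.take (u + 1)) + nact act (l.drop (u + 1)) := by
      rw [← nact_append, List.take_append_drop]
    by_cases hc : r / 2 - 1 ≤ ‖sm ω (l.drop u)‖
    · -- forward case
      have hfp : fp ω act (r / 2 - 1) (l.drop u) k 0 = 1 := by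
        apply fp_eq_one ω act _ W.supp
        · rw [norm_zero]; exact hρ
        · omega
        · rw [zero_add]; exact hc
      have hfpa : fpa ω act (r / 2 - 1) k (l.drop u) = 1 := by
        rw [hdrop] at hfp ⊢
        show (if act m then fp ω act (r / 2 - 1) (m :: l.drop (u + 1)) k 0 else 0) = 1
        rw [if_pos hma]
        exact hfp
      rw [hfpa]
      have := fpa_nonneg ω act (r / 2 - 1) k (((l.take (u + 1)).map C.inv).reverse)
      linarith
    · -- backward case
      have hc' : ‖sm ω (l.drop u)‖ < r / 2 - 1 := not_le.1 hc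
      have hbig : r / 2 + 1 < ‖sm ω (l.take u)‖ := by
        have h := norm_add_le (sm ω (l.take u)) (sm ω (l.drop u))
        rw [← hsplit] at h
        linarith
      have hsm1 : sm ω (l.take (u + 1)) = sm ω (l.take u) + ω m := by
        rw [htake, sm_append, sm_cons, sm_nil, add_zero]
      have hbig1 : r / 2 - 1 ≤ ‖sm ω (l.take (u + 1))‖ := by
        have h := norm_add_le (sm ω (l.take (u + 1))) (- ω m)
        have e : sm ω (l.take (u + 1)) + - ω m = sm ω (l.take u) := by
          rw [hsm1]; abel
        rw [e, norm_neg] at h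
        have := W.bdd m
        linarith
      set l' := ((l.take (u + 1)).map C.inv).reverse with hl'
      have hl'cons : l' = C.inv m :: ((l.take u).map C.inv).reverse := by
        rw [hl', htake]
        simp
      have hfp : fp ω act (r / 2 - 1) l' k 0 = 1 := by
        apply fp_eq_one ω act _ W.supp
        · rw [norm_zero]; exact hρ
        · rw [hl', nact_rev hact]
          omega
        · rw [zero_add, hl', sm_rev ω C.inv W.anti, norm_neg]
          exact hbig1
      have hfpa : fpa ω act (r / 2 - 1) k l' = 1 := by
        rw [hl'cons] at hfp ⊢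
        show (if act (C.inv m) then
          fp ω act (r / 2 - 1) (C.inv m :: ((l.take u).map C.inv).reverse) k 0 else 0) = 1
        rw [if_pos ((hact m).2 hma)]
        exact hfp
      rw [hfpa]
      have := fpa_nonneg ω act (r / 2 - 1) k (l.drop u)
      linarith
  · rw [if_neg hex]
    exact hnn

/-- take expectations in `count_det`: `E_drop`, `E_take`, `E_rev`, `E_fpa_le` -/
theorem count_bound (hact : ∀ m, act (C.inv m) ↔ act m) (W : TCW C ω act) (t n a k : ℕ)
    (htn : t ≤ n) (ha : 1 ≤ a) (r : ℝ) (hr : 2 < r) :
    C.E t (fun l => if r < ‖sm ω l‖ ∧ a ≤ nact act l ∧ nact act l < k then 1 else 0) ≤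
      2 * t / a * Pal C ω act (r / 2 - 1) n k := by
  have ha0 : (0 : ℝ) < a := by exact_mod_cast ha
  have hstep : C.E t (fun l => if r < ‖sm ω l‖ ∧ a ≤ nact act l ∧ nact act l < k then 1 else 0) ≤
      C.E t (fun l => (1 / (a : ℝ)) * ∑ u ∈ Finset.range t,
        (fpa ω act (r / 2 - 1) k (l.drop u) +
          fpa ω act (r / 2 - 1) k (((l.take (u + 1)).map C.inv).reverse))) := by
    apply E_mono C
    intro l hl
    have hnn : 0 ≤ ∑ u ∈ Finset.range t,
        (fpa ω act (r / 2 - 1) k (l.drop u) +
          fpa ω act (r / 2 - 1) k (((l.take (u + 1)).map C.inv).reverse)) :=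
      Finset.sum_nonneg fun u _ =>
        add_nonneg (fpa_nonneg ω act _ k _) (fpa_nonneg ω act _ k _)
    by_cases hev : r < ‖sm ω l‖ ∧ a ≤ nact act l ∧ nact act l < k
    · rw [if_pos hev]
      have h := count_det hact W a k r hr l hev.1 hev.2.1 hev.2.2
      rw [hl] at h
      rw [one_div, inv_mul_eq_div, le_div_iff₀ ha0, one_mul]
      exact h
    · rw [if_neg hev]
      exact mul_nonneg (by positivity) hnn
  refine hstep.trans ?_
  rw [E_const_mul C, E_finset_sum C]
  have hterm : ∀ u ∈ Finset.range t,
      C.E t (fun l => fpa ω act (r / 2 - 1) k (l.drop u) +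
          fpa ω act (r / 2 - 1) k (((l.take (u + 1)).map C.inv).reverse))
        ≤ 2 * Pal C ω act (r / 2 - 1) n k := by
    intro u hu
    have hut : u < t := Finset.mem_range.1 hu
    rw [E_add C]
    have e1 : C.E t (fun l => fpa ω act (r / 2 - 1) k (l.drop u))
        = C.E (t - u) (fpa ω act (r / 2 - 1) k) := by
      have h := E_drop C u (t - u) (fpa ω act (r / 2 - 1) k)
      have ht : u + (t - u) = t := by omega
      rw [ht] at h
      exact h
    have e2 : C.E t (fun l => fpa ω act (r / 2 - 1) k (((l.take (u + 1)).map C.inv).reverse))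
        = C.E (u + 1) (fpa ω act (r / 2 - 1) k) := by
      have h := E_take C (u + 1) (t - (u + 1))
        (fun l => fpa ω act (r / 2 - 1) k ((l.map C.inv).reverse))
      have ht : u + 1 + (t - (u + 1)) = t := by omega
      rw [ht] at h
      rw [h]
      exact E_rev C (u + 1) (fpa ω act (r / 2 - 1) k)
    rw [e1, e2]
    have b1 := E_fpa_le C ω act (r / 2 - 1) n k (t - u) (by omega)
    have b2 := E_fpa_le C ω act (r / 2 - 1) n k (u + 1) (by omega)
    linarith
  have hsum := Finset.sum_le_sum hterm
  rw [Finset.sum_const, Finset.card_range, nsmul_eq_mul] at hsum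
  calc 1 / (a : ℝ) * ∑ u ∈ Finset.range t,
        C.E t (fun l => fpa ω act (r / 2 - 1) k (l.drop u) +
          fpa ω act (r / 2 - 1) k (((l.take (u + 1)).map C.inv).reverse))
      ≤ 1 / (a : ℝ) * ((t : ℝ) * (2 * Pal C ω act (r / 2 - 1) n k)) :=
        mul_le_mul_of_nonneg_left hsum (by positivity)
    _ = 2 * t / a * Pal C ω act (r / 2 - 1) n k := by ring

end

end Vale.Agent.P125.Dich
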