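import Vale.Agent.P125.Dich.ApiB

set_option linter.unusedSectionVars false
set_option linter.unusedVariables false

/-! # Time change: definitions (see PROOF.md, section TC) -/

namespace Vale.Agent.P125.Dich

open scoped BigOperators
open Classical

noncomputable section

variable {S M : Type} [Fintype S] [Fintype M]

/-- probability of an active step at `x` -/
def alpha (C : MChain S M) (act : M → Prop) : S → ℝ :=
  fun x => ∑ m, ∑ y, if act m then C.Q x m y else 0

/-- stationary probability of an active step -/
def mua (C : MChain S M) (act : M → Prop) : ℝ := ∑ x, C.μ x * alpha C act x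

/-- the inactive kernel -/
def P0 (C : MChain S M) (act : M → Prop) : Matrix S S ℝ :=
  fun x y => ∑ m, if act m then 0 else C.Q x m y

/-- coefficients of `(1 - z) ^ (-1/2)` -/
def cc (k : ℕ) : ℝ := (Nat.centralBinom k : ℝ) / 4 ^ k

/-- truncated `(1 - P0) ^ (-1/2)` -/
def Rn (C : MChain S M) (act : M → Prop) (n : ℕ) : Matrix S S ℝ :=
  ∑ k ∈ Finset.range n, cc k • (P0 C act) ^ k

/-- truncated `(1 - P0) ^ (-1)` -/
def Gn (C : MChain S M) (act : M → Prop) (n : ℕ) : Matrix S S ℝ :=
  ∑ k ∈ Finset.range n, (P0 C act) ^ k

/-- `h = R alpha` -/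
def hh (C : MChain S M) (act : M → Prop) (n : ℕ) : S → ℝ :=
  fun w => ∑ x, Rn C act n w x * alpha C act x

/-- normalisation of the midpoint chain -/
def ZZ (C : MChain S M) (act : M → Prop) (n : ℕ) : ℝ := ∑ w, C.μ w * hh C act n w ^ 2

/-- the non holding part of the kernel of the midpoint chain -/
def midK (C : MChain S M) (act : M → Prop) (n : ℕ) (w : S) (e : S × M × S) (w' : S) : ℝ :=
  if act e.2.1 then
    Rn C act n w e.1 * C.Q e.1 e.2.1 e.2.2 * Rn C act n e.2.2 w' * hh C act n w' / hh C act n w
  else 0

/-- the kernel of the midpoint chain -/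
def midQ (C : MChain S M) (act : M → Prop) (n : ℕ) (w : S) : Option (S × M × S) → S → ℝ
  | some e, w' => midK C act n w e w'
  | none, w' => if w' = w then 1 - ∑ e, ∑ w'', midK C act n w e w'' else 0

/-- reversal of the marks of the midpoint chain -/
def midInv (C : MChain S M) : Option (S × M × S) → Option (S × M × S)
  | some e => some (e.2.2, C.inv e.2.1, e.1)
  | none => none

/-- the mark function of the midpoint chain -/
def midW {X : Type*} [Zero X] (ω : M → X) : Option (S × M × S) → X
  | some e => ω e.2.1
  | none => 0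

/-- first passage functional: `fp ω act ρ l k acc = 1` if, reading the list `l` and adding the values
of `ω` at the active marks to `acc`, the norm reaches `ρ` within the first `k` active marks -/
def fp {M : Type} {X : Type*} [NormedAddCommGroup X] (ω : M → X) (act : M → Prop) (ρ : ℝ) :
    List M → ℕ → X → ℝ
  | [], _, _ => 0
  | m :: l, k, acc =>
    if act m then
      (match k with
        | 0 => 0
        | k' + 1 => if ρ ≤ ‖acc + ω m‖ then 1 else fp ω act ρ l k' (acc + ω m))
    else fp ω act ρ l k acc

/-- first passage functional for lists that start with an active mark -/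
def fpa {M : Type} {X : Type*} [NormedAddCommGroup X] (ω : M → X) (act : M → Prop) (ρ : ℝ) (k : ℕ) :
    List M → ℝ
  | [] => 0
  | m :: l => if act m then fp ω act ρ (m :: l) k 0 else 0

/-- the Palm quantity: start at `x` with an active step -/
def pl {X : Type*} [NormedAddCommGroup X] (C : MChain S M) (ω : M → X) (act : M → Prop) (ρ : ℝ)
    (n : ℕ) : ℕ → X → S → ℝ
  | 0, _, _ => 0
  | k + 1, acc, x =>
    ∑ m, ∑ y, (if act m then C.Q x m y else 0) *
      (if ρ ≤ ‖acc + ω m‖ then 1 else ∑ x', Gn C act n y x' * pl C ω act ρ n k (acc + ω m) x')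

/-- total Palm mass -/
def Pal {X : Type*} [NormedAddCommGroup X] (C : MChain S M) (ω : M → X) (act : M → Prop) (ρ : ℝ)
    (n k : ℕ) : ℝ := ∑ x, C.μ x * pl C ω act ρ n k 0 x

/-- number of active marks in a list -/
def nact {M : Type} (act : M → Prop) (l : List M) : ℕ := l.countP (fun m => decide (act m))

/-- the marks of the midpoint chain that are not holding steps -/
def midAct : Option (S × M × S) → Prop := fun e => e ≠ none

/-- standing assumptions on the chain and the set of active marks -/
structure TCA (C : MChain S M) (act : M → Prop) (ε : ℝ) (n : ℕ) : Prop where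
  hact : ∀ m, act (C.inv m) ↔ act m
  ε_pos : 0 < ε
  ε_le : ε ≤ 1
  alpha_ge : ∀ x, ε ≤ alpha C act x
  n_pos : 1 ≤ n
  n_big : (1 - ε) ^ n ≤ 1 / 2

/-- standing assumptions on the mark function -/
structure TCW {X : Type*} [NormedAddCommGroup X] (C : MChain S M) (ω : M → X) (act : M → Prop) :
    Prop where
  anti : ∀ m, ω (C.inv m) = - ω m
  supp : ∀ m, ¬ act m → ω m = 0
  bdd : ∀ m, ‖ω m‖ ≤ 1

end

end Vale.Agent.P125.Dich
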