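import Vale.Agent.P125.Dich.TC_Defs

set_option linter.unusedSectionVars false
set_option linter.unusedVariables false

/-! # Time change: the coefficients of the square root series -/

namespace Vale.Agent.P125.Dich

open scoped BigOperators
open Classical

noncomputable section

variable {S M : Type} [Fintype S] [Fintype M]

lemma cc_zero : cc 0 = 1 := by
  simp [cc]

lemma cc_nonneg (k : ℕ) : 0 ≤ cc k := by
  unfold cc
  positivity

/-- `(k+1) c_{k+1} = (k + 1/2) c_k`, from `Nat.succ_mul_centralBinom_succ` -/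
lemma cc_succ (k : ℕ) : ((k : ℝ) + 1) * cc (k + 1) = ((k : ℝ) + 1 / 2) * cc k := by
  have h := Nat.succ_mul_centralBinom_succ k
  have h' : ((k : ℝ) + 1) * (Nat.centralBinom (k + 1) : ℝ)
      = 2 * (2 * (k : ℝ) + 1) * (Nat.centralBinom k : ℝ) := by
    exact_mod_cast h
  unfold cc
  have h4 : (4 : ℝ) ^ k ≠ 0 := by positivity
  rw [pow_succ]
  field_simp
  linarith

/-- the convolution sums -/
private def AA (j : ℕ) : ℝ := ∑ kl ∈ Finset.HasAntidiagonal.antidiagonal j, cc kl.1 * cc kl.2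

/-- the weighted convolution sums -/
private def BB (j : ℕ) : ℝ :=
  ∑ kl ∈ Finset.HasAntidiagonal.antidiagonal j, (kl.1 : ℝ) * (cc kl.1 * cc kl.2)

private lemma BB_swap (j : ℕ) :
    ∑ kl ∈ Finset.HasAntidiagonal.antidiagonal j, (kl.2 : ℝ) * (cc kl.1 * cc kl.2) = BB j := by
  unfold BB
  rw [← Finset.Nat.sum_antidiagonal_swap]
  refine Finset.sum_congr rfl fun p _ => ?_
  simp only [Prod.fst_swap, Prod.snd_swap]
  ring

private lemma weight (j : ℕ) : (j : ℝ) * AA j = 2 * BB j := by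
  have h1 : (j : ℝ) * AA j = ∑ kl ∈ Finset.HasAntidiagonal.antidiagonal j,
      ((kl.1 : ℝ) * (cc kl.1 * cc kl.2) + (kl.2 : ℝ) * (cc kl.1 * cc kl.2)) := by
    unfold AA
    rw [Finset.mul_sum]
    refine Finset.sum_congr rfl fun p hp => ?_
    have hp' : p.1 + p.2 = j := Finset.HasAntidiagonal.mem_antidiagonal.mp hp
    have : (j : ℝ) = (p.1 : ℝ) + (p.2 : ℝ) := by exact_mod_cast hp'.symm
    rw [this]
    ring
  rw [h1, Finset.sum_add_distrib, BB_swap]
  unfold BB
  ring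

private lemma BB_succ (j : ℕ) : BB (j + 1) = BB j + 1 / 2 * AA j := by
  unfold BB AA
  rw [Finset.Nat.sum_antidiagonal_succ, Finset.mul_sum, ← Finset.sum_add_distrib]
  simp only [Nat.cast_zero, zero_mul, zero_add]
  refine Finset.sum_congr rfl fun p _ => ?_
  have h := cc_succ p.1
  push_cast
  calc ((p.1 : ℝ) + 1) * (cc (p.1 + 1) * cc p.2)
      = (((p.1 : ℝ) + 1) * cc (p.1 + 1)) * cc p.2 := by ring
    _ = (((p.1 : ℝ) + 1 / 2) * cc p.1) * cc p.2 := by rw [h]
    _ = (p.1 : ℝ) * (cc p.1 * cc p.2) + 1 / 2 * (cc p.1 * cc p.2) := by ring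

private lemma AA_succ (j : ℕ) : AA (j + 1) = AA j := by
  have h1 := weight (j + 1)
  have h2 := weight j
  have h3 := BB_succ j
  push_cast at h1
  have h4 : ((j : ℝ) + 1) * AA (j + 1) = ((j : ℝ) + 1) * AA j := by
    rw [h1, h3]
    linarith
  have h5 : ((j : ℝ) + 1) ≠ 0 := by positivity
  exact mul_left_cancel₀ h5 h4

/-- `A_j = sum_{k+l=j} c_k c_l = 1`.  Proof: `(j+1) A_{j+1} = sum_{k+l=j+1} (k+l) c_k c_l
= 2 sum_{k+l=j+1} k c_k c_l = 2 sum_{k'+l=j} (k'+1) c_{k'+1} c_l = sum_{k'+l=j} (2k'+1) c_{k'} c_l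
= sum_{k'+l=j} (k'+l+1) c_{k'} c_l = (j+1) A_j` (symmetrise in the last but one step). -/
lemma cc_conv (j : ℕ) : ∑ kl ∈ Finset.HasAntidiagonal.antidiagonal j, cc kl.1 * cc kl.2 = 1 := by
  change AA j = 1
  induction j with
  | zero => simp [AA, cc_zero]
  | succ n ih => rw [AA_succ, ih]

end

end Vale.Agent.P125.Dich
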