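import Vale.Agent.P125.Dich.TC_Defs

set_option linter.unusedSectionVars false
set_option linter.unusedVariables false

/-! # Time change: the inactive kernel and its powers -/

namespace Vale.Agent.P125.Dich

open scoped BigOperators
open Classical

noncomputable section

variable {S M : Type} [Fintype S] [Fintype M]

variable (C : MChain S M) (act : M → Prop)

lemma alpha_nonneg (x : S) : 0 ≤ alpha C act x := by
  unfold alpha
  refine Finset.sum_nonneg fun m _ => Finset.sum_nonneg fun y _ => ?_
  split_ifs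
  · exact C.Q_nonneg x m y
  · exact le_rfl

lemma alpha_le_one (x : S) : alpha C act x ≤ 1 := by
  unfold alpha
  calc ∑ m, ∑ y, (if act m then C.Q x m y else 0) ≤ ∑ m, ∑ y, C.Q x m y := by
        refine Finset.sum_le_sum fun m _ => Finset.sum_le_sum fun y _ => ?_
        split_ifs
        · exact le_rfl
        · exact C.Q_nonneg x m y
    _ = 1 := C.Q_sum x

lemma P0_nonneg (x y : S) : 0 ≤ P0 C act x y := by
  unfold P0
  refine Finset.sum_nonneg fun m _ => ?_
  split_ifs
  · exact le_rfl
  · exact C.Q_nonneg x m y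

lemma P0_row (x : S) : ∑ y, P0 C act x y = 1 - alpha C act x := by
  have h : ∑ y, P0 C act x y + alpha C act x = 1 := by
    unfold P0 alpha
    rw [Finset.sum_comm, ← Finset.sum_add_distrib, ← C.Q_sum x]
    refine Finset.sum_congr rfl fun m _ => ?_
    rw [← Finset.sum_add_distrib]
    refine Finset.sum_congr rfl fun y _ => ?_
    split_ifs <;> simp
  linarith

/-- use `C.rev`, the bijection `C.inv` on marks and `hact` -/
lemma P0_symm (hact : ∀ m, act (C.inv m) ↔ act m) (x y : S) :
    C.μ x * P0 C act x y = C.μ y * P0 C act y x := by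
  unfold P0
  rw [Finset.mul_sum, Finset.mul_sum]
  have e := Equiv.sum_comp (Function.Involutive.toPerm C.inv C.inv_inv)
    (fun m => C.μ y * (if act m then 0 else C.Q y m x))
  rw [← e]
  refine Finset.sum_congr rfl fun m _ => ?_
  have e2 : (Function.Involutive.toPerm C.inv C.inv_inv) m = C.inv m := rfl
  rw [e2]
  by_cases hm : act m
  · have hm' : act (C.inv m) := (hact m).2 hm
    rw [if_pos hm, if_pos hm']
    simp
  · have hm' : ¬ act (C.inv m) := fun h => hm ((hact m).1 h)
    rw [if_neg hm, if_neg hm']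
    exact C.rev x m y

lemma P0pow_nonneg (k : ℕ) (x y : S) : 0 ≤ (P0 C act ^ k) x y := by
  induction k generalizing x y with
  | zero =>
    rw [pow_zero, Matrix.one_apply]
    split_ifs <;> norm_num
  | succ k ih =>
    rw [pow_succ, Matrix.mul_apply]
    exact Finset.sum_nonneg fun z _ => mul_nonneg (ih x z) (P0_nonneg C act z y)

lemma P0pow_symm (hact : ∀ m, act (C.inv m) ↔ act m) (k : ℕ) (x y : S) :
    C.μ x * (P0 C act ^ k) x y = C.μ y * (P0 C act ^ k) y x := by
  induction k generalizing x y with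
  | zero =>
    rw [pow_zero, Matrix.one_apply, Matrix.one_apply]
    by_cases h : x = y
    · subst h
      rfl
    · have h' : ¬ y = x := fun e => h e.symm
      rw [if_neg h, if_neg h']
      simp
  | succ k ih =>
    have e1 : (P0 C act ^ (k + 1)) x y = ∑ z, (P0 C act ^ k) x z * P0 C act z y := by
      rw [pow_succ, Matrix.mul_apply]
    have e2 : (P0 C act ^ (k + 1)) y x = ∑ z, P0 C act y z * (P0 C act ^ k) z x := by
      rw [pow_succ', Matrix.mul_apply]
    rw [e1, e2, Finset.mul_sum, Finset.mul_sum]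
    refine Finset.sum_congr rfl fun z _ => ?_
    calc C.μ x * ((P0 C act ^ k) x z * P0 C act z y)
        = (C.μ x * (P0 C act ^ k) x z) * P0 C act z y := by ring
      _ = (C.μ z * (P0 C act ^ k) z x) * P0 C act z y := by rw [ih x z]
      _ = (C.μ z * P0 C act z y) * (P0 C act ^ k) z x := by ring
      _ = (C.μ y * P0 C act y z) * (P0 C act ^ k) z x := by rw [P0_symm C act hact z y]
      _ = C.μ y * (P0 C act y z * (P0 C act ^ k) z x) := by ring

private lemma P0pow_succ_row (k : ℕ) (x : S) :
    ∑ y, (P0 C act ^ (k + 1)) x y = ∑ z, (P0 C act ^ k) x z * (1 - alpha C act z) := by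
  have h : ∀ y, (P0 C act ^ (k + 1)) x y = ∑ z, (P0 C act ^ k) x z * P0 C act z y := by
    intro y
    rw [pow_succ, Matrix.mul_apply]
  simp_rw [h]
  rw [Finset.sum_comm]
  refine Finset.sum_congr rfl fun z _ => ?_
  rw [← Finset.mul_sum, P0_row]

lemma P0pow_row_le (ε : ℝ) (h1 : ε ≤ 1) (hε : ∀ x, ε ≤ alpha C act x) (k : ℕ) (x : S) :
    ∑ y, (P0 C act ^ k) x y ≤ (1 - ε) ^ k := by
  induction k with
  | zero =>
    rw [pow_zero, pow_zero]
    simp [Matrix.one_apply]
  | succ k ih =>
    rw [P0pow_succ_row]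
    calc ∑ z, (P0 C act ^ k) x z * (1 - alpha C act z)
        ≤ ∑ z, (P0 C act ^ k) x z * (1 - ε) := by
          refine Finset.sum_le_sum fun z _ => ?_
          exact mul_le_mul_of_nonneg_left (by linarith [hε z]) (P0pow_nonneg C act k x z)
      _ = (∑ z, (P0 C act ^ k) x z) * (1 - ε) := by rw [Finset.sum_mul]
      _ ≤ (1 - ε) ^ k * (1 - ε) := mul_le_mul_of_nonneg_right ih (by linarith)
      _ = (1 - ε) ^ (k + 1) := by ring

lemma P0pow_row_nonneg (k : ℕ) (x : S) : 0 ≤ ∑ y, (P0 C act ^ k) x y :=
  Finset.sum_nonneg fun y _ => P0pow_nonneg C act k x y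

/-- telescoping: `P0^k alpha = P0^k 1 - P0^(k+1) 1` -/
lemma P0pow_alpha (k : ℕ) (x : S) :
    ∑ y, (P0 C act ^ k) x y * alpha C act y =
      ∑ y, (P0 C act ^ k) x y - ∑ y, (P0 C act ^ (k + 1)) x y := by
  rw [P0pow_succ_row, ← Finset.sum_sub_distrib]
  refine Finset.sum_congr rfl fun y _ => ?_
  ring

lemma E_one_act : C.E 1 (fun l => if ∃ m ∈ l, act m then 1 else 0) = mua C act := by
  unfold MChain.E mua alpha
  refine Finset.sum_congr rfl fun x _ => ?_
  congr 1
  simp only [MChain.valT]
  refine Finset.sum_congr rfl fun m _ => Finset.sum_congr rfl fun y _ => ?_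
  by_cases hm : act m
  · simp [hm]
  · simp [hm]

end

end Vale.Agent.P125.Dich
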