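import Vale.Agent.P125.Dich.TC_Mat1
import Vale.Agent.P125.Dich.TC_Mat2

set_option linter.unusedSectionVars false
set_option linter.unusedVariables false

/-! # Time change: the matrices R and G -/

namespace Vale.Agent.P125.Dich

open scoped BigOperators
open Classical

noncomputable section

variable {S M : Type} [Fintype S] [Fintype M]

variable (C : MChain S M) (act : M → Prop)

private lemma Gn_apply (n : ℕ) (x y : S) :
    Gn C act n x y = ∑ k ∈ Finset.range n, (P0 C act ^ k) x y := by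
  unfold Gn
  rw [Matrix.sum_apply]

private lemma Rn_apply (n : ℕ) (x y : S) :
    Rn C act n x y = ∑ k ∈ Finset.range n, cc k * (P0 C act ^ k) x y := by
  unfold Rn
  rw [Matrix.sum_apply]
  refine Finset.sum_congr rfl fun k _ => ?_
  rw [Matrix.smul_apply, smul_eq_mul]

lemma Gn_nonneg (n : ℕ) (x y : S) : 0 ≤ Gn C act n x y := by
  rw [Gn_apply]
  exact Finset.sum_nonneg fun k _ => P0pow_nonneg C act k x y

lemma Rn_nonneg (n : ℕ) (x y : S) : 0 ≤ Rn C act n x y := by
  rw [Rn_apply]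
  exact Finset.sum_nonneg fun k _ => mul_nonneg (cc_nonneg k) (P0pow_nonneg C act k x y)

lemma Gn_symm (hact : ∀ m, act (C.inv m) ↔ act m) (n : ℕ) (x y : S) :
    C.μ x * Gn C act n x y = C.μ y * Gn C act n y x := by
  rw [Gn_apply, Gn_apply, Finset.mul_sum, Finset.mul_sum]
  exact Finset.sum_congr rfl fun k _ => P0pow_symm C act hact k x y

lemma Rn_symm (hact : ∀ m, act (C.inv m) ↔ act m) (n : ℕ) (x y : S) :
    C.μ x * Rn C act n x y = C.μ y * Rn C act n y x := by
  rw [Rn_apply, Rn_apply, Finset.mul_sum, Finset.mul_sum]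
  refine Finset.sum_congr rfl fun k _ => ?_
  have h := P0pow_symm C act hact k x y
  calc C.μ x * (cc k * (P0 C act ^ k) x y) = cc k * (C.μ x * (P0 C act ^ k) x y) := by ring
    _ = cc k * (C.μ y * (P0 C act ^ k) y x) := by rw [h]
    _ = C.μ y * (cc k * (P0 C act ^ k) y x) := by ring

lemma Gn_zero : Gn C act 0 = 0 := by
  simp [Gn]

lemma Gn_succ (n : ℕ) : Gn C act (n + 1) = 1 + P0 C act * Gn C act n := by
  unfold Gn
  rw [Finset.sum_range_succ', Finset.mul_sum, pow_zero, add_comm]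
  congr 1
  exact Finset.sum_congr rfl fun k _ => pow_succ' _ _

lemma Gn_mono {s n : ℕ} (h : s ≤ n) (x y : S) : Gn C act s x y ≤ Gn C act n x y := by
  rw [Gn_apply, Gn_apply]
  refine Finset.sum_le_sum_of_subset_of_nonneg ?_ fun k _ _ => P0pow_nonneg C act k x y
  exact Finset.range_subset_range.2 h

lemma Gn_alpha (n : ℕ) (x : S) :
    ∑ y, Gn C act n x y * alpha C act y = 1 - ∑ y, (P0 C act ^ n) x y := by
  have h1 : ∑ y, Gn C act n x y * alpha C act y
      = ∑ k ∈ Finset.range n, ∑ y, (P0 C act ^ k) x y * alpha C act y := by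
    rw [Finset.sum_comm]
    refine Finset.sum_congr rfl fun y _ => ?_
    rw [Gn_apply, Finset.sum_mul]
  rw [h1]
  simp_rw [P0pow_alpha]
  rw [Finset.sum_range_sub' (fun k => ∑ y, (P0 C act ^ k) x y)]
  congr 1
  simp [Matrix.one_apply]

/-- comparison of sums along an injection -/
private lemma sum_le_of_inj {A B : Type} (s : Finset A) (t : Finset B) (e : A → B) (f : A → ℝ)
    (g : B → ℝ) (hinj : ∀ p ∈ s, ∀ q ∈ s, e p = e q → p = q) (hmap : ∀ p ∈ s, e p ∈ t)
    (hg : ∀ q, 0 ≤ g q) (hfg : ∀ p ∈ s, f p = g (e p)) :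
    ∑ p ∈ s, f p ≤ ∑ q ∈ t, g q := by
  calc ∑ p ∈ s, f p = ∑ p ∈ s, g (e p) := Finset.sum_congr rfl hfg
    _ = ∑ q ∈ s.image e, g q := (Finset.sum_image hinj).symm
    _ ≤ ∑ q ∈ t, g q := by
        refine Finset.sum_le_sum_of_subset_of_nonneg ?_ fun q _ _ => hg q
        intro q hq
        obtain ⟨p, hp, rfl⟩ := Finset.mem_image.1 hq
        exact hmap p hp

/-- triangle inside the square -/
private lemma tri_le_sq (T : ℕ → ℕ → ℝ) (hT : ∀ k l, 0 ≤ T k l) (n : ℕ) :
    ∑ j ∈ Finset.range n, ∑ kl ∈ Finset.HasAntidiagonal.antidiagonal j, T kl.1 kl.2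
      ≤ ∑ k ∈ Finset.range n, ∑ l ∈ Finset.range n, T k l := by
  rw [← Finset.sum_product' (Finset.range n) (Finset.range n) T]
  rw [Finset.sum_sigma' (Finset.range n) (fun j => Finset.HasAntidiagonal.antidiagonal j)
    (fun j kl => T kl.1 kl.2)]
  refine sum_le_of_inj _ _ (fun p : (Σ _ : ℕ, ℕ × ℕ) => p.2) _ (fun q : ℕ × ℕ => T q.1 q.2)
    ?_ ?_ ?_ ?_
  · intro p hp' q hq' hpq
    rw [Finset.mem_sigma] at hp' hq'
    have e1 := Finset.HasAntidiagonal.mem_antidiagonal.1 hp'.2
    have e2 := Finset.HasAntidiagonal.mem_antidiagonal.1 hq'.2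
    obtain ⟨p1, p2⟩ := p
    obtain ⟨q1, q2⟩ := q
    simp only at hpq e1 e2
    subst hpq
    have : p1 = q1 := by rw [← e1, ← e2]
    subst this
    rfl
  · intro p hp
    rw [Finset.mem_sigma] at hp
    have e1 := Finset.HasAntidiagonal.mem_antidiagonal.1 hp.2
    have e0 := Finset.mem_range.1 hp.1
    rw [Finset.mem_product, Finset.mem_range, Finset.mem_range]
    constructor <;> omega
  · intro q
    exact hT _ _
  · intro p _
    rfl

/-- square inside the double triangle -/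
private lemma sq_le_tri (T : ℕ → ℕ → ℝ) (hT : ∀ k l, 0 ≤ T k l) (n : ℕ) :
    ∑ k ∈ Finset.range n, ∑ l ∈ Finset.range n, T k l
      ≤ ∑ j ∈ Finset.range (2 * n), ∑ kl ∈ Finset.HasAntidiagonal.antidiagonal j, T kl.1 kl.2 := by
  rw [← Finset.sum_product' (Finset.range n) (Finset.range n) T]
  rw [Finset.sum_sigma' (Finset.range (2 * n)) (fun j => Finset.HasAntidiagonal.antidiagonal j)
    (fun j kl => T kl.1 kl.2)]
  refine sum_le_of_inj _ _ (fun p : ℕ × ℕ => (⟨p.1 + p.2, p⟩ : Σ _ : ℕ, ℕ × ℕ)) _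
    (fun q : (Σ _ : ℕ, ℕ × ℕ) => T q.2.1 q.2.2) ?_ ?_ ?_ ?_
  · intro p _ q _ hpq
    simp only [Sigma.mk.injEq] at hpq
    exact eq_of_heq hpq.2
  · intro p hp
    rw [Finset.mem_product, Finset.mem_range, Finset.mem_range] at hp
    rw [Finset.mem_sigma, Finset.mem_range, Finset.HasAntidiagonal.mem_antidiagonal]
    constructor
    · simp only
      omega
    · rfl
  · intro q
    exact hT _ _
  · intro p _
    rfl

private lemma RR_apply (n : ℕ) (x y : S) :
    (Rn C act n * Rn C act n) x y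
      = ∑ k ∈ Finset.range n, ∑ l ∈ Finset.range n, cc k * cc l * (P0 C act ^ (k + l)) x y := by
  have h : Rn C act n * Rn C act n
      = ∑ k ∈ Finset.range n, ∑ l ∈ Finset.range n, (cc k * cc l) • (P0 C act ^ (k + l)) := by
    unfold Rn
    rw [Finset.sum_mul]
    refine Finset.sum_congr rfl fun k _ => ?_
    rw [Finset.mul_sum]
    refine Finset.sum_congr rfl fun l _ => ?_
    rw [smul_mul_smul_comm, pow_add]
  rw [h, Matrix.sum_apply]
  refine Finset.sum_congr rfl fun k _ => ?_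
  rw [Matrix.sum_apply]
  refine Finset.sum_congr rfl fun l _ => ?_
  rw [Matrix.smul_apply, smul_eq_mul]

private lemma anti_collapse (F : ℕ → ℝ) (j : ℕ) :
    ∑ kl ∈ Finset.HasAntidiagonal.antidiagonal j, cc kl.1 * cc kl.2 * F (kl.1 + kl.2) = F j := by
  have h : ∑ kl ∈ Finset.HasAntidiagonal.antidiagonal j, cc kl.1 * cc kl.2 * F (kl.1 + kl.2)
      = ∑ kl ∈ Finset.HasAntidiagonal.antidiagonal j, cc kl.1 * cc kl.2 * F j := by
    refine Finset.sum_congr rfl fun p hp => ?_
    rw [Finset.HasAntidiagonal.mem_antidiagonal.1 hp]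
  rw [h, ← Finset.sum_mul, cc_conv, one_mul]

/-- `R^2 = sum_{k,l<n} c_k c_l P0^(k+l)` contains all the terms with `k+l<n`; use `cc_conv` -/
lemma RR_ge_G (n : ℕ) (x y : S) : Gn C act n x y ≤ (Rn C act n * Rn C act n) x y := by
  rw [RR_apply, Gn_apply]
  have h := tri_le_sq (fun k l => cc k * cc l * (P0 C act ^ (k + l)) x y)
    (fun k l => mul_nonneg (mul_nonneg (cc_nonneg k) (cc_nonneg l)) (P0pow_nonneg C act _ x y)) n
  refine le_trans (le_of_eq ?_) h
  refine Finset.sum_congr rfl fun j _ => ?_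
  exact (anti_collapse (fun i => (P0 C act ^ i) x y) j).symm

/-- `R^2 alpha <= sum_{j<2n} (sum_{k+l=j} c_k c_l) P0^j alpha = 1 - P0^(2n) 1 <= 1` -/
lemma RR_alpha_le (n : ℕ) (x : S) :
    ∑ y, (Rn C act n * Rn C act n) x y * alpha C act y ≤ 1 := by
  have hF : ∀ i, 0 ≤ ∑ y, (P0 C act ^ i) x y * alpha C act y := fun i =>
    Finset.sum_nonneg fun y _ => mul_nonneg (P0pow_nonneg C act i x y) (alpha_nonneg C act y)
  have h1 : ∑ y, (Rn C act n * Rn C act n) x y * alpha C act y
      = ∑ k ∈ Finset.range n, ∑ l ∈ Finset.range n,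
          cc k * cc l * ∑ y, (P0 C act ^ (k + l)) x y * alpha C act y := by
    simp_rw [RR_apply, Finset.sum_mul]
    rw [Finset.sum_comm]
    refine Finset.sum_congr rfl fun k _ => ?_
    rw [Finset.sum_comm]
    refine Finset.sum_congr rfl fun l _ => ?_
    rw [Finset.mul_sum]
    refine Finset.sum_congr rfl fun y _ => ?_
    ring
  rw [h1]
  have h := sq_le_tri (fun k l => cc k * cc l * ∑ y, (P0 C act ^ (k + l)) x y * alpha C act y)
    (fun k l => mul_nonneg (mul_nonneg (cc_nonneg k) (cc_nonneg l)) (hF _)) n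
  refine le_trans h ?_
  have h2 : ∑ j ∈ Finset.range (2 * n), ∑ kl ∈ Finset.HasAntidiagonal.antidiagonal j,
        cc kl.1 * cc kl.2 * ∑ y, (P0 C act ^ (kl.1 + kl.2)) x y * alpha C act y
      = ∑ j ∈ Finset.range (2 * n), ∑ y, (P0 C act ^ j) x y * alpha C act y := by
    refine Finset.sum_congr rfl fun j _ => ?_
    exact anti_collapse (fun i => ∑ y, (P0 C act ^ i) x y * alpha C act y) j
  rw [h2]
  have h3 : ∑ j ∈ Finset.range (2 * n), ∑ y, (P0 C act ^ j) x y * alpha C act y
      = ∑ y, Gn C act (2 * n) x y * alpha C act y := by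
    rw [Finset.sum_comm]
    refine Finset.sum_congr rfl fun y _ => ?_
    rw [Gn_apply, Finset.sum_mul]
  rw [h3, Gn_alpha]
  linarith [P0pow_row_nonneg C act (2 * n) x]

lemma R_hh (n : ℕ) (x : S) :
    ∑ w, Rn C act n x w * hh C act n w = ∑ y, (Rn C act n * Rn C act n) x y * alpha C act y := by
  unfold hh
  simp_rw [Matrix.mul_apply, Finset.mul_sum, Finset.sum_mul]
  rw [Finset.sum_comm]
  refine Finset.sum_congr rfl fun y _ => Finset.sum_congr rfl fun w _ => ?_
  ring

variable {C act}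

lemma G_alpha_ge {ε : ℝ} {n : ℕ} (H : TCA C act ε n) (x : S) :
    1 / 2 ≤ ∑ y, Gn C act n x y * alpha C act y := by
  rw [Gn_alpha]
  have h := P0pow_row_le C act ε H.ε_le H.alpha_ge n x
  linarith [H.n_big]

lemma R_hh_ge {ε : ℝ} {n : ℕ} (H : TCA C act ε n) (x : S) :
    1 / 2 ≤ ∑ w, Rn C act n x w * hh C act n w := by
  rw [R_hh]
  refine le_trans (G_alpha_ge H x) ?_
  exact Finset.sum_le_sum fun y _ =>
    mul_le_mul_of_nonneg_right (RR_ge_G C act n x y) (alpha_nonneg C act y)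

lemma R_hh_le (n : ℕ) (x : S) : ∑ w, Rn C act n x w * hh C act n w ≤ 1 := by
  rw [R_hh]
  exact RR_alpha_le C act n x

/-- the term `k = 0` of `R` is the identity -/
lemma hh_ge {ε : ℝ} {n : ℕ} (H : TCA C act ε n) (x : S) : ε ≤ hh C act n x := by
  have h1 : ∀ y, (1 : Matrix S S ℝ) x y ≤ Rn C act n x y := by
    intro y
    rw [Rn_apply]
    have h0 : (0 : ℕ) ∈ Finset.range n := Finset.mem_range.2 (by have := H.n_pos; omega)
    have h2 := Finset.single_le_sum
      (f := fun k => cc k * (P0 C act ^ k) x y)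
      (fun k _ => mul_nonneg (cc_nonneg k) (P0pow_nonneg C act k x y)) h0
    simpa [cc_zero] using h2
  have h3 : alpha C act x = ∑ y, (1 : Matrix S S ℝ) x y * alpha C act y := by
    simp [Matrix.one_apply]
  calc ε ≤ alpha C act x := H.alpha_ge x
    _ = ∑ y, (1 : Matrix S S ℝ) x y * alpha C act y := h3
    _ ≤ ∑ y, Rn C act n x y * alpha C act y := Finset.sum_le_sum fun y _ =>
        mul_le_mul_of_nonneg_right (h1 y) (alpha_nonneg C act y)
    _ = hh C act n x := rfl

lemma hh_pos {ε : ℝ} {n : ℕ} (H : TCA C act ε n) (x : S) : 0 < hh C act n x :=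
  lt_of_lt_of_le H.ε_pos (hh_ge H x)

/-- `Z = <alpha, R h> <= <alpha, 1>` -/
lemma ZZ_le {ε : ℝ} {n : ℕ} (H : TCA C act ε n) : ZZ C act n ≤ mua C act := by
  have h1 : ZZ C act n = ∑ x, C.μ x * alpha C act x * ∑ w, Rn C act n x w * hh C act n w := by
    unfold ZZ
    have e : ∀ w, C.μ w * hh C act n w ^ 2
        = ∑ x, C.μ x * alpha C act x * (Rn C act n x w * hh C act n w) := by
      intro w
      have e1 : hh C act n w ^ 2 = (∑ x, Rn C act n w x * alpha C act x) * hh C act n w := by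
        rw [sq]
        rfl
      rw [e1, Finset.sum_mul, Finset.mul_sum]
      refine Finset.sum_congr rfl fun x _ => ?_
      have hs := Rn_symm C act H.hact n w x
      calc C.μ w * (Rn C act n w x * alpha C act x * hh C act n w)
          = (C.μ w * Rn C act n w x) * alpha C act x * hh C act n w := by ring
        _ = (C.μ x * Rn C act n x w) * alpha C act x * hh C act n w := by rw [hs]
        _ = C.μ x * alpha C act x * (Rn C act n x w * hh C act n w) := by ring
    simp_rw [e]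
    rw [Finset.sum_comm]
    refine Finset.sum_congr rfl fun x _ => ?_
    rw [Finset.mul_sum]
  rw [h1]
  unfold mua
  refine Finset.sum_le_sum fun x _ => ?_
  have h2 := R_hh_le (C := C) (act := act) n x
  have h3 : 0 ≤ C.μ x * alpha C act x := mul_nonneg (C.μ_nonneg x) (alpha_nonneg C act x)
  calc C.μ x * alpha C act x * ∑ w, Rn C act n x w * hh C act n w
      ≤ C.μ x * alpha C act x * 1 := mul_le_mul_of_nonneg_left h2 h3
    _ = C.μ x * alpha C act x := mul_one _

lemma ZZ_pos {ε : ℝ} {n : ℕ} (H : TCA C act ε n) : 0 < ZZ C act n := by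
  have h1 : ε ^ 2 ≤ ZZ C act n := by
    unfold ZZ
    calc ε ^ 2 = ∑ w, C.μ w * ε ^ 2 := by rw [← Finset.sum_mul, C.μ_sum, one_mul]
      _ ≤ ∑ w, C.μ w * hh C act n w ^ 2 := by
          refine Finset.sum_le_sum fun w _ => ?_
          refine mul_le_mul_of_nonneg_left ?_ (C.μ_nonneg w)
          exact pow_le_pow_left₀ H.ε_pos.le (hh_ge H w) 2
  have h2 : 0 < ε ^ 2 := by have := H.ε_pos; positivity
  linarith

end

end Vale.Agent.P125.Dich
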