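import Vale.Agent.P125.Dich.TC_Mat3

set_option linter.unusedSectionVars false
set_option linter.unusedVariables false

/-! # Time change: the midpoint chain -/

namespace Vale.Agent.P125.Dich

open scoped BigOperators
open Classical

noncomputable section

variable {S M : Type} [Fintype S] [Fintype M]

variable {C : MChain S M} {act : M → Prop} {ε : ℝ} {n : ℕ}

lemma midK_nonneg (H : TCA C act ε n) (w : S) (e : S × M × S) (w' : S) :
    0 ≤ midK C act n w e w' := by
  unfold midK
  split_ifs
  · apply div_nonneg _ (hh_pos H w).le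
    exact mul_nonneg (mul_nonneg (mul_nonneg (Rn_nonneg C act n _ _) (C.Q_nonneg _ _ _))
      (Rn_nonneg C act n _ _)) (hh_pos H w').le
  · exact le_rfl

/-- the sum over the final point -/
lemma midK_sum_aux (H : TCA C act ε n) (w : S) (e : S × M × S) :
    ∑ w', midK C act n w e w' ≤
      Rn C act n w e.1 * (if act e.2.1 then C.Q e.1 e.2.1 e.2.2 else 0) / hh C act n w := by
  unfold midK
  have hw := hh_pos H w
  by_cases ha : act e.2.1
  · simp only [if_pos ha]
    have e1 : ∑ w', Rn C act n w e.1 * C.Q e.1 e.2.1 e.2.2 * Rn C act n e.2.2 w' *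
        hh C act n w' / hh C act n w =
        Rn C act n w e.1 * C.Q e.1 e.2.1 e.2.2 *
          (∑ w', Rn C act n e.2.2 w' * hh C act n w') / hh C act n w := by
      rw [Finset.mul_sum, Finset.sum_div]
      refine Finset.sum_congr rfl fun w' _ => ?_
      ring
    rw [e1]
    apply div_le_div_of_nonneg_right _ hw.le
    have h1 := R_hh_le (C := C) (act := act) n e.2.2
    have h0 : 0 ≤ Rn C act n w e.1 * C.Q e.1 e.2.1 e.2.2 :=
      mul_nonneg (Rn_nonneg C act n _ _) (C.Q_nonneg _ _ _)
    calc Rn C act n w e.1 * C.Q e.1 e.2.1 e.2.2 * (∑ w', Rn C act n e.2.2 w' * hh C act n w')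
        ≤ Rn C act n w e.1 * C.Q e.1 e.2.1 e.2.2 * 1 := mul_le_mul_of_nonneg_left h1 h0
      _ = Rn C act n w e.1 * C.Q e.1 e.2.1 e.2.2 := by ring
  · simp only [if_neg ha]
    simp

/-- `sum_{x,m,y,w'} R w x Ahat x m y R y w' h w' = sum R w x Ahat x m y (R h) y <= sum_x R w x alpha x = h w` -/
lemma midK_sum_le (H : TCA C act ε n) (w : S) : ∑ e, ∑ w', midK C act n w e w' ≤ 1 := by
  have hw := hh_pos H w
  calc ∑ e, ∑ w', midK C act n w e w'
      ≤ ∑ e : S × M × S,
          Rn C act n w e.1 * (if act e.2.1 then C.Q e.1 e.2.1 e.2.2 else 0) / hh C act n w :=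
        Finset.sum_le_sum fun e _ => midK_sum_aux H w e
    _ = hh C act n w / hh C act n w := by
        rw [← Finset.sum_div]
        congr 1
        rw [Fintype.sum_prod_type]
        unfold hh alpha
        refine Finset.sum_congr rfl fun x _ => ?_
        rw [Fintype.sum_prod_type, Finset.mul_sum]
        refine Finset.sum_congr rfl fun m _ => ?_
        rw [Finset.mul_sum]
    _ = 1 := div_self hw.ne'

/-- reversibility of the non holding part; use `Rn_symm` twice and `C.rev` -/
lemma midK_rev (H : TCA C act ε n) (w : S) (e : S × M × S) (w' : S) :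
    C.μ w * hh C act n w ^ 2 * midK C act n w e w' =
      C.μ w' * hh C act n w' ^ 2 * midK C act n w' (e.2.2, C.inv e.2.1, e.1) w := by
  obtain ⟨x, m, y⟩ := e
  unfold midK
  simp only
  have hw := (hh_pos H w).ne'
  have hw' := (hh_pos H w').ne'
  by_cases ha : act m
  · have ha' : act (C.inv m) := (H.hact m).2 ha
    rw [if_pos ha, if_pos ha']
    have r1 := Rn_symm C act H.hact n w x
    have r2 := C.rev x m y
    have r3 := Rn_symm C act H.hact n y w'
    have key : C.μ w * Rn C act n w x * C.Q x m y * Rn C act n y w' =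
        C.μ w' * Rn C act n w' y * C.Q y (C.inv m) x * Rn C act n x w := by
      calc C.μ w * Rn C act n w x * C.Q x m y * Rn C act n y w'
          = (C.μ x * Rn C act n x w) * C.Q x m y * Rn C act n y w' := by rw [r1]
        _ = (C.μ x * C.Q x m y) * Rn C act n x w * Rn C act n y w' := by ring
        _ = (C.μ y * C.Q y (C.inv m) x) * Rn C act n x w * Rn C act n y w' := by rw [r2]
        _ = (C.μ y * Rn C act n y w') * C.Q y (C.inv m) x * Rn C act n x w := by ring
        _ = (C.μ w' * Rn C act n w' y) * C.Q y (C.inv m) x * Rn C act n x w := by rw [r3]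
    have l1 : C.μ w * hh C act n w ^ 2 *
        (Rn C act n w x * C.Q x m y * Rn C act n y w' * hh C act n w' / hh C act n w) =
        (C.μ w * Rn C act n w x * C.Q x m y * Rn C act n y w') *
          (hh C act n w * hh C act n w') := by
      field_simp
    have l2 : C.μ w' * hh C act n w' ^ 2 *
        (Rn C act n w' y * C.Q y (C.inv m) x * Rn C act n x w * hh C act n w / hh C act n w') =
        (C.μ w' * Rn C act n w' y * C.Q y (C.inv m) x * Rn C act n x w) *
          (hh C act n w * hh C act n w') := by
      field_simp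
    rw [l1, l2, key]
  · have ha' : ¬ act (C.inv m) := fun h => ha ((H.hact m).1 h)
    rw [if_neg ha, if_neg ha']
    simp

/-- the midpoint chain -/
def midChain (H : TCA C act ε n) : MChain S (Option (S × M × S)) where
  μ := fun w => C.μ w * hh C act n w ^ 2 / ZZ C act n
  Q := midQ C act n
  inv := midInv C
  μ_nonneg := by
    intro x
    exact div_nonneg (mul_nonneg (C.μ_nonneg x) (sq_nonneg _)) (ZZ_pos H).le
  μ_sum := by
    rw [← Finset.sum_div]
    exact div_self (ZZ_pos H).ne'
  Q_nonneg := by
    intro x m y
    cases m with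
    | none =>
      change 0 ≤ if y = x then 1 - ∑ e, ∑ w'', midK C act n x e w'' else 0
      split_ifs
      · linarith [midK_sum_le H x]
      · exact le_rfl
    | some e => exact midK_nonneg H x e y
  Q_sum := by
    intro x
    rw [Fintype.sum_option]
    change (∑ y, if y = x then 1 - ∑ e, ∑ w'', midK C act n x e w'' else 0) +
      ∑ e, ∑ y, midK C act n x e y = 1
    rw [Finset.sum_ite_eq' Finset.univ x, if_pos (Finset.mem_univ x)]
    ring
  inv_inv := by
    intro m
    cases m with
    | none => rfl
    | some e =>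
      obtain ⟨x, m, y⟩ := e
      change some (x, C.inv (C.inv m), y) = some (x, m, y)
      rw [C.inv_inv]
  rev := by
    intro x m y
    cases m with
    | none =>
      change C.μ x * hh C act n x ^ 2 / ZZ C act n *
          (if y = x then 1 - ∑ e, ∑ w'', midK C act n x e w'' else 0) =
        C.μ y * hh C act n y ^ 2 / ZZ C act n *
          (if x = y then 1 - ∑ e, ∑ w'', midK C act n y e w'' else 0)
      by_cases h : y = x
      · subst h
        rfl
      · rw [if_neg h, if_neg (fun hh' => h hh'.symm)]
        simp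
    | some e =>
      change C.μ x * hh C act n x ^ 2 / ZZ C act n * midK C act n x e y =
        C.μ y * hh C act n y ^ 2 / ZZ C act n * midK C act n y (e.2.2, C.inv e.2.1, e.1) x
      have h := midK_rev H x e y
      calc C.μ x * hh C act n x ^ 2 / ZZ C act n * midK C act n x e y
          = (C.μ x * hh C act n x ^ 2 * midK C act n x e y) / ZZ C act n := by ring
        _ = (C.μ y * hh C act n y ^ 2 * midK C act n y (e.2.2, C.inv e.2.1, e.1) x) /
              ZZ C act n := by rw [h]
        _ = C.μ y * hh C act n y ^ 2 / ZZ C act n *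
              midK C act n y (e.2.2, C.inv e.2.1, e.1) x := by ring

lemma midW_anti {X : Type*} [NormedAddCommGroup X] {ω : M → X} (W : TCW C ω act)
    (e : Option (S × M × S)) : midW ω (midInv C e) = - midW ω e := by
  cases e with
  | none =>
    change (0 : X) = - 0
    simp
  | some e => exact W.anti e.2.1

lemma midW_bdd {X : Type*} [NormedAddCommGroup X] {ω : M → X} (W : TCW C ω act)
    (e : Option (S × M × S)) : ‖midW ω e‖ ≤ 1 := by
  cases e with
  | none =>
    change ‖(0 : X)‖ ≤ 1
    simp
  | some e => exact W.bdd e.2.1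

/-- one step of the midpoint chain has size at most one -/
lemma mid_E_one_le {X : Type*} [NormedAddCommGroup X] {ω : M → X} (H : TCA C act ε n)
    (W : TCW C ω act) : (midChain H).E 1 (fun l => ‖sm (midW ω) l‖ ^ 2) ≤ 1 := by
  unfold MChain.E
  simp only [MChain.valT]
  calc ∑ x, (midChain H).μ x * ∑ m, ∑ y, (midChain H).Q x m y * ‖sm (midW ω) [m]‖ ^ 2
      ≤ ∑ x, (midChain H).μ x * ∑ m, ∑ y, (midChain H).Q x m y := by
        refine Finset.sum_le_sum fun x _ => ?_
        apply mul_le_mul_of_nonneg_left _ ((midChain H).μ_nonneg x)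
        refine Finset.sum_le_sum fun m _ => Finset.sum_le_sum fun y _ => ?_
        have h1 : ‖sm (midW ω) [m]‖ ^ 2 ≤ 1 := by
          have h2 : sm (midW ω) [m] = midW ω m := by simp [sm]
          rw [h2]
          have h3 := midW_bdd W m
          have h4 := norm_nonneg (midW ω m)
          nlinarith
        calc (midChain H).Q x m y * ‖sm (midW ω) [m]‖ ^ 2 ≤ (midChain H).Q x m y * 1 :=
              mul_le_mul_of_nonneg_left h1 ((midChain H).Q_nonneg x m y)
          _ = (midChain H).Q x m y := by ring
    _ = ∑ x, (midChain H).μ x := by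
        refine Finset.sum_congr rfl fun x _ => ?_
        rw [(midChain H).Q_sum x, mul_one]
    _ = 1 := (midChain H).μ_sum

end

end Vale.Agent.P125.Dich
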