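import Vale.Agent.P125.Dich.TC_Cmp
import Vale.Agent.P125.Dich.TC_Count

set_option linter.unusedSectionVars false
set_option linter.unusedVariables false

/-! # Time change: summation over the number of active steps -/

namespace Vale.Agent.P125.Dich

open scoped BigOperators
open Classical

noncomputable section

variable {S M : Type} [Fintype S] [Fintype M]

private lemma tcsum_geom (q : ℝ) (hq0 : 0 ≤ q) (hq1 : q < 1) (n : ℕ) :
    ∑ k ∈ Finset.range n, q ^ k ≤ 1 / (1 - q) := by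
  have h := geom_sum_mul_neg q n
  have h1 : 0 < 1 - q := by linarith
  rw [le_div_iff₀ h1, h]
  have := pow_nonneg hq0 n
  linarith

/-- the term with `j + k = i` -/
private lemma tcsum_low (t0 : ℕ) (ht0 : 2 ≤ t0) (lam C2 ρ : ℝ) (hl0 : 0 < lam)
    (hlam : 1.62 * (t0 : ℝ) ≤ lam ^ 2) (hC2 : 0 < C2) (hρ0 : 0 < ρ) (j k : ℕ)
    (hρ : C2 * lam ^ (2 * (j + k + 1)) ≤ ρ ^ 2) :
    1 / (t0 : ℝ) ^ j * min 1 (C2 * lam ^ (2 * (j + 1)) / ρ ^ 2) ≤
      1 / (t0 : ℝ) ^ (j + k) * (50 / 81 : ℝ) ^ k := by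
  have ht : (0 : ℝ) < t0 := by
    have : 0 < t0 := by omega
    exact_mod_cast this
  have hρ2 : 0 < ρ ^ 2 := by positivity
  have h1 : min 1 (C2 * lam ^ (2 * (j + 1)) / ρ ^ 2) ≤ C2 * lam ^ (2 * (j + 1)) / ρ ^ 2 :=
    min_le_right _ _
  have h2 : (t0 : ℝ) ^ k ≤ ((50 / 81 : ℝ) * lam ^ 2) ^ k := by
    apply pow_le_pow_left₀ ht.le
    nlinarith
  have h3 : C2 * lam ^ (2 * (j + 1)) / ρ ^ 2 ≤ 1 / (t0 : ℝ) ^ k * (50 / 81 : ℝ) ^ k := by
    rw [div_le_iff₀ hρ2, one_div, inv_mul_eq_div, div_mul_eq_mul_div, le_div_iff₀ (by positivity)]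
    have e : C2 * lam ^ (2 * (j + k + 1)) = C2 * lam ^ (2 * (j + 1)) * (lam ^ 2) ^ k := by
      rw [← pow_mul]
      rw [mul_assoc, ← pow_add]
      congr 2
      ring
    rw [e] at hρ
    have hA : 0 < C2 * lam ^ (2 * (j + 1)) := by positivity
    calc C2 * lam ^ (2 * (j + 1)) * (t0 : ℝ) ^ k
        ≤ C2 * lam ^ (2 * (j + 1)) * ((50 / 81 : ℝ) * lam ^ 2) ^ k :=
          mul_le_mul_of_nonneg_left h2 hA.le
      _ = (50 / 81 : ℝ) ^ k * (C2 * lam ^ (2 * (j + 1)) * (lam ^ 2) ^ k) := by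
          rw [mul_pow]; ring
      _ ≤ (50 / 81 : ℝ) ^ k * ρ ^ 2 := mul_le_mul_of_nonneg_left hρ (by positivity)
  calc 1 / (t0 : ℝ) ^ j * min 1 (C2 * lam ^ (2 * (j + 1)) / ρ ^ 2)
      ≤ 1 / (t0 : ℝ) ^ j * (1 / (t0 : ℝ) ^ k * (50 / 81 : ℝ) ^ k) :=
        mul_le_mul_of_nonneg_left (h1.trans h3) (by positivity)
    _ = 1 / (t0 : ℝ) ^ (j + k) * (50 / 81 : ℝ) ^ k := by
        rw [pow_add]
        field_simp

/-- for `j <= i` the term is at most `t0^-i (t0/lam^2)^(i-j)`, for `j > i` at most `t0^-j` -/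
lemma num_sum (t0 : ℕ) (ht0 : 2 ≤ t0) (lam C2 ρ : ℝ) (hl0 : 0 < lam)
    (hlam : 1.62 * (t0 : ℝ) ≤ lam ^ 2) (hC2 : 0 < C2) (hρ0 : 0 < ρ) (i T : ℕ)
    (hρ : C2 * lam ^ (2 * (i + 1)) ≤ ρ ^ 2) :
    ∑ j ∈ Finset.range T, 1 / (t0 : ℝ) ^ j * min 1 (C2 * lam ^ (2 * (j + 1)) / ρ ^ 2) ≤
      4 / (t0 : ℝ) ^ i := by
  have ht : (0 : ℝ) < t0 := by
    have : 0 < t0 := by omega
    exact_mod_cast this
  have ht2 : (2 : ℝ) ≤ t0 := by exact_mod_cast ht0
  set F : ℕ → ℝ := fun j => 1 / (t0 : ℝ) ^ j * min 1 (C2 * lam ^ (2 * (j + 1)) / ρ ^ 2) with hF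
  have hFnn : ∀ j, 0 ≤ F j := by
    intro j
    have : 0 ≤ min 1 (C2 * lam ^ (2 * (j + 1)) / ρ ^ 2) := le_min zero_le_one (by positivity)
    exact mul_nonneg (by positivity) this
  have hsub : ∑ j ∈ Finset.range T, F j ≤ ∑ j ∈ Finset.range (i + 1 + T), F j := by
    apply Finset.sum_le_sum_of_subset_of_nonneg
    · intro j hj
      rw [Finset.mem_range] at hj ⊢
      omega
    · intro j _ _
      exact hFnn j
  refine hsub.trans ?_
  rw [Finset.sum_range_add]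
  have hlow : ∑ j ∈ Finset.range (i + 1), F j ≤ 1 / (t0 : ℝ) ^ i * (81 / 31) := by
    have h1 : ∀ j ∈ Finset.range (i + 1), F j ≤ 1 / (t0 : ℝ) ^ i * (50 / 81 : ℝ) ^ (i + 1 - 1 - j) := by
      intro j hj
      rw [Finset.mem_range] at hj
      obtain ⟨k, rfl⟩ : ∃ k, i = j + k := ⟨i - j, by omega⟩
      have := tcsum_low t0 ht0 lam C2 ρ hl0 hlam hC2 hρ0 j k hρ
      have e : j + k + 1 - 1 - j = k := by omega
      rw [e]
      exact this
    refine (Finset.sum_le_sum h1).trans ?_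
    rw [← Finset.mul_sum, Finset.sum_range_reflect (fun k => (50 / 81 : ℝ) ^ k) (i + 1)]
    apply mul_le_mul_of_nonneg_left _ (by positivity)
    have := tcsum_geom (50 / 81 : ℝ) (by norm_num) (by norm_num) (i + 1)
    refine this.trans ?_
    norm_num
  have hhigh : ∑ k ∈ Finset.range T, F (i + 1 + k) ≤ 1 / (t0 : ℝ) ^ i * 1 := by
    have h1 : ∀ k ∈ Finset.range T, F (i + 1 + k) ≤ 1 / (t0 : ℝ) ^ i * ((1 / 2) * (1 / 2 : ℝ) ^ k) := by
      intro k _
      have hm : min 1 (C2 * lam ^ (2 * (i + 1 + k + 1)) / ρ ^ 2) ≤ 1 := min_le_left _ _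
      have h2 : F (i + 1 + k) ≤ 1 / (t0 : ℝ) ^ (i + 1 + k) * 1 :=
        mul_le_mul_of_nonneg_left hm (by positivity)
      refine h2.trans ?_
      rw [mul_one, pow_add, pow_add, pow_one]
      have h3 : 1 / (t0 : ℝ) ≤ 1 / 2 := by
        apply one_div_le_one_div_of_le (by norm_num) ht2
      have h4 : (1 / (t0 : ℝ)) ^ k ≤ (1 / 2 : ℝ) ^ k :=
        pow_le_pow_left₀ (by positivity) h3 k
      have e : 1 / ((t0 : ℝ) ^ i * (t0 : ℝ) * (t0 : ℝ) ^ k)
          = 1 / (t0 : ℝ) ^ i * ((1 / (t0 : ℝ)) * (1 / (t0 : ℝ)) ^ k) := by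
        rw [one_div_pow]
        field_simp
      rw [e]
      apply mul_le_mul_of_nonneg_left _ (by positivity)
      exact mul_le_mul h3 h4 (by positivity) (by norm_num)
    refine (Finset.sum_le_sum h1).trans ?_
    rw [← Finset.mul_sum, ← Finset.mul_sum]
    apply mul_le_mul_of_nonneg_left _ (by positivity)
    have := tcsum_geom (1 / 2 : ℝ) (by norm_num) (by norm_num) T
    have e : (1 : ℝ) / (1 - 1 / 2) = 2 := by norm_num
    rw [e] at this
    linarith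
  have hpos : 0 < 1 / (t0 : ℝ) ^ i := by positivity
  have e4 : 4 / (t0 : ℝ) ^ i = 1 / (t0 : ℝ) ^ i * 4 := by ring
  rw [e4]
  nlinarith

variable {X : Type*} [NormedAddCommGroup X] {C : MChain S M} {ω : M → X} {act : M → Prop} {ε : ℝ}
  {n : ℕ}

private lemma tcsum_sm_zero (hsupp : ∀ m, ¬ act m → ω m = 0) :
    ∀ l : List M, nact act l = 0 → sm ω l = 0 := by
  intro l
  induction l with
  | nil => intro _; rfl
  | cons m l ih =>
    intro h
    by_cases hm : act m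
    · rw [nact_cons_act act hm] at h
      omega
    · rw [nact_cons_inact act hm] at h
      rw [sm_cons, hsupp m hm, ih h, add_zero]

private lemma tcsum_nact_le (l : List M) : nact act l ≤ l.length := by
  unfold nact
  exact List.countP_le_length

private lemma tcsum_mua_nonneg (C : MChain S M) (act : M → Prop) : 0 ≤ mua C act := by
  unfold mua alpha
  apply Finset.sum_nonneg
  intro x _
  apply mul_nonneg (C.μ_nonneg x)
  apply Finset.sum_nonneg
  intro m _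
  apply Finset.sum_nonneg
  intro y _
  split_ifs
  · exact C.Q_nonneg x m y
  · exact le_refl _

/-- PROOF.md TC 6.  With `r = C3 lam^i`, `ρ = r/2 - 1 >= sqrt C2 lam^(i+1)`.  If `r < |sm ω l|` and `l.length = t` then
`1 <= nact act l <= t < t0^t`, so `t0^j <= nact act l < t0^(j+1)` for some `j < t`: `E_union`, `count_bound`,
`Pal_le_max`, `num_sum`. -/
theorem weak_unif (H : TCA C act ε n) (W : TCW C ω act) (t0 : ℕ) (ht0 : 2 ≤ t0) (lam C2 : ℝ)
    (hl0 : 0 < lam) (hlam : 1.62 * (t0 : ℝ) ≤ lam ^ 2) (hC2 : 0 < C2)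
    (hMax : MaxBound X t0 lam C2) (t i : ℕ) (htn : t ≤ n) :
    C.E t (fun l => if (2 + 2 * Real.sqrt C2 * lam) * lam ^ i < ‖sm ω l‖ then 1 else 0) ≤
      32 * t * mua C act / (t0 : ℝ) ^ i := by
  have ht : (0 : ℝ) < t0 := by
    have : 0 < t0 := by omega
    exact_mod_cast this
  have ht2 : (2 : ℝ) ≤ t0 := by exact_mod_cast ht0
  have hlam1 : 1 ≤ lam := by nlinarith
  have hlami : 1 ≤ lam ^ i := one_le_pow₀ hlam1
  have hs : 0 < Real.sqrt C2 := Real.sqrt_pos.2 hC2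
  set r : ℝ := (2 + 2 * Real.sqrt C2 * lam) * lam ^ i with hr
  set ρ : ℝ := r / 2 - 1 with hρdef
  have hρge : Real.sqrt C2 * lam ^ (i + 1) ≤ ρ := by
    rw [hρdef, hr, pow_succ]
    nlinarith
  have hρ0 : 0 < ρ := lt_of_lt_of_le (by positivity) hρge
  have hr2 : 2 < r := by
    rw [hρdef] at hρ0
    linarith
  have hρ2 : C2 * lam ^ (2 * (i + 1)) ≤ ρ ^ 2 := by
    have h1 : (Real.sqrt C2 * lam ^ (i + 1)) ^ 2 ≤ ρ ^ 2 :=
      pow_le_pow_left₀ (by positivity) hρge 2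
    rw [mul_pow, Real.sq_sqrt hC2.le, ← pow_mul, mul_comm (i + 1) 2] at h1
    exact h1
  have hmua := tcsum_mua_nonneg C act
  have hU := E_union C (Finset.range t) t (fun l => r < ‖sm ω l‖)
    (fun j l => r < ‖sm ω l‖ ∧ t0 ^ j ≤ nact act l ∧ nact act l < t0 ^ (j + 1)) (by
      intro l hl hp
      have hn0 : nact act l ≠ 0 := by
        intro h0
        rw [tcsum_sm_zero W.supp l h0, norm_zero] at hp
        linarith
      have hnle : nact act l ≤ t := hl ▸ tcsum_nact_le l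
      refine ⟨Nat.log t0 (nact act l), ?_, hp, Nat.pow_log_le_self t0 hn0,
        Nat.lt_pow_succ_log_self (by omega) _⟩
      rw [Finset.mem_range]
      have h1 : t0 ^ Nat.log t0 (nact act l) ≤ nact act l := Nat.pow_log_le_self t0 hn0
      have h2 : t < t0 ^ t := Nat.lt_pow_self (by omega)
      have h3 : t0 ^ Nat.log t0 (nact act l) < t0 ^ t := by omega
      exact (Nat.pow_lt_pow_iff_right (by omega)).1 h3)
  refine hU.trans ?_
  have hterm : ∀ j ∈ Finset.range t,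
      C.E t (fun l => if r < ‖sm ω l‖ ∧ t0 ^ j ≤ nact act l ∧ nact act l < t0 ^ (j + 1) then 1 else 0)
        ≤ 8 * t * mua C act * (1 / (t0 : ℝ) ^ j * min 1 (C2 * lam ^ (2 * (j + 1)) / ρ ^ 2)) := by
    intro j _
    have h1 := count_bound (C := C) (ω := ω) H.hact W t n (t0 ^ j) (t0 ^ (j + 1)) htn
      (Nat.one_le_pow _ _ (by omega)) r hr2
    have h2 := Pal_le_max H W t0 lam C2 hC2 hMax (j + 1) ρ hρ0
    refine h1.trans ?_
    have hc : (0 : ℝ) ≤ 2 * t / ((t0 ^ j : ℕ) : ℝ) := by positivity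
    refine (mul_le_mul_of_nonneg_left h2 hc).trans ?_
    push_cast
    apply le_of_eq
    ring
  have hbridge : ∀ j ∈ Finset.range t,
      C.E t (fun l => @ite ℝ (r < ‖sm ω l‖ ∧ t0 ^ j ≤ nact act l ∧ nact act l < t0 ^ (j + 1))
          (propDecidable _) 1 0)
        ≤ 8 * t * mua C act * (1 / (t0 : ℝ) ^ j * min 1 (C2 * lam ^ (2 * (j + 1)) / ρ ^ 2)) := by
    intro j hj
    refine le_trans (le_of_eq ?_) (hterm j hj)
    congr 1
    funext l
    congr
  refine (Finset.sum_le_sum hbridge).trans ?_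
  rw [← Finset.mul_sum]
  have hs4 := num_sum t0 ht0 lam C2 ρ hl0 hlam hC2 hρ0 i t hρ2
  have hc : 0 ≤ 8 * (t : ℝ) * mua C act := by positivity
  refine (mul_le_mul_of_nonneg_left hs4 hc).trans ?_
  apply le_of_eq
  ring

end

end Vale.Agent.P125.Dich
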